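import Vale.Agent.P331.Rank

open scoped Classical
open Finset

namespace Vale.Agent.P331

open RankFn

section run
variable {E α : Type}

/-- The set accepted among the first arrivals by an acceptance condition. -/
noncomputable def run (cond : Finset E → α → Prop) (el : α → E) {n : ℕ} (x : Fin n → α) :
    ℕ → Finset E
  | 0 => ∅
  | k + 1 => if h : k < n then
      (if cond (run cond el x k) (x ⟨k, h⟩) then insert (el (x ⟨k, h⟩)) (run cond el x k)
        else run cond el x k)
      else run cond el x k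

theorem run_restrict (cond : Finset E → α → Prop) (el : α → E) {n k : ℕ} (hk : k ≤ n)
    (x : Fin n → α) (j : ℕ) (hj : j ≤ k) :
    run cond el (fun t : Fin k => x (Fin.castLE hk t)) j = run cond el x j := by
  induction j with
  | zero => rfl
  | succ j ih =>
    have h1 : j < k := hj
    have h2 : j < n := by omega
    simp only [run, dif_pos h1, dif_pos h2, ih h1.le, Fin.castLE_mk]

theorem mem_run (cond : Finset E → α → Prop) (el : α → E) {n : ℕ} (x : Fin n → α) (m : ℕ)
    (e : E) : e ∈ run cond el x m ↔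
      ∃ k : Fin n, (k : ℕ) < m ∧ el (x k) = e ∧ cond (run cond el x k) (x k) := by
  induction m with
  | zero => simp [run]
  | succ m ih =>
    by_cases h : m < n
    · by_cases hc : cond (run cond el x m) (x ⟨m, h⟩)
      · simp only [run, dif_pos h, if_pos hc, mem_insert, ih]
        constructor
        · rintro (rfl | ⟨k, h1, h2⟩)
          · exact ⟨⟨m, h⟩, by simp, rfl, hc⟩
          · exact ⟨k, by omega, h2⟩
        · rintro ⟨k, h1, h2, h3⟩
          by_cases hk : (k : ℕ) = m
          · left; rw [← h2]; congr 2; exact Fin.ext hk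
          · right; exact ⟨k, by omega, h2, h3⟩
      · simp only [run, dif_pos h, if_neg hc, ih]
        constructor
        · rintro ⟨k, h1, h2⟩; exact ⟨k, by omega, h2⟩
        · rintro ⟨k, h1, h2, h3⟩
          by_cases hk : (k : ℕ) = m
          · exfalso; apply hc; subst hk; exact h3
          · exact ⟨k, by omega, h2, h3⟩
    · simp only [run, dif_neg h, ih]
      constructor
      · rintro ⟨k, h1, h2⟩; exact ⟨k, by omega, h2⟩
      · rintro ⟨k, h1, h2⟩; exact ⟨k, by have := k.2; omega, h2⟩

end run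

variable {E : Type} [Fintype E]

/-- The greedy acceptance condition in the windows of a chain. -/
def gcond (r : RankFn E) (Ft : ℤ → Finset E) (Cand : ℤ → E → Prop) (A : Finset E) (e : E) :
    Prop :=
  ∃ j, Cand j e ∧ e ∉ r.cl (Ft (j - 1) ∪ A ∩ Ft j)

/-- What the greedy rule guarantees after the elements of `Pr` have arrived. -/
structure GSpec (r : RankFn E) (Ft : ℤ → Finset E) (Cand : ℤ → E → Prop) (Pr A : Finset E) :
    Prop where
  ind : ∀ j, r.ρ (Ft (j - 1) ∪ A ∩ Ft j) = r.ρ (Ft (j - 1)) + ((A ∩ Ft j) \ Ft (j - 1)).card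
  span : ∀ e ∈ Pr, ∀ j, Cand j e → e ∈ r.cl (Ft (j - 1) ∪ A ∩ Ft j)
  lev : ∀ e ∈ A, ∃ j, Cand j e ∧ e ∉ Ft (j - 1)

variable {r : RankFn E} {Ft : ℤ → Finset E} {Cand : ℤ → E → Prop}

theorem GSpec.step (hF : Monotone Ft) (hC : ∀ j e, Cand j e → e ∈ Ft j) {Pr A : Finset E}
    (h : GSpec r Ft Cand Pr A) (e : E) :
    GSpec r Ft Cand (insert e Pr) (if gcond r Ft Cand A e then insert e A else A) := by
  split_ifs with hc
  · obtain ⟨j₀, h1, h2⟩ := hc
    have h3 : e ∉ Ft (j₀ - 1) := fun h' => h2 (subset_cl _ (mem_union_left _ h'))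
    have h4 : e ∉ A := fun h' => h2 (subset_cl _ (mem_union_right _ (mem_inter.2 ⟨h', hC _ _ h1⟩)))
    refine ⟨?_, ?_, ?_⟩
    · intro j
      rcases lt_trichotomy j j₀ with hj | hj | hj
      · have : e ∉ Ft j := fun h' => h3 (hF (by omega) h')
        rw [insert_inter_of_notMem this]
        exact h.ind j
      · subst hj
        rw [insert_inter_of_mem (hC _ _ h1), union_insert, not_mem_cl.1 h2, h.ind j,
          insert_sdiff_of_notMem _ h3, card_insert_of_notMem]
        · omega
        · simp [h4]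
      · have a1 : e ∈ Ft (j - 1) := hF (by omega) (hC _ _ h1)
        have a2 : e ∈ Ft j := hF hj.le (hC _ _ h1)
        rw [insert_inter_of_mem a2, union_insert, insert_eq_of_mem (mem_union_left _ a1),
          insert_sdiff_of_mem _ a1]
        exact h.ind j
    · intro x hx j hj
      rw [mem_insert] at hx
      rcases hx with rfl | hx
      · exact subset_cl _ (mem_union_right _ (mem_inter.2 ⟨mem_insert_self _ _, hC _ _ hj⟩))
      · exact cl_mono (union_subset_union subset_rfl
          (inter_subset_inter (subset_insert _ _) subset_rfl)) (h.span x hx j hj)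
    · intro x hx
      rw [mem_insert] at hx
      rcases hx with rfl | hx
      · exact ⟨j₀, h1, h3⟩
      · exact h.lev x hx
  · refine ⟨h.ind, ?_, h.lev⟩
    intro x hx j hj
    rw [mem_insert] at hx
    rcases hx with rfl | hx
    · by_contra h'
      exact hc ⟨j, hj, h'⟩
    · exact h.span x hx j hj

theorem gspec_run (hF : Monotone Ft) (hC : ∀ j e, Cand j e → e ∈ Ft j) {n : ℕ}
    (π : Fin n ≃ E) :
    GSpec r Ft Cand univ (run (gcond r Ft Cand) id π n) := by
  have key : ∀ m ≤ n, GSpec r Ft Cand (univ.filter (fun e => (π.symm e : ℕ) < m))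
      (run (gcond r Ft Cand) id π m) := by
    intro m
    induction m with
    | zero =>
      intro _
      refine ⟨by simp [run], by simp, by simp [run]⟩
    | succ m ih =>
      intro hm
      have h : m < n := hm
      have := (ih h.le).step hF hC (π ⟨m, h⟩)
      simp only [run, dif_pos h, id]
      convert this using 1
      ext x
      simp only [mem_filter, mem_univ, true_and, mem_insert]
      constructor
      · intro hx
        by_cases h1 : (π.symm x : ℕ) = m
        · left
          rw [← π.apply_symm_apply x]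
          congr 1
          exact Fin.ext h1
        · right; omega
      · rintro (rfl | hx)
        · simp
        · omega
  have := key n le_rfl
  convert this using 1
  ext x
  simp

theorem GSpec.indep (hF : Monotone Ft) (hC : ∀ j e, Cand j e → e ∈ Ft j) {Pr A : Finset E}
    (h : GSpec r Ft Cand Pr A) : r.ρ A = A.card := by
  have key : ∀ a b, a ≤ b → r.Indm (Ft a) ((A ∩ Ft b) \ Ft a) := by
    intro a b hab
    induction b, hab using Int.leInduction with
    | base =>
      have : (A ∩ Ft a) \ Ft a = ∅ := sdiff_eq_empty_iff_subset.2 inter_subset_right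
      rw [this]; exact Indm.empty _
    | succ b hab ih =>
      have h1 : r.Indm (Ft b) ((A ∩ Ft (b + 1)) \ Ft b) := by
        have := h.ind (b + 1)
        rw [add_sub_cancel_right] at this
        unfold Indm
        rw [union_sdiff_self_eq_union, this]
      have h2 := ih.union h1 (union_subset (hF hab) (sdiff_subset.trans inter_subset_right))
      refine h2.subset ?_
      intro x hx
      simp only [mem_sdiff, mem_inter, mem_union] at hx ⊢
      tauto
  have hl : ∀ e : E, ∃ j, e ∈ A → (e ∈ Ft j ∧ e ∉ Ft (j - 1)) := by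
    intro e
    by_cases he : e ∈ A
    · obtain ⟨j, h1, h2⟩ := h.lev e he
      exact ⟨j, fun _ => ⟨hC _ _ h1, h2⟩⟩
    · exact ⟨0, fun h => absurd h he⟩
  choose j hj using hl
  obtain ⟨b, hb⟩ := (Set.finite_range j).bddAbove
  obtain ⟨a, ha⟩ := (Set.finite_range j).bddBelow
  have h1 := key (min (a - 1) b) b (min_le_right _ _)
  have h2 : A ⊆ (A ∩ Ft b) \ Ft (min (a - 1) b) := by
    intro e he
    have b1 := hb (Set.mem_range_self e)
    have a1 := ha (Set.mem_range_self e)
    refine mem_sdiff.2 ⟨mem_inter.2 ⟨he, hF b1 (hj e he).1⟩, fun h' => (hj e he).2 (hF ?_ h')⟩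
    exact (min_le_left _ _).trans (by omega)
  have h3 := (h1.subset h2).anti (empty_subset _)
  unfold Indm at h3
  rw [r.empty] at h3
  simpa using h3

theorem GSpec.gain (hF : Monotone Ft) (hC : ∀ j e, Cand j e → e ∈ Ft j) {A : Finset E}
    (h : GSpec r Ft Cand univ A) (j : ℤ) {Hv B C : Finset E}
    (hB : ∀ e, Cand j e → e ∉ Hv → e ∈ B) (hCC : ∀ e ∈ C, Cand j e) :
    r.ρ (Ft (j - 1) ∪ B ∪ C) ≤ r.ρ (Ft (j - 1) ∪ B) + (((A ∩ Ft j) \ Ft (j - 1)) ∩ Hv).card := by
  refine le_trans (rk_le_of_subset_cl ?_) (rk_union_le_card _ _)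
  refine union_subset (subset_union_left.trans (subset_cl _)) ?_
  intro e he
  refine cl_mono ?_ (h.span e (mem_univ _) j (hCC e he))
  intro x hx
  simp only [mem_union, mem_inter, mem_sdiff] at hx ⊢
  by_cases h1 : x ∈ Ft (j - 1)
  · tauto
  have h2 : x ∈ A ∧ x ∈ Ft j := by tauto
  by_cases h3 : x ∈ Hv
  · tauto
  obtain ⟨j', h4, h5⟩ := h.lev x h2.1
  have : j' = j := by
    rcases lt_trichotomy j' j with h6 | h6 | h6
    · exact absurd (hF (by omega) (hC _ _ h4)) h1
    · exact h6
    · exact absurd (hF (by omega) h2.2) h5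
  exact Or.inl (Or.inr (hB x (this ▸ h4) h3))

omit [Fintype E] in
theorem sum_windows_le (hF : Monotone Ft) (A Hv : Finset E) (j₀ : ℤ) (K : ℕ) :
    ∑ k ∈ range K, (((A ∩ Ft (j₀ + k)) \ Ft (j₀ + k - 1)) ∩ Hv).card ≤ (A ∩ Hv).card := by
  rw [← card_biUnion]
  · apply card_le_card
    refine biUnion_subset.2 (fun k _ => inter_subset_inter ?_ subset_rfl)
    exact sdiff_subset.trans inter_subset_left
  · intro a _ b _ hab
    rw [Function.onFun, disjoint_left]
    intro e h1 h2
    simp only [mem_inter, mem_sdiff] at h1 h2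
    rcases lt_or_gt_of_ne hab with h3 | h3
    · exact h2.1.2 (hF (by omega) h1.1.1.2)
    · exact h1.1.2 (hF (by omega) h2.1.1.2)

omit [Fintype E] in
/-- Telescoping of the rank lost to a fixed set `H`. -/
theorem telescope (H : Finset E) (Y C : ℕ → Finset E) (hY : ∀ k, Y k ∪ C k ⊆ Y (k + 1)) (K : ℕ) :
    ∑ k ∈ range K, ((r.ρ (Y k ∪ C k) : ℤ) - r.ρ (Y k)) ≤
      ∑ k ∈ range K, ((r.ρ (Y k ∪ H ∪ C k) : ℤ) - r.ρ (Y k ∪ H)) + r.ρ H := by
  have key : ∀ K, ∑ k ∈ range K, ((r.ρ (Y k ∪ C k) : ℤ) - r.ρ (Y k)) +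
      ((r.ρ (Y K ∪ H) : ℤ) - r.ρ (Y K)) ≤
      ∑ k ∈ range K, ((r.ρ (Y k ∪ H ∪ C k) : ℤ) - r.ρ (Y k ∪ H)) + r.ρ H := by
    intro K
    induction K with
    | zero =>
      have := rk_union_le (r := r) (Y 0) H
      simp only [range_zero, sum_empty]
      omega
    | succ K ih =>
      rw [sum_range_succ, sum_range_succ]
      have := dim (r := r) (hY K) H
      rw [union_right_comm] at this
      omega
  have h1 := key K
  have h2 := r.mono (subset_union_left : Y K ⊆ Y K ∪ H)
  omega

end Vale.Agent.P331
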