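import Mathlib

open scoped Classical
open Finset

namespace Vale.Agent.P331

/-- Uniform average over a finite type. -/
noncomputable def av {α : Type} [Fintype α] (f : α → ℝ) : ℝ := (∑ x, f x) / Fintype.card α

/-- Real indicator of a proposition. -/
noncomputable def ind (p : Prop) : ℝ := if p then 1 else 0

theorem ind_nonneg (p : Prop) : 0 ≤ ind p := by unfold ind; split_ifs <;> norm_num
theorem ind_le_one (p : Prop) : ind p ≤ 1 := by unfold ind; split_ifs <;> norm_num
theorem ind_pos {p : Prop} (h : p) : ind p = 1 := if_pos h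
theorem ind_neg {p : Prop} (h : ¬ p) : ind p = 0 := if_neg h
theorem ind_mono {p q : Prop} (h : p → q) : ind p ≤ ind q := by
  by_cases hp : p
  · rw [ind_pos hp, ind_pos (h hp)]
  · rw [ind_neg hp]; exact ind_nonneg q
theorem ind_congr {p q : Prop} (h : p ↔ q) : ind p = ind q := by rw [propext h]
theorem ind_and (p q : Prop) : ind (p ∧ q) = ind p * ind q := by
  by_cases hp : p <;> by_cases hq : q <;> simp [ind, hp, hq]

theorem card_filter_eq_sum_ind {E : Type} (s : Finset E) (p : E → Prop) [DecidablePred p] :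
    ((s.filter p).card : ℝ) = ∑ e ∈ s, ind (p e) := by
  rw [card_filter]
  push_cast
  apply sum_congr rfl
  intro e _
  unfold ind
  by_cases h : p e <;> simp [h]

section
variable {α β : Type} [Fintype α] [Fintype β]

theorem av_const [Nonempty α] (c : ℝ) : av (fun _ : α => c) = c := by
  unfold av
  have : (Fintype.card α : ℝ) ≠ 0 := by exact_mod_cast Fintype.card_ne_zero
  simp only [sum_const, card_univ, nsmul_eq_mul]
  field_simp

theorem av_mono {f g : α → ℝ} (h : ∀ x, f x ≤ g x) : av f ≤ av g :=
  div_le_div_of_nonneg_right (sum_le_sum (fun x _ => h x)) (by positivity)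

theorem av_nonneg {f : α → ℝ} (h : ∀ x, 0 ≤ f x) : 0 ≤ av f :=
  div_nonneg (sum_nonneg (fun x _ => h x)) (by positivity)

theorem av_le [Nonempty α] {f : α → ℝ} {c : ℝ} (h : ∀ x, f x ≤ c) : av f ≤ c :=
  (av_mono h).trans (av_const c).le

theorem le_av [Nonempty α] {f : α → ℝ} {c : ℝ} (h : ∀ x, c ≤ f x) : c ≤ av f :=
  (av_const c).ge.trans (av_mono h)

theorem av_add (f g : α → ℝ) : av (fun x => f x + g x) = av f + av g := by
  unfold av; rw [sum_add_distrib, add_div]

theorem av_sub (f g : α → ℝ) : av (fun x => f x - g x) = av f - av g := by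
  unfold av; rw [sum_sub_distrib, sub_div]

theorem av_mul (c : ℝ) (f : α → ℝ) : av (fun x => c * f x) = c * av f := by
  unfold av; rw [← mul_sum, mul_div_assoc]

theorem av_sum {ι : Type} (s : Finset ι) (f : ι → α → ℝ) :
    av (fun x => ∑ i ∈ s, f i x) = ∑ i ∈ s, av (f i) := by
  unfold av; rw [sum_comm, sum_div]

theorem av_congr {f g : α → ℝ} (h : ∀ x, f x = g x) : av f = av g := by
  rw [funext h]

theorem av_prod (f : α × β → ℝ) : av f = av (fun x => av (fun y => f (x, y))) := by
  unfold av
  rw [Fintype.sum_prod_type, Fintype.card_prod, ← sum_div, div_div]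
  push_cast
  rw [mul_comm]

theorem av_comm (f : α → β → ℝ) :
    av (fun x => av (fun y => f x y)) = av (fun y => av (fun x => f x y)) := by
  unfold av
  rw [← sum_div, ← sum_div, div_div, div_div, sum_comm, mul_comm]

theorem av_bij {ψ : α → α} (h : Function.Bijective ψ) (f : α → ℝ) :
    av (fun x => f (ψ x)) = av f := by
  unfold av
  rw [h.sum_comp f]

theorem av_inj {ψ : α → α} (h : Function.Injective ψ) (f : α → ℝ) :
    av (fun x => f (ψ x)) = av f :=
  av_bij (Finite.injective_iff_bijective.1 h) f

end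

/-- Piecewise combination of two functions. -/
noncomputable def pw {E Λ : Type} (G : Finset E) (μ l : E → Λ) : E → Λ :=
  fun e => if e ∈ G then μ e else l e

theorem pw_mem {E Λ : Type} {G : Finset E} {μ l : E → Λ} {e : E} (h : e ∈ G) :
    pw G μ l e = μ e := if_pos h

theorem pw_not_mem {E Λ : Type} {G : Finset E} {μ l : E → Λ} {e : E} (h : e ∉ G) :
    pw G μ l e = l e := if_neg h

section
variable {E Λ : Type} [Fintype E] [Fintype Λ] [Nonempty Λ]

theorem av_update (g : E) (F : (E → Λ) → ℝ) :
    av F = av (fun x : Λ => av (fun μ : E → Λ => F (Function.update μ g x))) := by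
  have h1 : av F = av (fun p : Λ × (E → Λ) => F p.2) := by
    rw [av_prod]; exact (av_const _).symm
  have h2 : Function.Involutive
      (fun p : Λ × (E → Λ) => ((p.2 g, Function.update p.2 g p.1) : Λ × (E → Λ))) := by
    rintro ⟨x, μ⟩
    simp
  rw [h1, ← av_bij h2.bijective, av_prod]

theorem av_resample (G : (E → Λ) → Finset E)
    (hG : ∀ l μ, G (pw (G l) μ l) = G l) (F : (E → Λ) → ℝ) :
    av F = av (fun l : E → Λ => av (fun μ : E → Λ => F (pw (G l) μ l))) := by
  have h1 : av F = av (fun p : (E → Λ) × (E → Λ) => F p.1) := by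
    rw [av_prod]; exact av_congr (fun x => (av_const _).symm)
  have h2 : Function.Involutive
      (fun p : (E → Λ) × (E → Λ) =>
        ((pw (G p.1) p.2 p.1, pw (G p.1) p.1 p.2) : (E → Λ) × (E → Λ))) := by
    rintro ⟨l, μ⟩
    simp only [hG]
    ext x <;> by_cases hx : x ∈ G l <;> simp [hx, pw]
  rw [h1, ← av_bij h2.bijective, av_prod]

omit [Nonempty Λ] in
theorem av_pi_prod (f : E → Λ → ℝ) :
    av (fun μ : E → Λ => ∏ e, f e (μ e)) = ∏ e, av (f e) := by
  unfold av
  rw [prod_div_distrib, prod_univ_sum, Fintype.piFinset_univ, Fintype.card_pi]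
  push_cast
  rfl

/-- Mecke type identity: a factor depending on one coordinate separates. -/
theorem av_mecke (g : E) (φ : Λ → ℝ) (F : (E → Λ) → ℝ)
    (hF : ∀ μ x, F (Function.update μ g x) = F μ) :
    av (fun μ : E → Λ => φ (μ g) * F μ) = av φ * av F := by
  rw [av_update g]
  simp only [Function.update_self, hF, av_mul]
  rw [mul_comm, ← av_mul]
  exact av_congr (fun x => mul_comm _ _)

end

theorem av_ind_fin_eq {N : ℕ} (k : Fin N) : av (fun x : Fin N => ind (x = k)) = 1 / N := by
  unfold av
  rw [sum_eq_single k (fun b _ hb => ind_neg hb) (by simp), ind_pos rfl]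
  simp

theorem av_bool (f : Bool → ℝ) : av f = (f true + f false) / 2 := by
  unfold av
  simp

end Vale.Agent.P331
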