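import Vale.Agent.P331.Encode
import Vale.Agent.P331.Avg

open scoped Classical
open Finset

namespace Vale.Agent.P331

variable {E : Type} [Fintype E]

theorem exp_moment (S : Finset E) :
    av (fun β : E → Bool => Real.exp ((1 / 3) * ((S.filter (fun e => β e = false)).card : ℝ) -
      ((S.filter (fun e => β e = true)).card : ℝ))) ≤ 1 := by
  have h1 : ∀ β : E → Bool, Real.exp ((1 / 3) * ((S.filter (fun e => β e = false)).card : ℝ) -
      ((S.filter (fun e => β e = true)).card : ℝ)) =
      ∏ e, (fun e (b : Bool) => if e ∈ S then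
        (if b then Real.exp (-1) else Real.exp (1 / 3)) else 1) e (β e) := by
    intro β
    rw [card_filter_eq_sum_ind, card_filter_eq_sum_ind, mul_sum, ← sum_sub_distrib, Real.exp_sum]
    simp only
    rw [Finset.prod_ite_mem univ S, univ_inter]
    apply prod_congr rfl
    intro e _
    cases h : β e <;> simp [ind]
  rw [av_congr h1]
  refine (av_pi_prod (fun e (b : Bool) => if e ∈ S then
        (if b then Real.exp (-1) else Real.exp (1 / 3)) else 1)).le.trans ?_
  apply prod_le_one
  · intro e _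
    apply av_nonneg
    intro b
    split_ifs <;> positivity
  · intro e _
    rw [av_bool]
    by_cases he : e ∈ S
    · simp only [he, if_true, Bool.false_eq_true, if_false]
      have a1 : Real.exp (-1) ≤ 1 / 2 := by
        have := Real.add_one_le_exp (1 : ℝ)
        rw [Real.exp_neg, inv_le_comm₀ (Real.exp_pos _) (by norm_num)]
        linarith
      have a2 : Real.exp (1 / 3) ≤ 3 / 2 := by
        have := Real.add_one_le_exp (-(1 / 3) : ℝ)
        rw [Real.exp_neg, le_inv_comm₀ (by norm_num) (Real.exp_pos _)] at this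
        linarith
      linarith
    · simp [he]

theorem geom_le {y : ℝ} (h0 : 0 ≤ y) (h1 : y ≤ 1 / 2) (M : ℕ) :
    ∑ m ∈ range M, y ^ m ≤ 1 + 2 * y := by
  have h := mul_neg_geom_sum y M
  have h2 : 0 ≤ y ^ M := by positivity
  by_contra h3
  push Not at h3
  nlinarith

/-- The finite set of all short codes. -/
noncomputable def codes (W : Finset E) (M : ℕ) : Finset (Finset E × Finset E × (E → ℕ)) :=
  W.powerset ×ˢ W.powerset ×ˢ Fintype.piFinset (fun e => if e ∈ W then range M else {0})

theorem codes_weight (W : Finset E) (M : ℕ) {y : ℝ} (h0 : 0 ≤ y) (h1 : y ≤ 1 / 2) :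
    ∑ c ∈ codes W M, y ^ (c.1.card + c.2.1.card + ∑ e, c.2.2 e) ≤
      Real.exp (4 * y * W.card) := by
  have a1 : ∑ A ∈ W.powerset, y ^ A.card = (y + 1) ^ W.card := by
    rw [← sum_pow_mul_eq_add_pow]; simp
  have a2 : ∑ c ∈ Fintype.piFinset (fun e => if e ∈ W then range M else {0}),
      y ^ (∑ e, c e) ≤ (1 + 2 * y) ^ W.card := by
    simp only [← prod_pow_eq_pow_sum]
    rw [← prod_univ_sum (fun e => if e ∈ W then range M else {0}) (fun _ m => y ^ m)]
    calc ∏ e, ∑ m ∈ (if e ∈ W then range M else {0}), y ^ m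
        ≤ ∏ e, (if e ∈ W then (1 + 2 * y) else 1) := by
          apply prod_le_prod
          · intro e _; exact sum_nonneg (fun m _ => by positivity)
          · intro e _
            split_ifs
            · exact geom_le h0 h1 M
            · simp
      _ = (1 + 2 * y) ^ W.card := by
          rw [Finset.prod_ite_mem univ W, univ_inter, prod_const]
  unfold codes
  rw [sum_product]
  simp only [sum_product, pow_add, ← mul_sum, ← sum_mul]
  rw [a1]
  have b1 : (y + 1) ^ W.card ≤ Real.exp (y * W.card) := by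
    rw [mul_comm, Real.exp_nat_mul]
    exact pow_le_pow_left₀ (by positivity) (Real.add_one_le_exp y) _
  have b2 : (1 + 2 * y) ^ W.card ≤ Real.exp (2 * y * W.card) := by
    rw [mul_comm (2 * y), Real.exp_nat_mul]
    exact pow_le_pow_left₀ (by positivity) (by linarith [Real.add_one_le_exp (2 * y)]) _
  have b3 : Real.exp (4 * y * W.card) =
      Real.exp (y * W.card) * Real.exp (y * W.card) * Real.exp (2 * y * W.card) := by
    rw [← Real.exp_add, ← Real.exp_add]; congr 1; ring
  rw [b3]
  have := a2.trans b2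
  gcongr

namespace RankFn

variable {r : RankFn E} {κ : ℕ} {Y : ℕ → Finset E}

/-- The elements of `W'` spanned in some window by the set `T`. -/
noncomputable def spanned (r : RankFn E) (P : ℕ → Finset E) (K : ℕ) (W' T : Finset E) :
    Finset E :=
  W'.filter (fun e => ∃ k < K, e ∈ r.cl (P k ∪ T ∩ P (k + 1)) ∧ e ∉ P k)

theorem spanned_sparse (hY : Monotone Y) (K : ℕ) (D W' T : Finset E) :
    (D ∩ r.spanned (fun k => r.dcl κ D (Y k)) K W' T).card ≤ κ * T.card := by
  set P : ℕ → Finset E := fun k => r.dcl κ D (Y k) with hP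
  have h1 : D ∩ r.spanned P K W' T ⊆
      (range K).biUnion (fun k => (D ∩ r.cl (P k ∪ T ∩ P (k + 1))) \ P k) := by
    intro e he
    rw [mem_inter, spanned, mem_filter] at he
    obtain ⟨k, hk, h2, h3⟩ := he.2.2
    exact mem_biUnion.2 ⟨k, mem_range.2 hk, mem_sdiff.2 ⟨mem_inter.2 ⟨he.1, h2⟩, h3⟩⟩
  have h2 : ∀ k, ((D ∩ r.cl (P k ∪ T ∩ P (k + 1))) \ P k).card ≤
      κ * ((T ∩ P (k + 1)) \ P k).card := by
    intro k
    have s := sparse_dcl (r := r) (κ := κ) (D := D) (Y := Y k)
      (Z := r.cl (P k ∪ T ∩ P (k + 1))) (subset_union_left.trans (subset_cl _))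
    rw [rk_cl] at s
    have t := Nat.mul_le_mul_left κ (rk_union_le_card_sdiff (r := r) (P k) (T ∩ P (k + 1)))
    rw [mul_add] at t
    simp only [hP] at s t ⊢
    omega
  have hPm : Monotone P := fun i j hij => dcl_mono (hY hij)
  refine (card_le_card h1).trans (card_biUnion_le.trans ((sum_le_sum (fun k _ => h2 k)).trans ?_))
  rw [← mul_sum, ← card_biUnion]
  · apply Nat.mul_le_mul_left
    apply card_le_card
    exact biUnion_subset.2 (fun k _ => sdiff_subset.trans inter_subset_left)
  · intro i _ j _ hij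
    rw [Function.onFun, disjoint_left]
    intro e hi hj
    rw [mem_sdiff, mem_inter] at hi hj
    rcases lt_or_gt_of_ne hij with h3 | h3
    · exact hj.2 (hPm (Nat.succ_le_of_lt h3) hi.1.2)
    · exact hi.2 (hPm (Nat.succ_le_of_lt h3) hj.1.2)

theorem union_bound (hκ : 0 < κ) (hY : Monotone Y) (K : ℕ) {W W' : Finset E}
    (hW : ∀ e ∈ W, e ∉ r.cl (Y 0) → e ∈ W') (hW' : W' ⊆ W) (T : Finset E) {s : ℝ}
    (hs : 0 ≤ s) (hs2 : Real.exp (-s) ≤ 1 / 2) :
    av (fun β : E → Bool => (((r.spanned (fun k => r.dcl κ (W.filter (fun e => β e = true)) (Y k))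
      K W' T).filter (fun e => β e = false)).card : ℝ)) ≤
      3 * (κ * T.card + 4 * Real.exp (-s) * W'.card + 3 * s * W'.card / κ) := by
  obtain ⟨code, hc1, hc2⟩ := encode (r := r) hκ hY K hW
  set S : Finset E → Finset E := fun D => r.spanned (fun k => r.dcl κ D (Y k)) K W' T with hS
  have hSc : ∀ D D', code D = code D' → S D = S D' := by
    intro D D' h
    have := hc2 D D' h
    simp only [hS, spanned]
    apply filter_congr
    intro e _
    constructor
    · rintro ⟨k, hk, h1⟩
      exact ⟨k, hk, by rwa [← this k hk.le, ← this (k + 1) hk]⟩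
    · rintro ⟨k, hk, h1⟩
      exact ⟨k, hk, by rwa [this k hk.le, this (k + 1) hk]⟩
  obtain ⟨Sc, hSc'⟩ : ∃ Sc : Finset E × Finset E × (E → ℕ) → Finset E,
      ∀ D, Sc (code D) = S D := by
    refine ⟨fun c => if h : ∃ D, code D = c then S h.choose else ∅, fun D => ?_⟩
    have h : ∃ D', code D' = code D := ⟨D, rfl⟩
    simp only [dif_pos h]
    exact hSc _ _ h.choose_spec
  set y := Real.exp (-s) with hy
  set n : ℝ := (W'.card : ℝ) with hn
  set sz : Finset E × Finset E × (E → ℕ) → ℕ := fun c => c.1.card + c.2.1.card + ∑ e, c.2.2 e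
    with hsz
  set g : Finset E → (E → Bool) → ℝ := fun S β =>
    (1 / 3) * ((S.filter (fun e => β e = false)).card : ℝ) -
      ((S.filter (fun e => β e = true)).card : ℝ) with hg
  set Dβ : (E → Bool) → Finset E := fun β => W.filter (fun e => β e = true) with hD
  have hDW : ∀ β, Dβ β ⊆ W := fun β => filter_subset _ _
  have hmem : ∀ β, code (Dβ β) ∈ codes W' (3 * W'.card + 1) := by
    intro β
    obtain ⟨h1, h2, h3, h4⟩ := hc1 _ (hDW β)
    simp only [codes, mem_product, mem_powerset, Fintype.mem_piFinset]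
    refine ⟨h1, h2, fun e => ?_⟩
    split_ifs with he
    · rw [mem_range]
      have a1 : (code (Dβ β)).2.2 e ≤ ∑ e, (code (Dβ β)).2.2 e :=
        single_le_sum (fun _ _ => Nat.zero_le _) (mem_univ e)
      have a2 := Nat.le_mul_of_pos_left
        ((code (Dβ β)).1.card + (code (Dβ β)).2.1.card + ∑ e, (code (Dβ β)).2.2 e) hκ
      omega
    · simp [h3 e he]
  have hexp : av (fun β => y ^ sz (code (Dβ β)) * Real.exp (g (S (Dβ β)) β)) ≤
      Real.exp (4 * y * n) := by
    calc av (fun β => y ^ sz (code (Dβ β)) * Real.exp (g (S (Dβ β)) β))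
        ≤ av (fun β => ∑ c ∈ codes W' (3 * W'.card + 1), y ^ sz c * Real.exp (g (Sc c) β)) := by
          apply av_mono
          intro β
          rw [← hSc']
          exact single_le_sum (f := fun c => y ^ sz c * Real.exp (g (Sc c) β))
            (fun c _ => by positivity) (hmem β)
      _ ≤ ∑ c ∈ codes W' (3 * W'.card + 1), y ^ sz c := by
          rw [av_sum]
          apply sum_le_sum
          intro c _
          rw [av_mul]
          exact mul_le_of_le_one_right (by positivity) (exp_moment (Sc c))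
      _ ≤ _ := codes_weight W' _ (by positivity) hs2
  have hκ' : (0 : ℝ) < κ := by exact_mod_cast hκ
  have hpt : ∀ β : E → Bool, (((S (Dβ β)).filter (fun e => β e = false)).card : ℝ) ≤
      3 * (Real.exp (-(4 * y * n)) * (y ^ sz (code (Dβ β)) * Real.exp (g (S (Dβ β)) β))) +
      3 * (κ * T.card + 4 * y * n + 3 * s * n / κ - 1) := by
    intro β
    have e1 : Real.exp (-(4 * y * n)) * (y ^ sz (code (Dβ β)) * Real.exp (g (S (Dβ β)) β)) =
        Real.exp (g (S (Dβ β)) β - s * sz (code (Dβ β)) - 4 * y * n) := by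
      rw [hy, ← Real.exp_nat_mul, ← Real.exp_add, ← Real.exp_add]; congr 1; ring
    rw [e1]
    have e2 := Real.add_one_le_exp (g (S (Dβ β)) β - s * sz (code (Dβ β)) - 4 * y * n)
    have e3 : (((S (Dβ β)).filter (fun e => β e = true)).card : ℝ) ≤ κ * T.card := by
      have := spanned_sparse (r := r) (κ := κ) hY K (Dβ β) W' T
      have h2 : (S (Dβ β)).filter (fun e => β e = true) ⊆ Dβ β ∩ S (Dβ β) := by
        intro e he
        rw [mem_filter] at he
        refine mem_inter.2 ⟨mem_filter.2 ⟨hW' ?_, he.2⟩, he.1⟩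
        exact filter_subset _ _ he.1
      exact_mod_cast (card_le_card h2).trans this
    have e4 : (sz (code (Dβ β)) : ℝ) ≤ 3 * n / κ := by
      rw [le_div_iff₀ hκ', mul_comm, hn]
      exact_mod_cast (hc1 _ (hDW β)).2.2.2
    have e5 := mul_le_mul_of_nonneg_left e4 hs
    have e6 : s * (3 * n / κ) = 3 * s * n / κ := by ring
    simp only [hg] at e2 ⊢
    linarith
  refine (av_mono hpt).trans ?_
  rw [av_add, av_const, av_mul, av_mul]
  have : Real.exp (-(4 * y * n)) *
      av (fun β => y ^ sz (code (Dβ β)) * Real.exp (g (S (Dβ β)) β)) ≤ 1 := by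
    calc _ ≤ Real.exp (-(4 * y * n)) * Real.exp (4 * y * n) := by gcongr
      _ = 1 := by rw [← Real.exp_add]; simp
  linarith

end RankFn

end Vale.Agent.P331
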