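import Vale.Agent.P331.Safety2
import Vale.Agent.P331.Union
import Vale.Agent.P331.Greedy

open scoped Classical
open Finset

namespace Vale.Agent.P331

open RankFn Dat Line

variable {E : Type} [Fintype E]

noncomputable def Wc (cls : E → Option ℤ) (c : ℤ) : Finset E :=
  univ.filter (fun e => cls e = some c)

noncomputable def Dset (cls : E → Option ℤ) (β : E → Bool) (c : ℤ) : Finset E :=
  (Wc cls c).filter (fun e => β e = true)

noncomputable def Uset (β1 β2 : E → Bool) : Finset E :=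
  univ.filter (fun e => β1 e = false ∧ β2 e = false)

noncomputable def Hlt (cls : E → Option ℤ) (i : ℤ) : Finset E :=
  univ.filter (fun e => ∃ c, c < i ∧ cls e = some c)

noncomputable def Hle (cls : E → Option ℤ) (i : ℤ) : Finset E :=
  univ.filter (fun e => ∃ c, c ≤ i ∧ cls e = some c)

noncomputable def mkLine (r : RankFn E) (κ L : ℕ) (b : Bool) (cls : E → Option ℤ)
    (β1 β2 : E → Bool) : Line E where
  init := fun h => if b = true ∧ 0 ≤ h then univ else r.cl ∅
  pre := fun c h Y => if b = true ∨ 2 * (L + 1) * c ≤ h then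
    r.dcl κ (Dset cls β2 c) (Y ∪ Dset cls β1 c) else r.cl Y
  cls := cls

noncomputable def mkDat (r : RankFn E) (κ L : ℕ) {N : ℕ} (b : Bool) (cls : E → Option ℤ)
    (β1 β2 : E → Bool) (l : E → Fin N) : Dat E :=
  (mkLine r κ L b cls β1 β2).dat (gp (Uset β1 β2) L (fun _ => 0) l)

theorem mem_Wc {cls : E → Option ℤ} {c : ℤ} {e : E} : e ∈ Wc cls c ↔ cls e = some c := by
  simp [Wc]

theorem mem_Dset {cls : E → Option ℤ} {β : E → Bool} {c : ℤ} {e : E} :
    e ∈ Dset cls β c ↔ cls e = some c ∧ β e = true := by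
  simp [Dset, mem_Wc]

theorem mem_Uset {β1 β2 : E → Bool} {e : E} : e ∈ Uset β1 β2 ↔ β1 e = false ∧ β2 e = false := by
  simp [Uset]

variable {r : RankFn E} {κ L N : ℕ} {cls : E → Option ℤ} {c₀ : ℤ}

theorem mkLine_ok (hκ : 0 < κ) (hc : ∀ e c, cls e = some c → c ≤ c₀) (b : Bool)
    (β1 β2 : E → Bool) (p : E → ℤ → Prop) : ((mkLine r κ L b cls β1 β2).dat p).OK r c₀ := by
  refine ⟨?_, ?_, ?_, ?_, ?_, ?_⟩
  · intro h h' hh
    simp only [dat, mkLine]
    split_ifs with h1 h2
    · exact subset_rfl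
    · exact absurd ⟨h1.1, h1.2.trans hh⟩ h2
    · exact subset_univ _
    · exact subset_rfl
  · intro h
    simp only [dat, mkLine]
    split_ifs
    · exact Subset.antisymm (subset_univ _) (subset_cl _)
    · exact cl_cl _
  · intro c h Y
    simp only [dat, mkLine]
    split_ifs
    · exact subset_union_left.trans (subset_dcl _)
    · exact subset_cl _
  · intro c h h' Y Y' hh hY
    simp only [dat, mkLine]
    split_ifs with h1 h2
    · exact dcl_mono (union_subset_union hY subset_rfl)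
    · exact absurd (h1.imp id (fun h3 => h3.trans hh)) h2
    · exact (cl_mono (hY.trans subset_union_left)).trans (cl_subset_dcl _)
    · exact cl_mono hY
  · intro c h Y
    simp only [dat, mkLine]
    split_ifs
    · exact cl_dcl _
    · exact cl_cl _
  · intro c hcc
    have e : ∀ β, Dset cls β c = ∅ := by
      intro β
      apply eq_empty_of_forall_notMem
      intro e he
      have := hc e c (mem_Dset.1 he).1
      omega
    refine ⟨?_, ?_⟩
    · intro h Y
      simp only [dat, mkLine, e, union_empty, dcl_empty hκ, ite_self]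
    · intro h
      apply eq_empty_of_forall_notMem
      intro e he
      have := hc e c (mem_Gd.1 he).1
      omega

theorem F_subset_mk (hκ : 0 < κ) (hc : ∀ e c, cls e = some c → c ≤ c₀) (b : Bool)
    (β1 β2 : E → Bool) (p : E → ℤ → Prop) (i h : ℤ) :
    ((mkLine r κ L b cls β1 β2).dat p).F r h ⊆
      r.cl (((mkLine r κ L b cls β1 β2).dat p).Xt r i (h + 1) ∪ Hlt cls i) := by
  have hD : ∀ β c, c < i → Dset cls β c ⊆ Hlt cls i := by
    intro β c hci e he
    simp only [Hlt, mem_filter, mem_univ, true_and]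
    exact ⟨c, hci, (mem_Dset.1 he).1⟩
  apply (mkLine_ok hκ hc b β1 β2 p).F_subset
  · intro c hci h Y
    simp only [dat, mkLine]
    split_ifs
    · refine (dcl_subset_cl' hκ _).trans (cl_mono ?_)
      rw [union_assoc]
      exact union_subset_union subset_rfl (union_subset (hD _ c hci) (hD _ c hci))
    · exact cl_mono subset_union_left
  · intro c hci h e he
    simp only [Hlt, mem_filter, mem_univ, true_and]
    exact ⟨c, hci, (mem_Gd.1 he).1⟩

theorem low_X (hκ : 0 < κ) (hc : ∀ e c, cls e = some c → c ≤ c₀)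
    (β1 β2 : E → Bool) (p : E → ℤ → Prop) :
    ∀ c h : ℤ, h < 2 * (L + 1) * (c + 1) - 1 →
      ((mkLine r κ L false cls β1 β2).dat p).X r c h ⊆ r.cl ∅ := by
  have hb := mkLine_ok (r := r) (L := L) hκ hc false β1 β2 p
  refine down_ind' c₀ ?_ ?_
  · intro c hcc h _
    rw [hb.X_top c hcc]
    simp [dat, mkLine]
  · intro c ih h hh
    have e : ∀ h : ℤ, h < 2 * (L + 1) * c →
        ((mkLine r κ L false cls β1 β2).dat p).Xt r c h ⊆ r.cl ∅ := by
      intro h hh
      have := ih h (by nlinarith)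
      simp only [Xt]
      rw [show ∀ Y, ((mkLine r κ L false cls β1 β2).dat p).pre c h Y = r.cl Y from
        fun Y => if_neg (by simp; omega)]
      exact cl_subset_cl this
    rw [hb.X_pred']
    rw [sub_add_cancel] at hh
    exact cl_subset_cl (union_subset (e h (by omega)) (inter_subset_right.trans (e _ (by omega))))

theorem low_Xt (hκ : 0 < κ) (hc : ∀ e c, cls e = some c → c ≤ c₀)
    (β1 β2 : E → Bool) (p : E → ℤ → Prop) (c h : ℤ) (hh : h < 2 * (L + 1) * c) :
    ((mkLine r κ L false cls β1 β2).dat p).Xt r c h ⊆ r.cl ∅ := by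
  have := low_X (r := r) (L := L) hκ hc β1 β2 p c h (by nlinarith)
  simp only [Xt]
  rw [show ∀ Y, ((mkLine r κ L false cls β1 β2).dat p).pre c h Y = r.cl Y from
    fun Y => if_neg (by simp; omega)]
  exact cl_subset_cl this

theorem cl_empty_subset_X (hκ : 0 < κ) (hc : ∀ e c, cls e = some c → c ≤ c₀) (b : Bool)
    (β1 β2 : E → Bool) (p : E → ℤ → Prop) (c h : ℤ) :
    r.cl ∅ ⊆ ((mkLine r κ L b cls β1 β2).dat p).X r c h := by
  rw [← (mkLine_ok (r := r) (L := L) hκ hc b β1 β2 p).X_flat]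
  exact cl_mono (empty_subset _)

/-- The dense part of class `i`. -/
noncomputable def Gden (r : RankFn E) (κ : ℕ) (cls : E → Option ℤ) (β1 β2 : E → Bool) (i : ℤ) :
    Finset E :=
  r.dcl κ (Dset cls β2 i) (r.cl ∅ ∪ Dset cls β1 i)

theorem Xt_eq_Gden (hκ : 0 < κ) (hc : ∀ e c, cls e = some c → c ≤ c₀)
    (β1 β2 : E → Bool) (p : E → ℤ → Prop) (i h : ℤ) (h1 : 2 * (L + 1) * i ≤ h)
    (h2 : h < 2 * (L + 1) * (i + 1) - 1) :
    ((mkLine r κ L false cls β1 β2).dat p).Xt r i h = Gden r κ cls β1 β2 i := by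
  have e := Subset.antisymm (low_X (r := r) (L := L) hκ hc β1 β2 p i h h2)
    (cl_empty_subset_X hκ hc false β1 β2 p i h)
  simp only [Xt]
  rw [e]
  exact if_pos (Or.inr h1)

theorem true_subset_false (hκ : 0 < κ) (hc : ∀ e c, cls e = some c → c ≤ c₀)
    (β1 β2 : E → Bool) (l : E → Fin N) (i : ℤ) (hi : i ≤ c₀) :
    (mkDat r κ L true cls β1 β2 l).Xt r i (i - c₀ - 1) ⊆
      (mkDat r κ L false cls β1 β2 l).Xt r i (2 * (L + 1) * c₀) := by
  have hb := fun b => mkLine_ok (r := r) (L := L) hκ hc b β1 β2 (gp (Uset β1 β2) L (fun _ => 0) l)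
  have hpre : ∀ c h h' Y Y', 2 * (L + 1) * c₀ ≤ h' → Y ⊆ Y' →
      (mkDat r κ L true cls β1 β2 l).pre c h Y ⊆ (mkDat r κ L false cls β1 β2 l).pre c h' Y' := by
    intro c h h' Y Y' hh hY
    by_cases hcc : c ≤ c₀
    · simp only [mkDat, dat, mkLine]
      rw [if_pos (Or.inl trivial), if_pos (Or.inr (by nlinarith))]
      exact dcl_mono (union_subset_union hY subset_rfl)
    · simp only [mkDat]
      rw [((hb true).valid c (by omega)).1, ((hb false).valid c (by omega)).1]
      exact cl_mono hY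
  refine hpre _ _ _ _ _ le_rfl ?_
  refine Dat.compare (hb true) (hb false) i
    (fun c h h' => h ≤ min (c - c₀) 0 - 1 ∧ 2 * (L + 1) * c₀ ≤ h') ?_ ?_ ?_ ?_ i le_rfl _ _
    ⟨by omega, le_rfl⟩
  · rintro c h h' _ ⟨h1, _⟩
    simp only [dat, mkLine]
    rw [if_neg (by omega), if_neg (by simp)]
  · rintro c h h' ⟨h1, h2⟩
    exact ⟨by omega, h2⟩
  · rintro c _ h h' Y Y' ⟨_, h2⟩ hY
    exact hpre c h h' Y Y' h2 hY
  · rintro c _ e h h' ⟨h1, h2⟩
    by_cases hcc : c ≤ c₀
    · refine Subset.trans (inter_subset_inter ?_ (e _ _ ⟨by omega, by omega⟩)) subset_union_right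
      intro g hg
      rw [mem_Gd] at hg ⊢
      exact hg
    · rw [((hb true).valid c (by omega)).2, empty_inter]
      exact empty_subset _

/-- First window used for class `i`. -/
def jst (b : Bool) (i c₀ : ℤ) : ℤ := if b = true then i - c₀ else 2 * i + 1

theorem cover (q : ℕ) (hq : 0 < q) (j₀ : ℤ) (K : ℕ) (τ : ℤ) (h1 : q * j₀ ≤ τ)
    (h2 : τ < q * (j₀ + K)) : ∃ (ε : Fin q) (k : ℕ), k < K ∧ τ = q * (j₀ + k) + ε := by
  have hq' : (0 : ℤ) < q := by exact_mod_cast hq
  have a1 := Int.emod_nonneg τ hq'.ne'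
  have a2 := Int.emod_lt_of_pos τ hq'
  have a3 := Int.mul_ediv_add_emod τ q
  have a4 : j₀ ≤ τ / q := Int.le_ediv_of_mul_le hq' (by linarith)
  have a5 : τ / q < j₀ + K := Int.ediv_lt_of_lt_mul hq' (by linarith)
  refine ⟨⟨(τ % q).toNat, by omega⟩, (τ / q - j₀).toNat, by omega, ?_⟩
  simp only
  rw [Int.toNat_of_nonneg a1, Int.toNat_of_nonneg (by omega)]
  linarith

theorem exists_window (hκ : 0 < κ) (hc : ∀ e c, cls e = some c → c ≤ c₀)
    (β1 β2 : E → Bool) (l : E → Fin N) (i : ℤ) (hi : i ≤ c₀) {e : E}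
    (he : e ∉ Gden r κ cls β1 β2 i) :
    ∃ (b : Bool) (ε : Fin (L + 1)) (k : ℕ), k < (2 * (c₀ - i) + 1).toNat ∧
      (mkDat r κ L b cls β1 β2 l).At r i ((L + 1 : ℕ) * (jst b i c₀ + k) + ε) e := by
  have hb := fun b => mkLine_ok (r := r) (L := L) hκ hc b β1 β2 (gp (Uset β1 β2) L (fun _ => 0) l)
  have hK : (((2 * (c₀ - i) + 1).toNat : ℕ) : ℤ) = 2 * (c₀ - i) + 1 :=
    Int.toNat_of_nonneg (by omega)
  have hL : (0 : ℤ) ≤ L := by positivity
  by_cases h : e ∈ (mkDat r κ L false cls β1 β2 l).Xt r i (2 * (L + 1) * c₀)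
  · have h1 : e ∉ (mkDat r κ L false cls β1 β2 l).Xt r i (2 * (L + 1) * i + L) := by
      unfold mkDat
      rwa [Xt_eq_Gden hκ hc β1 β2 _ i _ (by omega) (by nlinarith)]
    have h2 : 2 * (L + 1) * i + L ≤ 2 * (L + 1) * c₀ := by
      by_contra h3
      apply he
      rw [← Xt_eq_Gden (r := r) (L := L) hκ hc β1 β2 (gp (Uset β1 β2) L (fun _ => 0) l) i
        (2 * (L + 1) * i + L) (by omega) (by nlinarith)]
      exact (hb false).Xt_mono i (by omega) h
    obtain ⟨τ, t1, t2, t3⟩ := exists_At h2 h1 h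
    obtain ⟨ε, k, hk, rfl⟩ := cover (L + 1) (by omega) (jst false i c₀)
      (2 * (c₀ - i) + 1).toNat τ (by simp only [jst]; push_cast; linarith)
      (by rw [hK]; simp only [jst]; push_cast; nlinarith)
    exact ⟨false, ε, k, hk, t3⟩
  · have h1 : e ∉ (mkDat r κ L true cls β1 β2 l).Xt r i (i - c₀ - 1) :=
      fun h' => h (true_subset_false hκ hc β1 β2 l i hi h')
    have h2 : e ∈ (mkDat r κ L true cls β1 β2 l).Xt r i 0 := by
      refine (hb true).X_subset_Xt i 0 ((hb true).init_subset_X i 0 ?_)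
      simp [dat, mkLine]
    obtain ⟨τ, t1, t2, t3⟩ := exists_At (by omega) h1 h2
    obtain ⟨ε, k, hk, rfl⟩ := cover (L + 1) (by omega) (jst true i c₀)
      (2 * (c₀ - i) + 1).toNat τ (by simp only [jst]; push_cast; nlinarith)
      (by rw [hK]; simp only [jst]; push_cast; nlinarith)
    exact ⟨true, ε, k, hk, t3⟩

/-- The contracted set below the window with top level `τ`. -/
noncomputable def Ybase (r : RankFn E) (κ L : ℕ) {N : ℕ} (b : Bool) (cls : E → Option ℤ)
    (β1 β2 : E → Bool) (l : E → Fin N) (i τ : ℤ) : Finset E :=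
  r.cl ((mkDat r κ L b cls β1 β2 l).X r i (τ - L) ∪
    (mkLine r κ L b cls β1 β2).Bset r (Uset β1 β2) L i τ l)

theorem Ybase_local (hκ : 0 < κ) (hc : ∀ e c, cls e = some c → c ≤ c₀) (b : Bool)
    (β1 β2 β2' : E → Bool) (l l' : E → Fin N) (i τ : ℤ)
    (h : ∀ e c, i < c → cls e = some c → β2 e = β2' e ∧ l e = l' e) :
    Ybase r κ L b cls β1 β2 l i τ = Ybase r κ L b cls β1 β2' l' i τ := by
  have hpre : ∀ c, i < c → (mkDat r κ L b cls β1 β2 l).pre c =
      (mkDat r κ L b cls β1 β2' l').pre c := by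
    intro c hic
    have : Dset cls β2 c = Dset cls β2' c := by
      ext e
      rw [mem_Dset, mem_Dset]
      exact and_congr_right (fun he => by rw [(h e c hic he).1])
    simp only [mkDat, dat, mkLine, this]
  have hX : ∀ c, i ≤ c → ∀ h, (mkDat r κ L b cls β1 β2 l).X r c h =
      (mkDat r κ L b cls β1 β2' l').X r c h := by
    intro c hic h'
    refine collapse (d := mkDat r κ L b cls β1 β2 l) (d' := mkDat r κ L b cls β1 β2' l')
      (mkLine_ok hκ hc b β1 β2 _) (mkLine_ok hκ hc b β1 β2' _) i h' ?_ hpre ?_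
      c hic h' le_rfl
    · simp only [mkDat, dat, mkLine]
    intro c hic h'' _ g _
    simp only [mkDat, mem_Gd]
    refine and_congr_right (fun hg => ?_)
    obtain ⟨a1, a2⟩ := h g c hic hg
    simp only [gp, mem_Uset, a1, a2]
  have hXt : ∀ c, i < c → ∀ h, (mkDat r κ L b cls β1 β2 l).Xt r c h =
      (mkDat r κ L b cls β1 β2' l').Xt r c h := by
    intro c hic h'
    simp only [Xt, hX c hic.le, hpre c hic]
  unfold Ybase
  rw [hX i le_rfl]
  congr 2
  unfold Bset
  apply filter_congr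
  intro g _
  refine exists_congr (fun c => and_congr_right (fun hic => and_congr_right (fun hg => ?_)))
  obtain ⟨a1, a2⟩ := h g c hic hg
  have := hXt c hic
  simp only [mkDat] at this
  simp only [mem_Uset, a1, a2, At, this]

theorem Yhat_eq (b : Bool) (β1 β2 : E → Bool) (l : E → Fin N) (i τ : ℤ)
    (h : b = true ∨ 2 * (L + 1) * i ≤ τ - L) :
    (mkLine r κ L b cls β1 β2).Yhat r (Uset β1 β2) L i τ l =
      r.dcl κ (Dset cls β2 i) (Ybase r κ L b cls β1 β2 l i τ ∪ Dset cls β1 i) :=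
  if_pos h

theorem Ybase_succ (hκ : 0 < κ) (hc : ∀ e c, cls e = some c → c ≤ c₀) (b : Bool)
    (β1 β2 : E → Bool) (l : E → Fin N) (i τ : ℤ) :
    Ybase r κ L b cls β1 β2 l i τ ⊆ (mkDat r κ L b cls β1 β2 l).X r i τ ∧
    (mkDat r κ L b cls β1 β2 l).X r i τ ⊆ Ybase r κ L b cls β1 β2 l i (τ + (L + 1)) := by
  have hb := mkLine_ok (r := r) (L := L) hκ hc b β1 β2 (gp (Uset β1 β2) L (fun _ => 0) l)
  constructor
  · refine Subset.trans (cl_mono (union_subset (hb.X_mono i (by omega)) ?_)) (hb.X_flat i τ).subset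
    intro g hg
    simp only [Bset, mem_filter, mem_univ, true_and] at hg
    obtain ⟨c, h1, _, _, _, h5⟩ := hg
    exact hb.Xt_subset_X' h1 τ h5.1
  · exact (hb.X_mono i (by omega)).trans (subset_union_left.trans (subset_cl _))

end Vale.Agent.P331
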