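import Vale.Agent.P331.Avg

open scoped Classical
open Finset

namespace Vale.Agent.P331

variable {E Λ : Type} [Fintype E] [Fintype Λ] [Nonempty Λ]

/-- Average over a random subset of `G`. -/
noncomputable def avs (coin : Λ → Prop) (G : Finset E) (F : Finset E → ℝ) : ℝ :=
  av (fun μ : E → Λ => F (G.filter (fun g => coin (μ g))))

variable {coin : Λ → Prop}

omit [Nonempty Λ] in
theorem avs_mono {G : Finset E} {F F' : Finset E → ℝ} (h : ∀ R ⊆ G, F R ≤ F' R) :
    avs coin G F ≤ avs coin G F' :=
  av_mono (fun _ => h _ (filter_subset _ _))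

omit [Nonempty Λ] in
theorem avs_congr {G : Finset E} {F F' : Finset E → ℝ} (h : ∀ R ⊆ G, F R = F' R) :
    avs coin G F = avs coin G F' :=
  av_congr (fun _ => h _ (filter_subset _ _))

omit [Nonempty Λ] in
theorem avs_nonneg {G : Finset E} {F : Finset E → ℝ} (h : ∀ R, 0 ≤ F R) : 0 ≤ avs coin G F :=
  av_nonneg (fun _ => h _)

theorem avs_empty (F : Finset E → ℝ) : avs coin ∅ F = F ∅ := by
  unfold avs
  simp only [filter_empty]
  exact av_const _

theorem avs_insert {G : Finset E} {g : E} (hg : g ∉ G) (F : Finset E → ℝ) :
    avs coin (insert g G) F = av (fun x => ind (coin x)) * avs coin G (fun R => F (insert g R)) +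
      (1 - av (fun x => ind (coin x))) * avs coin G F := by
  unfold avs
  rw [av_update g]
  have h1 : ∀ (μ : E → Λ) (x : Λ), G.filter (fun e => coin (Function.update μ g x e)) =
      G.filter (fun e => coin (μ e)) := by
    intro μ x
    apply filter_congr
    intro e he
    rw [Function.update_of_ne (fun h : e = g => hg (h ▸ he))]
  have h2 : ∀ x : Λ, av (fun μ : E → Λ =>
      F ((insert g G).filter (fun e => coin (Function.update μ g x e)))) =
      av (fun μ : E → Λ => F (insert g (G.filter (fun e => coin (μ e))))) * ind (coin x) +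
      av (fun μ : E → Λ => F (G.filter (fun e => coin (μ e)))) * (1 - ind (coin x)) := by
    intro x
    simp only [filter_insert, h1, Function.update_self]
    by_cases hx : coin x
    · simp [hx, ind]
    · simp [hx, ind]
  rw [av_congr h2, av_add, av_mul, av_mul, av_sub, av_const]
  ring

theorem bellman (ord : E → ℤ) (f : Finset E → Prop) (red : E → Finset E → Prop)
    (hf : ∀ A B, A ⊆ B → f A → f B)
    (h1 : ∀ g J J', (∀ x, ord g < ord x → (x ∈ J ↔ x ∈ J')) → (red g J ↔ red g J'))
    (h2 : ∀ g J J', red g J → J ⊆ J' → f (insert g J') → f J') (G : Finset E) :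
    ∀ P B : Finset E, P ⊆ B →
      avs coin G (fun R => ind (¬ f (P ∪ R))) -
        avs coin G (fun R => ind (¬ f (B ∪ R))) *
          Real.log (avs coin G (fun R => ind (¬ f (P ∪ R)))) ≤
      avs coin G (fun R => ind (¬ f (P ∪ R.filter (fun g => red g (B ∪ R))))) := by
  induction G using Finset.induction_on_max_value ord with
  | empty =>
    intro P B _
    simp only [avs_empty, filter_empty, union_empty]
    by_cases h : f P
    · simp [ind, h]
    · simp [ind, h]
  | insert g G hg hmax ih =>
    intro P B hPB
    have θ0 : 0 ≤ av (fun x => ind (coin x)) := av_nonneg (fun _ => ind_nonneg _)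
    have θ1 : av (fun x => ind (coin x)) ≤ 1 := av_le (fun _ => ind_le_one _)
    simp only [avs_insert hg]
    set θ := av (fun x => ind (coin x)) with hθ
    have amono : ∀ A A' : Finset E, A ⊆ A' →
        avs coin G (fun R => ind (¬ f (A' ∪ R))) ≤ avs coin G (fun R => ind (¬ f (A ∪ R))) :=
      fun A A' h => avs_mono (fun R _ => ind_mono
        (fun h1 h2 => h1 (hf _ _ (union_subset_union h subset_rfl) h2)))
    have anon : ∀ A : Finset E, 0 ≤ avs coin G (fun R => ind (¬ f (A ∪ R))) :=
      fun A => avs_nonneg (fun _ => ind_nonneg _)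
    have eins : ∀ A R : Finset E, A ∪ insert g R = insert g A ∪ R := by
      intro A R; rw [union_insert, insert_union]
    simp only [eins]
    have hred : ∀ R ⊆ G, (red g (insert g B ∪ R) ↔ red g B) := by
      intro R hR
      apply h1
      intro x hx
      have a1 : x ≠ g := by rintro rfl; exact lt_irrefl _ hx
      have a2 : x ∉ R := fun h => absurd (hmax x (hR h)) (not_le.2 hx)
      simp [a1, a2]
    have i0 := ih P B hPB
    have m1 := amono P (insert g P) (subset_insert _ _)
    have m2 := amono (insert g P) (insert g B) (insert_subset_insert _ hPB)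
    have m3 := amono P B hPB
    have n1 := anon (insert g B)
    have n2 := anon B
    set x0 := avs coin G (fun R => ind (¬ f (P ∪ R))) with hx0
    set x1 := avs coin G (fun R => ind (¬ f (insert g P ∪ R))) with hx1
    set b0 := avs coin G (fun R => ind (¬ f (B ∪ R))) with hb0
    set b1 := avs coin G (fun R => ind (¬ f (insert g B ∪ R))) with hb1
    by_cases hr : red g B
    · have e1 : avs coin G (fun R => ind (¬ f (P ∪ (insert g R).filter
          (fun x => red x (insert g B ∪ R))))) =
          avs coin G (fun R => ind (¬ f (insert g P ∪ R.filter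
          (fun x => red x (insert g B ∪ R))))) := by
        apply avs_congr
        intro R hR
        rw [filter_insert, if_pos ((hred R hR).2 hr), eins]
      have e2 : b1 = b0 := by
        apply avs_congr
        intro R _
        apply ind_congr
        rw [insert_union]
        exact not_congr ⟨h2 g B _ hr subset_union_left, hf _ _ (subset_insert _ _)⟩
      have i1 := ih (insert g P) (insert g B) (insert_subset_insert _ hPB)
      rw [← hx1, ← hb1] at i1
      rw [e2] at i1 m2
      rw [e1, e2]
      have k1 := mul_le_mul_of_nonneg_left i1 θ0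
      have k0 := mul_le_mul_of_nonneg_left i0 (sub_nonneg.2 θ1)
      rcases n2.eq_or_lt with hb | hb
      · rw [← hb] at k1 k0 ⊢
        linarith
      · have c := (strictConcaveOn_log_Ioi.concaveOn).2 (show x1 ∈ Set.Ioi 0 from hb.trans_le m2)
          (show x0 ∈ Set.Ioi 0 from hb.trans_le m3) θ0 (sub_nonneg.2 θ1) (by ring)
        simp only [smul_eq_mul] at c
        have c2 := mul_le_mul_of_nonneg_left c hb.le
        nlinarith
    · have e1 : avs coin G (fun R => ind (¬ f (P ∪ (insert g R).filter
          (fun x => red x (insert g B ∪ R))))) =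
          avs coin G (fun R => ind (¬ f (P ∪ R.filter
          (fun x => red x (insert g B ∪ R))))) := by
        apply avs_congr
        intro R hR
        rw [filter_insert, if_neg (fun h => hr ((hred R hR).1 h))]
      have i1 := ih P (insert g B) (hPB.trans (subset_insert _ _))
      rw [← hx0, ← hb1] at i1
      rw [e1]
      have k1 := mul_le_mul_of_nonneg_left i1 θ0
      have k0 := mul_le_mul_of_nonneg_left i0 (sub_nonneg.2 θ1)
      have hby : θ * b1 + (1 - θ) * b0 ≤ θ * x1 + (1 - θ) * x0 := by
        have := mul_le_mul_of_nonneg_left m2 θ0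
        have := mul_le_mul_of_nonneg_left m3 (sub_nonneg.2 θ1)
        linarith
      have hyx : θ * x1 + (1 - θ) * x0 ≤ x0 := by
        have := mul_le_mul_of_nonneg_left m1 θ0
        linarith
      have hb : 0 ≤ θ * b1 + (1 - θ) * b0 := by
        have := mul_nonneg θ0 n1
        have := mul_nonneg (sub_nonneg.2 θ1) n2
        linarith
      have key : θ * x1 + (1 - θ) * x0 -
          (θ * b1 + (1 - θ) * b0) * Real.log (θ * x1 + (1 - θ) * x0) ≤
          x0 - (θ * b1 + (1 - θ) * b0) * Real.log x0 := by
        set y := θ * x1 + (1 - θ) * x0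
        set b := θ * b1 + (1 - θ) * b0
        rcases hb.eq_or_lt with hb | hb
        · rw [← hb]; linarith
        · have hy : 0 < y := hb.trans_le hby
          have hx : 0 < x0 := hy.trans_le hyx
          have l := Real.log_le_sub_one_of_pos (div_pos hx hy)
          rw [Real.log_div hx.ne' hy.ne'] at l
          have l2 : x0 / y - 1 = (x0 - y) / y := by field_simp
          have l3 : b * ((x0 - y) / y) ≤ x0 - y := by
            rw [← mul_div_assoc, div_le_iff₀ hy]
            nlinarith
          have l4 := mul_le_mul_of_nonneg_left l hb.le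
          rw [l2] at l4
          nlinarith
      nlinarith

end Vale.Agent.P331
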