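import Vale.Agent.P331.Rank

open scoped Classical
open Finset

namespace Vale.Agent.P331

open RankFn

theorem down_ind {P : ℤ → Prop} (i c₀ : ℤ) (h0 : ∀ c, c₀ ≤ c → P c)
    (hs : ∀ c, i < c → P c → P (c - 1)) : ∀ c, i ≤ c → P c := by
  have key : ∀ m : ℕ, ∀ c, i ≤ c → c₀ - c ≤ m → P c := by
    intro m
    induction m with
    | zero => intro c _ h; exact h0 c (by omega)
    | succ m ih =>
      intro c hc h
      by_cases h1 : c₀ ≤ c
      · exact h0 c h1
      · have := hs (c + 1) (by omega) (ih (c + 1) (by omega) (by omega))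
        simpa using this
  intro c hc
  exact key (c₀ - c).toNat c hc (by omega)

theorem down_ind' {P : ℤ → Prop} (c₀ : ℤ) (h0 : ∀ c, c₀ ≤ c → P c)
    (hs : ∀ c, P c → P (c - 1)) : ∀ c, P c :=
  fun c => down_ind c c₀ h0 (fun c _ => hs c) c le_rfl

/-- Data for a chain of flats built class by class. -/
structure Dat (E : Type) where
  init : ℤ → Finset E
  pre : ℤ → ℤ → Finset E → Finset E
  Gd : ℤ → ℤ → Finset E

namespace Dat

variable {E : Type} [Fintype E]

def Valid (r : RankFn E) (d : Dat E) (c₀ : ℤ) : Prop :=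
  ∀ c, c₀ < c → (∀ h Y, d.pre c h Y = r.cl Y) ∧ ∀ h, d.Gd c h = ∅

structure OK (r : RankFn E) (d : Dat E) (c₀ : ℤ) : Prop where
  init_mono : Monotone d.init
  init_flat : ∀ h, r.cl (d.init h) = d.init h
  pre_ext : ∀ c h Y, Y ⊆ d.pre c h Y
  pre_mono : ∀ c h h' Y Y', h ≤ h' → Y ⊆ Y' → d.pre c h Y ⊆ d.pre c h' Y'
  pre_flat : ∀ c h Y, r.cl (d.pre c h Y) = d.pre c h Y
  valid : d.Valid r c₀

noncomputable def step (r : RankFn E) (d : Dat E) (c : ℤ) (X : ℤ → Finset E) : ℤ → Finset E :=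
  fun h => r.cl (d.pre c h (X h) ∪ d.Gd c (h + 1) ∩ d.pre c (h + 1) (X (h + 1)))

noncomputable def bnd (r : RankFn E) (d : Dat E) : ℤ :=
  if h : ∃ c₀, d.Valid r c₀ then h.choose else 0

noncomputable def iter (r : RankFn E) (d : Dat E) : ℕ → ℤ → Finset E
  | 0 => d.init
  | k + 1 => d.step r (d.bnd r - k) (iter r d k)

/-- The chain after all classes larger than `c` were processed. -/
noncomputable def X (r : RankFn E) (d : Dat E) (c : ℤ) : ℤ → Finset E :=
  d.iter r (d.bnd r - c).toNat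

/-- The chain seen by the elements of class `c`. -/
noncomputable def Xt (r : RankFn E) (d : Dat E) (c h : ℤ) : Finset E := d.pre c h (d.X r c h)

/-- The final chain. -/
noncomputable def F (r : RankFn E) (d : Dat E) (h : ℤ) : Finset E :=
  univ.filter (fun e => ∃ c, e ∈ d.X r c h)

/-- The element `e`, viewed in class `c`, sits at level `h`. -/
def At (r : RankFn E) (d : Dat E) (c h : ℤ) (e : E) : Prop :=
  e ∈ d.Xt r c h ∧ e ∉ d.Xt r c (h - 1)

variable {r : RankFn E} {d d' : Dat E} {c₀ : ℤ}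

theorem OK.step_init (hd : d.OK r c₀) {c₁ c : ℤ} (hv : d.Valid r c₁) (hc : c₁ < c) :
    d.step r c d.init = d.init := by
  funext h
  simp only [step, (hv c hc).1, (hv c hc).2, empty_inter, union_empty, hd.init_flat]

theorem OK.X_pred (hd : d.OK r c₀) (c : ℤ) : d.X r (c - 1) = d.step r c (d.X r c) := by
  have hb : d.Valid r (d.bnd r) := by
    have h : ∃ c₀, d.Valid r c₀ := ⟨c₀, hd.valid⟩
    simp only [bnd, dif_pos h]
    exact h.choose_spec
  unfold X
  by_cases hc : c ≤ d.bnd r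
  · have e : (d.bnd r - (c - 1)).toNat = (d.bnd r - c).toNat + 1 := by omega
    rw [e, iter]
    congr 1
    omega
  · have e1 : (d.bnd r - (c - 1)).toNat = 0 := by omega
    have e2 : (d.bnd r - c).toNat = 0 := by omega
    rw [e1, e2, iter, hd.step_init hb (by omega)]

theorem OK.X_pred' (hd : d.OK r c₀) (c h : ℤ) :
    d.X r (c - 1) h = r.cl (d.Xt r c h ∪ d.Gd c (h + 1) ∩ d.Xt r c (h + 1)) := by
  rw [hd.X_pred]; rfl

theorem OK.X_top (hd : d.OK r c₀) : ∀ c, c₀ ≤ c → d.X r c = d.init := by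
  refine down_ind c₀ (d.bnd r) ?_ ?_
  · intro c hc
    unfold X
    have e2 : (d.bnd r - c).toNat = 0 := by omega
    rw [e2, iter]
  · intro c hc ih
    rw [hd.X_pred, ih, hd.step_init hd.valid hc]

theorem OK.X_subset_Xt (hd : d.OK r c₀) (c h : ℤ) : d.X r c h ⊆ d.Xt r c h := hd.pre_ext _ _ _

theorem OK.Xt_flat (hd : d.OK r c₀) (c h : ℤ) : r.cl (d.Xt r c h) = d.Xt r c h :=
  hd.pre_flat _ _ _

theorem OK.Xt_subset_X (hd : d.OK r c₀) (c h : ℤ) : d.Xt r c h ⊆ d.X r (c - 1) h := by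
  rw [hd.X_pred']
  exact subset_union_left.trans (subset_cl _)

theorem OK.X_flat (hd : d.OK r c₀) (c h : ℤ) : r.cl (d.X r c h) = d.X r c h := by
  have := hd.X_pred' (c + 1) h
  rw [add_sub_cancel_right] at this
  rw [this, cl_cl]

theorem OK.X_succ (hd : d.OK r c₀) : ∀ c h, d.X r c h ⊆ d.X r c (h + 1) := by
  refine down_ind' c₀ ?_ ?_
  · intro c hc h
    rw [hd.X_top c hc]
    exact hd.init_mono (by omega)
  · intro c ih h
    refine Subset.trans ?_ (hd.Xt_subset_X c (h + 1))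
    rw [hd.X_pred']
    exact (cl_mono (union_subset (hd.pre_mono _ _ _ _ _ (by omega) (ih h))
      inter_subset_right)).trans (hd.Xt_flat c (h + 1)).subset

theorem OK.X_mono (hd : d.OK r c₀) (c : ℤ) : Monotone (d.X r c) :=
  monotone_int_of_le_succ (hd.X_succ c)

theorem OK.Xt_mono (hd : d.OK r c₀) (c : ℤ) : Monotone (d.Xt r c) :=
  fun _ _ h => hd.pre_mono _ _ _ _ _ h (hd.X_mono c h)

theorem OK.X_pred_subset (hd : d.OK r c₀) (c h : ℤ) : d.X r (c - 1) h ⊆ d.Xt r c (h + 1) := by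
  rw [hd.X_pred']
  exact (cl_mono (union_subset (hd.Xt_mono c (by omega)) inter_subset_right)).trans
    (hd.Xt_flat c (h + 1)).subset

theorem OK.X_anti (hd : d.OK r c₀) (h : ℤ) : Antitone (fun c => d.X r c h) := by
  apply antitone_int_of_succ_le
  intro c
  have := (hd.X_subset_Xt (c + 1) h).trans (hd.Xt_subset_X (c + 1) h)
  rwa [add_sub_cancel_right] at this

theorem OK.Xt_subset_X' (hd : d.OK r c₀) {c i : ℤ} (hc : i < c) (h : ℤ) :
    d.Xt r c h ⊆ d.X r i h :=
  (hd.Xt_subset_X c h).trans (hd.X_anti h (by omega : i ≤ c - 1))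

theorem OK.init_subset_X (hd : d.OK r c₀) (c h : ℤ) : d.init h ⊆ d.X r c h := by
  have := hd.X_anti h (le_max_left c c₀)
  simp only at this
  rwa [hd.X_top _ (le_max_right _ _)] at this

theorem X_subset_F (c h : ℤ) : d.X r c h ⊆ d.F r h := by
  intro e he
  simp only [F, mem_filter, mem_univ, true_and]
  exact ⟨c, he⟩

theorem OK.Xt_subset_F (hd : d.OK r c₀) (c h : ℤ) : d.Xt r c h ⊆ d.F r h :=
  (hd.Xt_subset_X c h).trans (X_subset_F _ _)

theorem OK.F_mono (hd : d.OK r c₀) : Monotone (d.F r) := by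
  intro h h' hh e he
  simp only [F, mem_filter, mem_univ, true_and] at he ⊢
  obtain ⟨c, hc⟩ := he
  exact ⟨c, hd.X_mono c hh hc⟩

theorem OK.At_unique (hd : d.OK r c₀) {c h h' : ℤ} {e : E} (h1 : d.At r c h e)
    (h2 : d.At r c h' e) : h = h' := by
  rcases lt_trichotomy h h' with h3 | h3 | h3
  · exact absurd (hd.Xt_mono c (by omega : h ≤ h' - 1) h1.1) h2.2
  · exact h3
  · exact absurd (hd.Xt_mono c (by omega : h' ≤ h - 1) h2.1) h1.2

theorem exists_At {c a b : ℤ} {e : E} (hab : a ≤ b) (h1 : e ∉ d.Xt r c a) (h2 : e ∈ d.Xt r c b) :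
    ∃ h, a < h ∧ h ≤ b ∧ d.At r c h e := by
  induction b, hab using Int.leInduction with
  | base => exact absurd h2 h1
  | succ b hab ih =>
    by_cases h3 : e ∈ d.Xt r c b
    · obtain ⟨h, h4, h5, h6⟩ := ih h3
      exact ⟨h, h4, by omega, h6⟩
    · exact ⟨b + 1, by omega, le_rfl, h2, by simpa using h3⟩

/-- The final chain is spanned by the chain of class `i` and the heavier classes. -/
theorem OK.F_subset (hd : d.OK r c₀) (i h : ℤ) (H : Finset E)
    (h1 : ∀ c, c < i → ∀ h Y, d.pre c h Y ⊆ r.cl (Y ∪ H)) (h2 : ∀ c, c < i → ∀ h, d.Gd c h ⊆ H) :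
    d.F r h ⊆ r.cl (d.Xt r i (h + 1) ∪ H) := by
  have key : ∀ c, d.X r c h ⊆ r.cl (d.Xt r i (h + 1) ∪ H) := by
    refine down_ind' (i - 1) ?_ ?_
    · intro c hc
      exact (hd.X_anti h hc).trans ((hd.X_pred_subset i h).trans
        (subset_union_left.trans (subset_cl _)))
    · intro c ih
      by_cases hc : i - 1 ≤ c - 1
      · exact (hd.X_anti h hc).trans ((hd.X_pred_subset i h).trans
          (subset_union_left.trans (subset_cl _)))
      · rw [hd.X_pred']
        refine cl_subset_cl (union_subset ((h1 c (by omega) _ _).trans (cl_subset_cl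
          (union_subset ih (subset_union_right.trans (subset_cl _))))) ?_)
        exact inter_subset_left.trans ((h2 c (by omega) _).trans
          (subset_union_right.trans (subset_cl _)))
  intro e he
  simp only [F, mem_filter, mem_univ, true_and] at he
  obtain ⟨c, hc⟩ := he
  exact key c hc

/-- Only the guard status of elements at their own level matters. -/
theorem collapse (hd : d.OK r c₀) (hd' : d'.OK r c₀) (i m : ℤ) (h0 : d.init = d'.init)
    (h1 : ∀ c, i < c → d.pre c = d'.pre c)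
    (h2 : ∀ c, i < c → ∀ h, m < h → ∀ g, d.At r c h g → (g ∈ d.Gd c h ↔ g ∈ d'.Gd c h)) :
    ∀ c, i ≤ c → ∀ h, m ≤ h → d.X r c h = d'.X r c h := by
  refine down_ind i c₀ ?_ ?_
  · intro c hc h _
    rw [hd.X_top c hc, hd'.X_top c hc, h0]
  · intro c hc ih h hh
    have e : ∀ h, m ≤ h → d'.Xt r c h = d.Xt r c h := by
      intro h hh
      simp only [Xt, ih h hh, h1 c hc]
    rw [hd.X_pred', hd'.X_pred', e h hh, e (h + 1) (by omega)]
    congr 1
    ext g
    simp only [mem_union, mem_inter]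
    by_cases g1 : g ∈ d.Xt r c h
    · simp [g1]
    by_cases g2 : g ∈ d.Xt r c (h + 1)
    · have := h2 c hc (h + 1) (by omega) g ⟨g2, by simpa using g1⟩
      simp [g1, g2, this]
    · simp [g1, g2]

/-- Comparison of two chains along a relation between levels. -/
theorem compare (hd : d.OK r c₀) (hd' : d'.OK r c₀) (i : ℤ) (Rel : ℤ → ℤ → ℤ → Prop)
    (h0 : ∀ c h h', c₀ ≤ c → Rel c h h' → d.init h ⊆ d'.init h')
    (hR : ∀ c h h', Rel (c - 1) h h' → Rel c h h')
    (h1 : ∀ c, i < c → ∀ h h' Y Y', Rel c h h' → Y ⊆ Y' → d.pre c h Y ⊆ d'.pre c h' Y')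
    (h2 : ∀ c, i < c → (∀ h h', Rel c h h' → d.Xt r c h ⊆ d'.Xt r c h') →
      ∀ h h', Rel (c - 1) h h' →
        d.Gd c (h + 1) ∩ d.Xt r c (h + 1) ⊆
          d'.Xt r c h' ∪ d'.Gd c (h' + 1) ∩ d'.Xt r c (h' + 1)) :
    ∀ c, i ≤ c → ∀ h h', Rel c h h' → d.X r c h ⊆ d'.X r c h' := by
  refine down_ind i c₀ ?_ ?_
  · intro c hc h h' hr
    rw [hd.X_top c hc, hd'.X_top c hc]
    exact h0 c h h' hc hr
  · intro c hc ih h h' hr
    have e : ∀ h h', Rel c h h' → d.Xt r c h ⊆ d'.Xt r c h' :=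
      fun h h' hr => h1 c hc _ _ _ _ hr (ih h h' hr)
    rw [hd.X_pred', hd'.X_pred']
    exact cl_mono (union_subset ((e h h' (hR _ _ _ hr)).trans subset_union_left)
      (h2 c hc e h h' hr))

theorem mono_Gd (hd : d.OK r c₀) (hd' : d'.OK r c₀) (i : ℤ) (h0 : d.init = d'.init)
    (h1 : d.pre = d'.pre) (h2 : ∀ c, i < c → ∀ h, d.Gd c h ⊆ d'.Gd c h) :
    ∀ c, i ≤ c → ∀ h, d.X r c h ⊆ d'.X r c h := by
  intro c hc h
  refine compare hd hd' i (fun _ h h' => h = h') ?_ ?_ ?_ ?_ c hc h h rfl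
  · rintro c h _ _ rfl; rw [h0]
  · intro c h h' hr; exact hr
  · rintro c _ h _ Y Y' rfl hY
    rw [h1]; exact hd'.pre_mono _ _ _ _ _ le_rfl hY
  · rintro c hc e h _ rfl
    exact (inter_subset_inter (h2 c hc _) (e _ _ rfl)).trans subset_union_right

end Dat

end Vale.Agent.P331
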