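import Mathlib

open scoped Classical NNReal ENNReal
open MeasureTheory

namespace Vale.Agent.P331

/-- An online rule that uses one sample per element of `E` and a seed in `Ω`.  When the
element `e` arrives with value `x` after `k` earlier arrivals `prev` with values `vals`, the
decision `accept k prev e seed S vals x` may depend only on these data and the samples `S`. -/
structure OnlineRule (E Ω : Type) [MeasurableSpace Ω] where
  accept : (k : ℕ) → (Fin k → E) → E → Ω → (E → ℝ≥0) → (Fin k → ℝ≥0) → ℝ≥0 → Prop
  measurable_accept : ∀ (k : ℕ) (prev : Fin k → E) (e : E),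
    MeasurableSet {p : Ω × (E → ℝ≥0) × (Fin k → ℝ≥0) × ℝ≥0 |
      accept k prev e p.1 p.2.1 p.2.2.1 p.2.2.2}

variable {E Ω : Type} [Fintype E] [MeasurableSpace Ω]

/-- The set accepted by the rule with seed `s`, samples `S`, values `V` and arrival order `π`
(the element `π k` arrives at time `k`). -/
noncomputable def OnlineRule.accepted (R : OnlineRule E Ω) (s : Ω) (S V : E → ℝ≥0)
    (π : Fin (Fintype.card E) ≃ E) : Finset E :=
  Finset.univ.filter fun e =>
    R.accept (π.symm e) (fun j => π (Fin.castLE (π.symm e).2.le j)) e s S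
      (fun j => V (π (Fin.castLE (π.symm e).2.le j))) (V e)

/-- The maximum weight of an independent set. -/
noncomputable def opt (M : Matroid E) (v : E → ℝ≥0) : ℝ≥0∞ :=
  ⨆ (I : Finset E) (_ : M.Indep (I : Set E)), ∑ e ∈ I, (v e : ℝ≥0∞)

/-- The rule always accepts an independent set and is `c`-competitive against the almighty
adversary, who picks the order as a function of the seed, the samples and the values. -/
def Competitive (M : Matroid E) (law : Measure Ω) (R : OnlineRule E Ω) (c : ℝ≥0) : Prop :=
  (∀ s S V π, M.Indep (R.accepted s S V π : Set E)) ∧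
  ∀ (D : E → Measure ℝ≥0), (∀ e, IsProbabilityMeasure (D e)) →
    ∀ π : Ω × (E → ℝ≥0) × (E → ℝ≥0) → (Fin (Fintype.card E) ≃ E),
    c * ∫⁻ V, opt M V ∂(Measure.pi D) ≤
      ∫⁻ ω, ∑ e ∈ R.accepted ω.1 ω.2.1 ω.2.2 (π ω), (ω.2.2 e : ℝ≥0∞)
        ∂(law.prod ((Measure.pi D).prod (Measure.pi D)))

end Vale.Agent.P331
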