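import Vale.Agent.P331.Rank

open scoped Classical
open Finset

namespace Vale.Agent.P331

namespace RankFn

variable {E : Type} [Fintype E]

/-- The value of a set for the density closure. -/
noncomputable def val (r : RankFn E) (κ : ℕ) (D Z : Finset E) : ℤ :=
  ((D ∩ Z).card : ℤ) - (κ : ℤ) * (r.ρ Z : ℤ)

/-- Maximizers of the value among supersets of `Y`. -/
def IsMax (r : RankFn E) (κ : ℕ) (D Y Z : Finset E) : Prop :=
  Y ⊆ Z ∧ ∀ Z', Y ⊆ Z' → r.val κ D Z' ≤ r.val κ D Z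

/-- The density closure: the union of all maximizers. -/
noncomputable def dcl (r : RankFn E) (κ : ℕ) (D Y : Finset E) : Finset E :=
  univ.filter (fun e => ∃ Z, r.IsMax κ D Y Z ∧ e ∈ Z)

variable {r : RankFn E} {κ : ℕ} {D : Finset E}

omit [Fintype E] in
theorem val_supermod (A B : Finset E) :
    r.val κ D A + r.val κ D B ≤ r.val κ D (A ∪ B) + r.val κ D (A ∩ B) := by
  unfold val
  have h1 := r.submod A B
  have h2 := card_union_add_card_inter (D ∩ A) (D ∩ B)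
  have e1 : D ∩ A ∪ D ∩ B = D ∩ (A ∪ B) := by rw [inter_union_distrib_left]
  have e2 : D ∩ A ∩ (D ∩ B) = D ∩ (A ∩ B) := by
    ext x; simp only [mem_inter]; tauto
  rw [e1, e2] at h2
  have h1' : (κ : ℤ) * (r.ρ (A ∪ B) : ℤ) + κ * (r.ρ (A ∩ B) : ℤ) ≤ κ * r.ρ A + κ * r.ρ B := by
    rw [← mul_add, ← mul_add]
    exact mul_le_mul_of_nonneg_left (by exact_mod_cast h1) (by positivity)
  have h2' : ((D ∩ (A ∪ B)).card : ℤ) + (D ∩ (A ∩ B)).card = (D ∩ A).card + (D ∩ B).card := by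
    exact_mod_cast h2
  linarith

omit [Fintype E] in
theorem IsMax.union {Y A B : Finset E} (hA : r.IsMax κ D Y A) (hB : r.IsMax κ D Y B) :
    r.IsMax κ D Y (A ∪ B) := by
  refine ⟨hA.1.trans subset_union_left, fun Z hZ => ?_⟩
  have h1 := val_supermod (r := r) (κ := κ) (D := D) A B
  have h2 := hA.2 (A ∩ B) (subset_inter hA.1 hB.1)
  have h3 := hB.2 Z hZ
  linarith

theorem exists_isMax (Y : Finset E) : ∃ Z, r.IsMax κ D Y Z := by
  obtain ⟨Z, hZ, h⟩ := exists_max_image (univ.filter (fun Z : Finset E => Y ⊆ Z))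
    (r.val κ D) ⟨Y, by simp⟩
  exact ⟨Z, by simpa using hZ, fun Z' hZ' => h Z' (by simpa using hZ')⟩

theorem IsMax.subset_dcl {Y Z : Finset E} (h : r.IsMax κ D Y Z) : Z ⊆ r.dcl κ D Y := by
  intro e he
  simp only [dcl, mem_filter, mem_univ, true_and]
  exact ⟨Z, h, he⟩

theorem isMax_dcl (Y : Finset E) : r.IsMax κ D Y (r.dcl κ D Y) := by
  have key : ∀ J : Finset E, J ⊆ r.dcl κ D Y → ∃ Z, r.IsMax κ D Y Z ∧ J ⊆ Z := by
    intro J
    induction J using Finset.induction_on with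
    | empty =>
      intro _
      obtain ⟨Z, hZ⟩ := exists_isMax (r := r) (κ := κ) (D := D) Y
      exact ⟨Z, hZ, empty_subset _⟩
    | insert a J ha ih =>
      intro hJ
      obtain ⟨Z, hZ, hJZ⟩ := ih ((subset_insert _ _).trans hJ)
      have h1 := hJ (mem_insert_self _ _)
      simp only [dcl, mem_filter, mem_univ, true_and] at h1
      obtain ⟨Z', hZ', ha'⟩ := h1
      exact ⟨Z ∪ Z', hZ.union hZ', insert_subset (mem_union_right _ ha')
        (hJZ.trans subset_union_left)⟩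
  obtain ⟨Z, hZ, h⟩ := key _ subset_rfl
  have : Z = r.dcl κ D Y := Subset.antisymm hZ.subset_dcl h
  rwa [← this]

theorem subset_dcl (Y : Finset E) : Y ⊆ r.dcl κ D Y := (isMax_dcl Y).1

theorem val_le_dcl {Y Z : Finset E} (h : Y ⊆ Z) : r.val κ D Z ≤ r.val κ D (r.dcl κ D Y) :=
  (isMax_dcl Y).2 Z h

theorem subset_dcl_of_val {Y Z : Finset E} (h : Y ⊆ Z)
    (hv : r.val κ D (r.dcl κ D Y) ≤ r.val κ D Z) : Z ⊆ r.dcl κ D Y :=
  IsMax.subset_dcl ⟨h, fun _ hZ' => (val_le_dcl hZ').trans hv⟩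

theorem val_le_cl (Z : Finset E) : r.val κ D Z ≤ r.val κ D (r.cl Z) := by
  unfold val
  rw [rk_cl]
  have : (D ∩ Z).card ≤ (D ∩ r.cl Z).card :=
    card_le_card (inter_subset_inter subset_rfl (subset_cl Z))
  omega

theorem cl_dcl (Y : Finset E) : r.cl (r.dcl κ D Y) = r.dcl κ D Y :=
  Subset.antisymm (subset_dcl_of_val ((subset_dcl Y).trans (subset_cl _)) (val_le_cl _))
    (subset_cl _)

theorem cl_subset_dcl (Y : Finset E) : r.cl Y ⊆ r.dcl κ D Y := by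
  rw [← cl_dcl]; exact cl_mono (subset_dcl Y)

theorem dcl_mono {Y Y' : Finset E} (h : Y ⊆ Y') : r.dcl κ D Y ⊆ r.dcl κ D Y' := by
  have h1 := val_supermod (r := r) (κ := κ) (D := D) (r.dcl κ D Y) (r.dcl κ D Y')
  have h2 : r.val κ D (r.dcl κ D Y ∩ r.dcl κ D Y') ≤ r.val κ D (r.dcl κ D Y) :=
    val_le_dcl (subset_inter (subset_dcl Y) (h.trans (subset_dcl Y')))
  have h3 : r.dcl κ D Y ∪ r.dcl κ D Y' ⊆ r.dcl κ D Y' :=
    subset_dcl_of_val ((subset_dcl Y').trans subset_union_right) (by linarith)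
  exact subset_union_left.trans h3

theorem dcl_subset_cl (hκ : 0 < κ) (Y : Finset E) :
    r.dcl κ D Y ⊆ r.cl (Y ∪ D ∩ r.dcl κ D Y) := by
  have hZ : Y ∪ D ∩ r.dcl κ D Y ⊆ r.dcl κ D Y := union_subset (subset_dcl Y) inter_subset_right
  apply subset_cl_of_rk hZ
  have h1 : r.val κ D (Y ∪ D ∩ r.dcl κ D Y) ≤ r.val κ D (r.dcl κ D Y) :=
    val_le_dcl subset_union_left
  unfold val at h1
  have h2 : (D ∩ r.dcl κ D Y).card ≤ (D ∩ (Y ∪ D ∩ r.dcl κ D Y)).card := by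
    apply card_le_card
    intro x; simp only [mem_inter, mem_union]; tauto
  have h3 := r.mono hZ
  by_contra hlt
  push Not at hlt
  have h4 : (D ∩ (Y ∪ D ∩ r.dcl κ D Y)).card ≤ (D ∩ r.dcl κ D Y).card :=
    card_le_card (inter_subset_inter subset_rfl hZ)
  have h5 : Y ∪ D ∩ r.dcl κ D Y ⊆ r.dcl κ D Y := hZ
  have h6 : r.val κ D (r.dcl κ D Y) < r.val κ D (Y ∪ D ∩ r.dcl κ D Y) := by
    unfold val
    have : (κ : ℤ) * (r.ρ (Y ∪ D ∩ r.dcl κ D Y) : ℤ) < κ * (r.ρ (r.dcl κ D Y) : ℤ) :=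
      mul_lt_mul_of_pos_left (by exact_mod_cast hlt) (by exact_mod_cast hκ)
    omega
  exact absurd (val_le_dcl (r := r) (κ := κ) (D := D) (subset_union_left :
    Y ⊆ Y ∪ D ∩ r.dcl κ D Y)) (not_le.2 h6)

theorem dcl_subset_cl' (hκ : 0 < κ) (Y : Finset E) : r.dcl κ D Y ⊆ r.cl (Y ∪ D) :=
  (dcl_subset_cl hκ Y).trans (cl_mono (union_subset_union subset_rfl inter_subset_left))

theorem dcl_empty (hκ : 0 < κ) (Y : Finset E) : r.dcl κ ∅ Y = r.cl Y :=
  Subset.antisymm (by simpa using dcl_subset_cl' (r := r) (D := ∅) hκ Y) (cl_subset_dcl Y)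

omit [Fintype E] in
theorem card_inter_split {Q P : Finset E} (h : Q ⊆ P) :
    (D ∩ P).card = (D ∩ Q).card + ((D ∩ P) \ Q).card := by
  rw [← card_union_of_disjoint]
  · congr 1
    ext x; simp only [mem_inter, mem_union, mem_sdiff]; have := @h x; tauto
  · rw [disjoint_left]; intro x; simp only [mem_inter, mem_sdiff]; tauto

/-- Outside the density closure the set `D` is sparse. -/
theorem sparse_dcl {Y Z : Finset E} (h : r.dcl κ D Y ⊆ Z) :
    ((D ∩ Z) \ r.dcl κ D Y).card + κ * r.ρ (r.dcl κ D Y) ≤ κ * r.ρ Z := by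
  have h1 := val_le_dcl (r := r) (κ := κ) (D := D) ((subset_dcl Y).trans h)
  unfold val at h1
  rw [card_inter_split h] at h1
  push_cast at h1
  have : (((D ∩ Z) \ r.dcl κ D Y).card : ℤ) + κ * r.ρ (r.dcl κ D Y) ≤ κ * r.ρ Z := by linarith
  exact_mod_cast this

theorem sparse_dcl_strict {Y Z : Finset E} (h : r.dcl κ D Y ⊆ Z) (hn : ¬ Z ⊆ r.dcl κ D Y) :
    ((D ∩ Z) \ r.dcl κ D Y).card + κ * r.ρ (r.dcl κ D Y) < κ * r.ρ Z := by
  have h1 : r.val κ D Z < r.val κ D (r.dcl κ D Y) := by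
    by_contra h2
    exact hn (subset_dcl_of_val ((subset_dcl Y).trans h) (not_lt.1 h2))
  unfold val at h1
  rw [card_inter_split h] at h1
  push_cast at h1
  have : (((D ∩ Z) \ r.dcl κ D Y).card : ℤ) + κ * r.ρ (r.dcl κ D Y) < κ * r.ρ Z := by linarith
  exact_mod_cast this

/-- Inside the density closure the set `D` is dense. -/
theorem dense_dcl {Y Q : Finset E} (h : Y ⊆ Q) (hQ : Q ⊆ r.dcl κ D Y) :
    κ * r.ρ (r.dcl κ D Y) ≤ ((D ∩ r.dcl κ D Y) \ Q).card + κ * r.ρ Q := by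
  have h1 := val_le_dcl (r := r) (κ := κ) (D := D) h
  unfold val at h1
  rw [card_inter_split hQ] at h1
  push_cast at h1
  have : (κ : ℤ) * r.ρ (r.dcl κ D Y) ≤ ((D ∩ r.dcl κ D Y) \ Q).card + κ * r.ρ Q := by linarith
  exact_mod_cast this

end RankFn

end Vale.Agent.P331
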