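import Vale.Agent.P331.Alg

open scoped Classical
open Finset

namespace Vale.Agent.P331

open RankFn Dat Line

variable {E : Type} [Fintype E]

theorem sum_ind_le {ι : Type} (s : Finset ι) (P : ι → Prop) (Q : Prop)
    (h1 : ∀ a ∈ s, ∀ b ∈ s, P a → P b → a = b) (h2 : ∀ a ∈ s, P a → Q) :
    ∑ a ∈ s, ind (P a) ≤ ind Q := by
  by_cases H : ∃ a ∈ s, P a
  · obtain ⟨a, ha, hP⟩ := H
    rw [sum_eq_single_of_mem a ha (fun b hb hba => ind_neg (fun h => hba (h1 b hb a ha h hP))),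
      ind_pos hP, ind_pos (h2 a ha hP)]
  · push Not at H
    rw [sum_eq_zero (fun a ha => ind_neg (H a ha))]
    exact ind_nonneg _

/-- Top level of the window `j`. -/
def tau (L : ℕ) (j : ℤ) (ε : Fin (L + 1)) : ℤ := (L + 1 : ℕ) * j + ε

noncomputable def mkFt (r : RankFn E) (κ L : ℕ) {N : ℕ} (b : Bool) (ε : Fin (L + 1))
    (cls : E → Option ℤ) (β1 β2 : E → Bool) (l : E → Fin N) : ℤ → Finset E :=
  fun j => (mkDat r κ L b cls β1 β2 l).F r (tau L j ε)

def mkCand (r : RankFn E) (κ L : ℕ) {N : ℕ} (b : Bool) (ε : Fin (L + 1))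
    (cls : E → Option ℤ) (β1 β2 : E → Bool) (l : E → Fin N) : ℤ → E → Prop :=
  fun j e => (e ∈ Uset β1 β2 ∧ (l e : ℕ) = 0) ∧
    ∃ c, cls e = some c ∧ (mkDat r κ L b cls β1 β2 l).At r c (tau L j ε) e

noncomputable def Wo (r : RankFn E) (cls : E → Option ℤ) (β1 : E → Bool) (i : ℤ) : Finset E :=
  Wc cls i \ r.cl (Dset cls β1 i)

noncomputable def Pch (r : RankFn E) (κ L : ℕ) {N : ℕ} (b : Bool) (ε : Fin (L + 1))
    (cls : E → Option ℤ) (β1 β2 : E → Bool) (l : E → Fin N) (i j₀ : ℤ) : ℕ → Finset E :=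
  fun k => r.dcl κ (Dset cls β2 i)
    (Ybase r κ L b cls β1 β2 l i (tau L (j₀ + k) ε) ∪ Dset cls β1 i)

noncomputable def Blk (r : RankFn E) (κ L : ℕ) {N : ℕ} (b : Bool) (ε : Fin (L + 1))
    (cls : E → Option ℤ) (β1 β2 : E → Bool) (l : E → Fin N) (i j₀ : ℤ) (K : ℕ) : Finset E :=
  (Wo r cls β1 i).filter (fun e => (l e : ℕ) = 0 ∧ β2 e = false ∧
    e ∈ r.spanned (Pch r κ L b ε cls β1 β2 l i j₀) K (Wo r cls β1 i)
      (((Wo r cls β1 i).filter (fun x => (l x : ℕ) = 0)).erase e))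

variable {r : RankFn E} {κ L N : ℕ} {cls : E → Option ℤ} {c₀ : ℤ}

theorem tau_succ (j : ℤ) (ε : Fin (L + 1)) : tau L (j + 1) ε = tau L j ε + (L + 1) := by
  unfold tau; push_cast; ring

theorem tau_pred (j : ℤ) (ε : Fin (L + 1)) : tau L (j - 1) ε + 1 = tau L j ε - L := by
  unfold tau; push_cast; ring

theorem tau_mono (ε : Fin (L + 1)) : Monotone (fun j => tau L j ε) := by
  apply monotone_int_of_le_succ
  intro j
  simp only [tau_succ]
  omega

theorem tau_inj {j j' : ℤ} {ε ε' : Fin (L + 1)} (h : tau L j ε = tau L j' ε') :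
    j = j' ∧ ε = ε' := by
  unfold tau at h
  have h1 := ε.2
  have h2 := ε'.2
  push_cast at h
  have : j = j' := by
    rcases lt_trichotomy j j' with h3 | h3 | h3
    · nlinarith
    · exact h3
    · nlinarith
  subst this
  exact ⟨rfl, Fin.ext (by omega)⟩

theorem mkFt_mono (hκ : 0 < κ) (hc : ∀ e c, cls e = some c → c ≤ c₀) (b : Bool)
    (ε : Fin (L + 1)) (β1 β2 : E → Bool) (l : E → Fin N) :
    Monotone (mkFt r κ L b ε cls β1 β2 l) :=
  fun _ _ h => (mkLine_ok hκ hc b β1 β2 _).F_mono (tau_mono ε h)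

theorem mkCand_mem (hκ : 0 < κ) (hc : ∀ e c, cls e = some c → c ≤ c₀) (b : Bool)
    (ε : Fin (L + 1)) (β1 β2 : E → Bool) (l : E → Fin N) (j : ℤ) (e : E)
    (h : mkCand r κ L b ε cls β1 β2 l j e) : e ∈ mkFt r κ L b ε cls β1 β2 l j := by
  obtain ⟨_, c, _, h2⟩ := h
  exact (mkLine_ok hκ hc b β1 β2 _).Xt_subset_F c _ h2.1

theorem Ych_mono (hκ : 0 < κ) (hc : ∀ e c, cls e = some c → c ≤ c₀) (b : Bool)
    (ε : Fin (L + 1)) (β1 β2 : E → Bool) (l : E → Fin N) (i j₀ : ℤ) :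
    Monotone (fun k : ℕ => Ybase r κ L b cls β1 β2 l i (tau L (j₀ + k) ε) ∪ Dset cls β1 i) := by
  apply monotone_nat_of_le_succ
  intro k
  refine union_subset_union ?_ subset_rfl
  have := Ybase_succ (r := r) (L := L) hκ hc b β1 β2 l i (tau L (j₀ + k) ε)
  rw [show j₀ + ((k + 1 : ℕ) : ℤ) = j₀ + k + 1 by push_cast; ring, tau_succ]
  exact this.1.trans this.2

theorem gain_windows (hκ : 0 < κ) (hc : ∀ e c, cls e = some c → c ≤ c₀) (b : Bool)
    (ε : Fin (L + 1)) (β1 β2 : E → Bool) (l : E → Fin N) (i j₀ : ℤ) (K : ℕ)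
    (hact : b = true ∨ 2 * i + 1 ≤ j₀) {A : Finset E}
    (hA : GSpec r (mkFt r κ L b ε cls β1 β2 l) (mkCand r κ L b ε cls β1 β2 l) univ A) :
    ∑ k ∈ range K, ∑ e ∈ Wc cls i, ind (e ∈ Uset β1 β2 ∧ (l e : ℕ) = 0) *
      (ind ((mkDat r κ L b cls β1 β2 l).At r i (tau L (j₀ + k) ε) e) -
        ind ((mkLine r κ L b cls β1 β2).Bad r (Uset β1 β2) L i (tau L (j₀ + k) ε) e l)) ≤
      (A ∩ Hle cls i).card + (Blk r κ L b ε cls β1 β2 l i j₀ K).card + r.ρ (Hlt cls i) := by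
  have hb : (mkDat r κ L b cls β1 β2 l).OK r c₀ := mkLine_ok hκ hc b β1 β2 _
  set Ft := mkFt r κ L b ε cls β1 β2 l with hFt
  set Cand := mkCand r κ L b ε cls β1 β2 l with hCand
  set P := Pch r κ L b ε cls β1 β2 l i j₀ with hP
  set H := Hlt cls i with hH
  have hF : Monotone Ft := mkFt_mono hκ hc b ε β1 β2 l
  have hC : ∀ j e, Cand j e → e ∈ Ft j := mkCand_mem hκ hc b ε β1 β2 l
  let C : ℕ → Finset E := fun k => (Wc cls i).filter (fun e => Cand (j₀ + k) e)
  have hY : ∀ k : ℕ, (mkLine r κ L b cls β1 β2).Yhat r (Uset β1 β2) L i (tau L (j₀ + k) ε) l =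
      P k := by
    intro k
    apply Yhat_eq
    refine hact.imp id (fun h => ?_)
    unfold tau
    push_cast
    have := ε.2
    have h0 : (0 : ℤ) ≤ (ε : ℕ) := by positivity
    have h1 : (0 : ℤ) ≤ k := by positivity
    have h2 : (0 : ℤ) ≤ L := by positivity
    nlinarith
  have hCat : ∀ (k : ℕ) e, e ∈ Wc cls i → (Cand (j₀ + k) e ↔ (e ∈ Uset β1 β2 ∧ (l e : ℕ) = 0) ∧
      (mkDat r κ L b cls β1 β2 l).At r i (tau L (j₀ + k) ε) e) := by
    intro k e he
    rw [mem_Wc] at he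
    refine and_congr_right (fun _ => ⟨?_, fun h => ⟨i, he, h⟩⟩)
    rintro ⟨c, h1, h2⟩
    rw [he] at h1
    obtain rfl : i = c := Option.some.inj h1
    exact h2
  have hPm : Monotone P := fun a a' h => dcl_mono (Ych_mono hκ hc b ε β1 β2 l i j₀ h)
  have hCP : ∀ k, C k ⊆ P (k + 1) := by
    intro k e he
    rw [mem_filter] at he
    have h1 := ((hCat k e he.1).1 he.2).2.1
    rw [← hY]
    refine hb.pre_mono _ _ _ _ _ ?_ ?_ h1
    · rw [show j₀ + ((k + 1 : ℕ) : ℤ) = j₀ + k + 1 by push_cast; ring, tau_succ]; omega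
    · rw [show j₀ + ((k + 1 : ℕ) : ℤ) = j₀ + k + 1 by push_cast; ring, tau_succ]
      exact (Ybase_succ hκ hc b β1 β2 l i _).2
  have s1 := sum_windows_le hF A (Hle cls i) j₀ K
  have s2 : ∀ k : ℕ, ((r.ρ (P k ∪ H ∪ C k) : ℤ) - r.ρ (P k ∪ H)) ≤
      (((A ∩ Ft (j₀ + k)) \ Ft (j₀ + k - 1)) ∩ Hle cls i).card := by
    intro k
    have g := hA.gain hF hC (j₀ + k) (Hv := Hle cls i)
      (B := (mkLine r κ L b cls β1 β2).Bset r (Uset β1 β2) L i (tau L (j₀ + k) ε) l) (C := C k)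
      (by
        rintro e ⟨h1, c, h2, h3⟩ h4
        simp only [Bset, mem_filter, mem_univ, true_and]
        refine ⟨c, ?_, h2, h1.1, h1.2, h3⟩
        by_contra h5
        apply h4
        simp only [Hle, mem_filter, mem_univ, true_and]
        exact ⟨c, by omega, h2⟩) (fun e he => (mem_filter.1 he).2)
    have sub : Ft (j₀ + k - 1) ∪
        (mkLine r κ L b cls β1 β2).Bset r (Uset β1 β2) L i (tau L (j₀ + k) ε) l ⊆
        r.cl (P k ∪ H) := by
      refine union_subset ((F_subset_mk hκ hc b β1 β2 _ i _).trans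
        (cl_mono (union_subset_union ?_ subset_rfl))) ?_
      · rw [tau_pred, ← hY]
        exact hb.pre_mono _ _ _ _ _ le_rfl (subset_union_left.trans (subset_cl _))
      · refine Subset.trans ?_ (subset_union_left.trans (subset_cl _))
        rw [← hY]
        exact (subset_union_right.trans (subset_cl _)).trans (hb.pre_ext _ _ _)
    have d := dim (r := r) sub (C k)
    rw [rk_cl] at d
    have m := r.mono (union_subset_union (subset_cl (r := r) (P k ∪ H)) (subset_rfl (a := C k)))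
    omega
  have s3 := telescope (r := r) H P C
    (fun k => union_subset (hPm (Nat.le_succ k)) (hCP k)) K
  have s4 : ∀ k, (((C k).filter (fun e => e ∉ r.cl (P k ∪ (C k).erase e))).card : ℤ) ≤
      (r.ρ (P k ∪ C k) : ℤ) - r.ρ (P k) := by
    intro k
    have := coloop_le (r := r) (P k) (C k)
    omega
  have s5 : ∑ k ∈ range K, (((C k).filter (fun e => e ∉ r.cl (P k ∪ (C k).erase e))).card : ℝ) ≤
      (A ∩ Hle cls i).card + r.ρ H := by
    have t1 := sum_le_sum (fun k (_ : k ∈ range K) => s4 k)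
    have t2 := sum_le_sum (fun k (_ : k ∈ range K) => s2 k)
    have t3 : (∑ k ∈ range K, ((((A ∩ Ft (j₀ + k)) \ Ft (j₀ + k - 1)) ∩ Hle cls i).card : ℤ)) ≤
        (A ∩ Hle cls i).card := by exact_mod_cast s1
    have : ∑ k ∈ range K, (((C k).filter (fun e => e ∉ r.cl (P k ∪ (C k).erase e))).card : ℤ) ≤
      (A ∩ Hle cls i).card + r.ρ H := by linarith
    exact_mod_cast this
  have s6 : ∀ k : ℕ, ∑ e ∈ Wc cls i, ind (e ∈ Uset β1 β2 ∧ (l e : ℕ) = 0) *
      (ind ((mkDat r κ L b cls β1 β2 l).At r i (tau L (j₀ + k) ε) e) -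
        ind ((mkLine r κ L b cls β1 β2).Bad r (Uset β1 β2) L i (tau L (j₀ + k) ε) e l)) ≤
      (((C k).filter (fun e => e ∉ r.cl (P k ∪ (C k).erase e))).card : ℝ) +
      ∑ e ∈ Wc cls i, ind (Cand (j₀ + k) e ∧ e ∉ P k ∧ e ∈ r.cl (P k ∪ (C k).erase e)) := by
    intro k
    simp only [C]
    rw [filter_filter, card_filter_eq_sum_ind, ← sum_add_distrib]
    apply sum_le_sum
    intro e he
    have n1 := ind_nonneg (Cand (j₀ + k) e ∧
      e ∉ r.cl (P k ∪ ((Wc cls i).filter (fun e => Cand (j₀ + k) e)).erase e))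
    have n2 := ind_nonneg (Cand (j₀ + k) e ∧ e ∉ P k ∧
      e ∈ r.cl (P k ∪ ((Wc cls i).filter (fun e => Cand (j₀ + k) e)).erase e))
    by_cases h1 : e ∈ Uset β1 β2 ∧ (l e : ℕ) = 0
    swap
    · rw [ind_neg h1, zero_mul]; linarith
    rw [ind_pos h1, one_mul]
    by_cases h2 : (mkDat r κ L b cls β1 β2 l).At r i (tau L (j₀ + k) ε) e
    swap
    · rw [ind_neg h2]
      linarith [ind_nonneg ((mkLine r κ L b cls β1 β2).Bad r (Uset β1 β2) L i
        (tau L (j₀ + k) ε) e l)]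
    rw [ind_pos h2]
    by_cases h3 : (mkLine r κ L b cls β1 β2).Bad r (Uset β1 β2) L i (tau L (j₀ + k) ε) e l
    · rw [ind_pos h3]; linarith
    have h4 : e ∉ P k := fun h => h3 ⟨h2, by rw [hY]; exact h⟩
    have h5 := (hCat k e he).2 ⟨h1, h2⟩
    rw [ind_neg h3]
    by_cases h6 : e ∈ r.cl (P k ∪ ((Wc cls i).filter (fun e => Cand (j₀ + k) e)).erase e)
    · rw [ind_pos (And.intro h5 (And.intro h4 h6))]; linarith
    · rw [ind_pos (And.intro h5 h6)]; linarith
  have s7 : ∑ k ∈ range K, ∑ e ∈ Wc cls i,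
      ind (Cand (j₀ + k) e ∧ e ∉ P k ∧ e ∈ r.cl (P k ∪ (C k).erase e)) ≤
      (Blk r κ L b ε cls β1 β2 l i j₀ K).card := by
    rw [sum_comm]
    have hWo : ∀ k e, e ∈ Wc cls i → e ∉ P k → e ∈ Wo r cls β1 i := fun k e h1 h2 =>
      mem_sdiff.2 ⟨h1, fun h3 => h2 (cl_subset_dcl _ (cl_mono subset_union_right h3))⟩
    calc _ ≤ ∑ e ∈ Wc cls i, ind (e ∈ Blk r κ L b ε cls β1 β2 l i j₀ K) := by
          apply sum_le_sum
          intro e he
          apply sum_ind_le
          · intro a _ a' _ h1 h2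
            have := tau_inj (hb.At_unique ((hCat a e he).1 h1.1).2 ((hCat a' e he).1 h2.1).2)
            omega
          · rintro k hk ⟨h1, h2, h3⟩
            have h4 := ((hCat k e he).1 h1).1
            refine mem_filter.2 ⟨hWo k e he h2, h4.2, (mem_Uset.1 h4.1).2,
              mem_filter.2 ⟨hWo k e he h2, k, mem_range.1 hk, cl_mono ?_ h3, h2⟩⟩
            intro x hx
            by_cases hxP : x ∈ P k
            · exact mem_union_left _ hxP
            · have hx' : x ∈ (C k).erase e := (mem_union.1 hx).resolve_left hxP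
              rw [mem_erase] at hx'
              have hx2 := mem_filter.1 hx'.2
              refine mem_union_right _ (mem_inter.2 ⟨mem_erase.2 ⟨hx'.1, mem_filter.2
                ⟨hWo k x hx2.1 hxP, hx2.2.1.2⟩⟩, hCP k hx'.2⟩)
      _ ≤ _ := by
          rw [← card_filter_eq_sum_ind]
          exact_mod_cast card_le_card (fun e he => (mem_filter.1 he).2)
  have s8 := sum_le_sum (fun k (_ : k ∈ range K) => s6 k)
  rw [sum_add_distrib] at s8
  linarith

theorem gain_dense (hκ : 0 < κ) (hL : 1 ≤ L) (hc : ∀ e c, cls e = some c → c ≤ c₀)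
    (β1 β2 : E → Bool) (l : E → Fin N) (i : ℤ) {A : Finset E}
    (hA : GSpec r (mkFt r κ L false 0 cls β1 β2 l) (mkCand r κ L false 0 cls β1 β2 l) univ A) :
    r.ρ (((Wc cls i).filter (fun e => e ∈ Uset β1 β2 ∧ (l e : ℕ) = 0)) ∩ Gden r κ cls β1 β2 i) ≤
      (A ∩ Hle cls i).card + r.ρ (Hlt cls i) := by
  have hb : (mkDat r κ L false cls β1 β2 l).OK r c₀ := mkLine_ok hκ hc false β1 β2 _
  have hF := mkFt_mono (r := r) (L := L) hκ hc false 0 β1 β2 l
  have hC := mkCand_mem (r := r) (L := L) hκ hc false 0 β1 β2 l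
  have ht : tau L (2 * i) 0 = 2 * (L + 1) * i := by unfold tau; push_cast; simp; ring
  have hL' : (1 : ℤ) ≤ L := by exact_mod_cast hL
  have g := hA.gain hF hC (2 * i) (Hv := Hle cls i) (B := ∅)
    (C := (Wc cls i).filter (fun e => mkCand r κ L false 0 cls β1 β2 l (2 * i) e)) (by
      rintro e ⟨_, c, h2, h3⟩ h4
      exfalso
      have hic : i < c := by
        by_contra h5
        apply h4
        simp only [Hle, mem_filter, mem_univ, true_and]
        exact ⟨c, by omega, h2⟩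
      rw [ht] at h3
      exact h3.2 (hb.X_subset_Xt _ _ (cl_empty_subset_X hκ hc false β1 β2 _ _ _
        (low_Xt hκ hc β1 β2 _ c _ (by nlinarith) h3.1)))) (fun e he => (mem_filter.1 he).2)
  rw [union_empty] at g
  have a1 : r.ρ (mkFt r κ L false 0 cls β1 β2 l (2 * i - 1)) ≤ r.ρ (Hlt cls i) := by
    refine rk_le_of_subset_cl ((F_subset_mk hκ hc false β1 β2 _ i _).trans (cl_subset_cl
      (union_subset ?_ (subset_cl _))))
    refine (low_Xt hκ hc β1 β2 _ i _ ?_).trans (cl_mono (empty_subset _))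
    rw [tau_pred, ht]; omega
  have a2 : ((A ∩ mkFt r κ L false 0 cls β1 β2 l (2 * i)) \
      mkFt r κ L false 0 cls β1 β2 l (2 * i - 1) ∩ Hle cls i).card ≤ (A ∩ Hle cls i).card :=
    card_le_card (inter_subset_inter (sdiff_subset.trans inter_subset_left) subset_rfl)
  have a3 : ((Wc cls i).filter (fun e => e ∈ Uset β1 β2 ∧ (l e : ℕ) = 0)) ∩
      Gden r κ cls β1 β2 i ⊆ r.cl (mkFt r κ L false 0 cls β1 β2 l (2 * i - 1) ∪
      (Wc cls i).filter (fun e => mkCand r κ L false 0 cls β1 β2 l (2 * i) e)) := by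
    intro e he
    rw [mem_inter, mem_filter] at he
    by_cases h : e ∈ (mkDat r κ L false cls β1 β2 l).Xt r i (2 * (L + 1) * i - 1)
    · exact cl_mono (empty_subset _) (low_Xt hκ hc β1 β2 _ i _ (by omega) h)
    · refine subset_cl _ (mem_union_right _ (mem_filter.2 ⟨he.1.1, he.1.2, i, mem_Wc.1 he.1.1, ?_⟩))
      rw [ht]
      refine ⟨?_, h⟩
      unfold mkDat
      rw [Xt_eq_Gden hκ hc β1 β2 _ i _ le_rfl (by nlinarith)]
      exact he.2
  have := rk_le_of_subset_cl a3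
  omega

end Vale.Agent.P331
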