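import Vale.Agent.P331.Dens

open scoped Classical
open Finset

namespace Vale.Agent.P331

namespace RankFn

variable {E : Type} [Fintype E] {r : RankFn E} {κ : ℕ} {D : Finset E}

/-- A witness system covering `As`. -/
def Sys (r : RankFn E) (D P Q R B As : Finset E) (cnt : E → ℕ) : Prop :=
  ∑ w, cnt w ≤ As.card ∧
  (∀ w, 0 < cnt w → w ∈ r.cl (R ∪ As) ∧ w ∈ D ∩ P ∧ w ∉ r.cl R ∧
    ∀ N ⊆ B, w ∈ r.cl (Q ∪ N) → cnt w < N.card) ∧
  (∀ J : Finset E, (∀ w, 0 < cnt w → (r.fc R B w \ J).card ≤ cnt w → r.fc R B w ⊆ J) → As ⊆ J)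

theorem sys_step {Yp Y A B As : Finset E} (hY : Yp ⊆ Y)
    (hB : r.Indm (Y ∪ r.dcl κ D Yp) B) (hAB : A ⊆ B) (hAP : A ⊆ r.dcl κ D Y)
    (hP : r.dcl κ D Y ⊆ r.cl (Y ∪ r.dcl κ D Yp ∪ A)) (hAs : As ⊆ A) (hne : As ≠ A)
    {cnt : E → ℕ}
    (h : r.Sys D (r.dcl κ D Y) (r.dcl κ D Yp) (Y ∪ r.dcl κ D Yp) B As cnt) :
    ∃ As' cnt', As ⊂ As' ∧ As' ⊆ A ∧
      r.Sys D (r.dcl κ D Y) (r.dcl κ D Yp) (Y ∪ r.dcl κ D Yp) B As' cnt' := by
  set P := r.dcl κ D Y with hPdef
  set Q := r.dcl κ D Yp with hQdef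
  set R := Y ∪ Q with hRdef
  have hQP : Q ⊆ P := dcl_mono hY
  have hRP : R ⊆ P := union_subset (subset_dcl Y) hQP
  have hPflat : r.cl P = P := cl_dcl Y
  have hA : r.Indm R A := hB.subset hAB
  have hAs' : r.Indm R As := hA.subset hAs
  have hrP : r.ρ P = r.ρ R + A.card := by
    apply le_antisymm
    · rw [← hA]; exact rk_le_of_subset_cl hP
    · rw [← hA]; exact r.mono (union_subset hRP hAP)
  have hQ'P : r.cl (R ∪ As) ⊆ P := by
    rw [← hPflat]; exact cl_mono (union_subset hRP (hAs.trans hAP))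
  have d1 := dense_dcl (r := r) (κ := κ) (D := D)
    (subset_union_left.trans (subset_union_left.trans (subset_cl _)) : Y ⊆ r.cl (R ∪ As)) hQ'P
  rw [← hPdef, rk_cl, hAs', hrP] at d1
  obtain ⟨a, ha⟩ : (A \ As).Nonempty := by
    rw [sdiff_nonempty]; exact fun h' => hne (Subset.antisymm hAs h')
  have d2 := sparse_dcl_strict (r := r) (κ := κ) (D := D) (Y := Yp) (Z := r.cl (Q ∪ (A \ As)))
    (subset_union_left.trans (subset_cl _)) (by
      intro h'
      have h1 : a ∈ Q := h' (subset_cl _ (mem_union_right _ ha))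
      exact hA.not_mem_cl (mem_sdiff.1 ha).1 (subset_cl _ (mem_union_right _ h1)))
  rw [← hQdef, rk_cl] at d2
  have d3 := rk_union_le_card (r := r) Q (A \ As)
  have d4 := card_sdiff_add_card_eq_card hAs
  have d5 : ((D ∩ r.cl (Q ∪ (A \ As))) \ Q).card < ((D ∩ P) \ r.cl (R ∪ As)).card := by
    have := Nat.mul_le_mul_left κ d3
    rw [← d4] at d1
    nlinarith
  obtain ⟨w, hw, hw2⟩ := exists_mem_notMem_of_card_lt_card d5
  rw [mem_sdiff] at hw
  have hwQ : w ∉ Q := fun h' => hw.2 (subset_cl _ (mem_union_left _ (mem_union_right _ h')))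
  have hwZ : w ∉ r.cl (Q ∪ (A \ As)) := fun h' =>
    hw2 (mem_sdiff.2 ⟨mem_inter.2 ⟨(mem_inter.1 hw.1).1, h'⟩, hwQ⟩)
  have hwA : w ∈ r.cl (R ∪ A) := hP (mem_inter.1 hw.1).2
  set N := r.fc R B w with hNdef
  have hNA : N ⊆ A := fc_subset_of hAB hwA
  have hwN : w ∈ r.cl (R ∪ N) :=
    hB.mem_cl_fc (cl_mono (union_subset_union subset_rfl hAB) hwA)
  have hNAs : ¬ N ⊆ As := fun h' => hw.2 (cl_mono (union_subset_union subset_rfl h') hwN)
  have hc0 : cnt w = 0 := by
    by_contra h'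
    exact hw.2 (h.2.1 w (Nat.pos_of_ne_zero h')).1
  refine ⟨As ∪ N, Function.update cnt w (N \ As).card, ?_, union_subset hAs hNA, ?_, ?_, ?_⟩
  · rw [ssubset_iff_subset_ne]
    refine ⟨subset_union_left, fun h' => hNAs ?_⟩
    rw [h']; exact subset_union_right
  · rw [sum_update_of_mem (mem_univ w)]
    have h1 := h.1
    rw [← add_sum_erase _ _ (mem_univ w), hc0, ← sdiff_singleton_eq_erase] at h1
    have h2 : (As ∪ N).card = As.card + (N \ As).card := by
      rw [← union_sdiff_self_eq_union, card_union_of_disjoint disjoint_sdiff]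
    omega
  · intro v hv
    by_cases hvw : v = w
    · subst hvw
      refine ⟨cl_mono (union_subset_union subset_rfl subset_union_right) hwN, hw.1,
        fun h' => hw.2 (cl_mono subset_union_left h'), ?_⟩
      intro N' hN' hvN'
      rw [Function.update_self]
      have h1 : N ⊆ N' :=
        fc_subset_of hN' (cl_mono (union_subset_union subset_union_right subset_rfl) hvN')
      by_contra h2
      push Not at h2
      have h3 : N \ As = N' := eq_of_subset_of_card_le (sdiff_subset.trans h1) h2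
      refine hwZ (cl_mono (union_subset_union subset_rfl ?_) hvN')
      rw [← h3]
      exact sdiff_subset_sdiff hNA subset_rfl
    · rw [Function.update_of_ne hvw] at hv ⊢
      obtain ⟨h1, h2, h3, h4⟩ := h.2.1 v hv
      exact ⟨cl_mono (union_subset_union subset_rfl subset_union_left) h1, h2, h3, h4⟩
  · intro J hJ
    have h1 : As ⊆ J := by
      apply h.2.2 J
      intro v hv
      have hvw : v ≠ w := by rintro rfl; omega
      have := hJ v
      rw [Function.update_of_ne hvw] at this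
      exact this hv
    refine union_subset h1 ?_
    have := hJ w
    rw [Function.update_self] at this
    apply this
    · rw [card_pos, sdiff_nonempty]; exact hNAs
    · exact card_le_card (sdiff_subset_sdiff subset_rfl h1)

theorem exists_sys {Yp Y A B : Finset E} (hY : Yp ⊆ Y)
    (hB : r.Indm (Y ∪ r.dcl κ D Yp) B) (hAB : A ⊆ B) (hAP : A ⊆ r.dcl κ D Y)
    (hP : r.dcl κ D Y ⊆ r.cl (Y ∪ r.dcl κ D Yp ∪ A)) :
    ∃ cnt, r.Sys D (r.dcl κ D Y) (r.dcl κ D Yp) (Y ∪ r.dcl κ D Yp) B A cnt := by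
  have key : ∀ m : ℕ, ∀ As ⊆ A, (A.card - As.card ≤ m) → ∀ cnt,
      r.Sys D (r.dcl κ D Y) (r.dcl κ D Yp) (Y ∪ r.dcl κ D Yp) B As cnt →
      ∃ cnt, r.Sys D (r.dcl κ D Y) (r.dcl κ D Yp) (Y ∪ r.dcl κ D Yp) B A cnt := by
    intro m
    induction m with
    | zero =>
      intro As hAs hm cnt h
      have : As = A := eq_of_subset_of_card_le hAs (by omega)
      exact ⟨cnt, this ▸ h⟩
    | succ m ih =>
      intro As hAs hm cnt h
      by_cases hne : As = A
      · exact ⟨cnt, hne ▸ h⟩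
      · obtain ⟨As', cnt', h1, h2, h3⟩ := sys_step hY hB hAB hAP hP hAs hne h
        have := card_lt_card h1
        exact ih As' h2 (by omega) cnt' h3
  refine key _ ∅ (empty_subset _) le_rfl (fun _ => 0) ⟨by simp, ?_, ?_⟩
  · intro w hw; exact absurd hw (lt_irrefl 0)
  · intro J _; exact empty_subset _

/-- The set to be contracted at level `k`. -/
noncomputable def lowR (r : RankFn E) (κ : ℕ) (Y : ℕ → Finset E) (D : Finset E) : ℕ → Finset E
  | 0 => Y 0
  | k + 1 => Y (k + 1) ∪ r.dcl κ D (Y k)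

/-- The data that encode a chain of density closures. -/
structure Enc (r : RankFn E) (κ : ℕ) (Y : ℕ → Finset E) (K : ℕ) (D : Finset E)
    (A : ℕ → Finset E) (cnt : ℕ → E → ℕ) : Prop where
  sub : ∀ k, A k ⊆ D ∩ r.dcl κ D (Y k)
  ind : ∀ k, r.Indm (r.lowR κ Y D k) (A k)
  span : ∀ k, r.dcl κ D (Y k) ⊆ r.cl (r.lowR κ Y D k ∪ A k)
  zero : cnt 0 = fun _ => 0
  sys : ∀ k, k + 1 ≤ K → r.Sys D (r.dcl κ D (Y (k + 1))) (r.dcl κ D (Y k))
    (r.lowR κ Y D (k + 1)) ((Icc (k + 1) K).biUnion A) (A (k + 1)) (cnt (k + 1))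

variable {Y : ℕ → Finset E}

theorem lowR_subset (hY : Monotone Y) (k : ℕ) : r.lowR κ Y D k ⊆ r.dcl κ D (Y k) := by
  cases k with
  | zero => exact subset_dcl _
  | succ k => exact union_subset (subset_dcl _) (dcl_mono (hY (Nat.le_succ k)))

theorem subset_lowR (k : ℕ) : Y k ⊆ r.lowR κ Y D k := by
  cases k with
  | zero => exact subset_rfl
  | succ k => exact subset_union_left

theorem dcl_subset_lowR (hY : Monotone Y) {j k : ℕ} (h : j < k) :
    r.dcl κ D (Y j) ⊆ r.lowR κ Y D k := by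
  cases k with
  | zero => omega
  | succ k => exact (dcl_mono (hY (Nat.le_of_lt_succ h))).trans subset_union_right

theorem indm_tail (hY : Monotone Y) {A : ℕ → Finset E} (K : ℕ)
    (sub : ∀ k, A k ⊆ D ∩ r.dcl κ D (Y k)) (ind : ∀ k, r.Indm (r.lowR κ Y D k) (A k)) (k : ℕ) :
    r.Indm (r.lowR κ Y D k) ((Icc k K).biUnion A) := by
  have key : ∀ m k, K + 1 - k ≤ m → r.Indm (r.lowR κ Y D k) ((Icc k K).biUnion A) := by
    intro m
    induction m with
    | zero =>
      intro k hk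
      rw [Icc_eq_empty (by omega)]
      exact Indm.empty _
    | succ m ih =>
      intro k hk
      by_cases hkK : k ≤ K
      · have e : Icc k K = insert k (Icc (k + 1) K) := by
          ext x; simp only [mem_Icc, mem_insert]; omega
        rw [e, biUnion_insert]
        refine (ind k).union (ih (k + 1) (by omega)) ?_
        exact (union_subset (lowR_subset hY k) ((sub k).trans inter_subset_right)).trans
          subset_union_right
      · rw [Icc_eq_empty hkK]
        exact Indm.empty _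
  exact key _ k le_rfl

theorem exists_enc (hκ : 0 < κ) (hY : Monotone Y) (K : ℕ) (D : Finset E) :
    ∃ A cnt, r.Enc κ Y K D A cnt := by
  have h1 : ∀ k, ∃ A ⊆ D ∩ r.dcl κ D (Y k), r.Indm (r.lowR κ Y D k) A ∧
      r.dcl κ D (Y k) ⊆ r.cl (r.lowR κ Y D k ∪ A) := by
    intro k
    obtain ⟨A, hA, hI, hS⟩ := exists_basis (r := r) (r.lowR κ Y D k) (D ∩ r.dcl κ D (Y k))
    refine ⟨A, hA, hI, (dcl_subset_cl hκ _).trans (cl_subset_cl (union_subset ?_ hS))⟩
    exact (subset_lowR k).trans (subset_union_left.trans (subset_cl _))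
  choose A sub ind span using h1
  have h2 : ∀ k, ∃ cnt, k + 1 ≤ K → r.Sys D (r.dcl κ D (Y (k + 1))) (r.dcl κ D (Y k))
      (r.lowR κ Y D (k + 1)) ((Icc (k + 1) K).biUnion A) (A (k + 1)) cnt := by
    intro k
    by_cases hk : k + 1 ≤ K
    · obtain ⟨cnt, h⟩ := exists_sys (r := r) (κ := κ) (D := D) (hY (Nat.le_succ k))
        (indm_tail hY K sub ind (k + 1))
        (subset_biUnion_of_mem A (mem_Icc.2 ⟨le_rfl, hk⟩))
        ((sub (k + 1)).trans inter_subset_right) (span (k + 1))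
      exact ⟨cnt, fun _ => h⟩
    · exact ⟨fun _ => 0, fun h => absurd h hk⟩
  choose cnt hcnt using h2
  exact ⟨A, fun k => Nat.casesOn k (fun _ => 0) cnt, sub, ind, span, rfl, hcnt⟩

theorem Enc.dcl_eq (hY : Monotone Y) {K : ℕ} {A : ℕ → Finset E} {cnt : ℕ → E → ℕ}
    (h : r.Enc κ Y K D A cnt) (k : ℕ) : r.dcl κ D (Y k) = r.cl (r.lowR κ Y D k ∪ A k) := by
  refine Subset.antisymm (h.span k) ?_
  rw [← cl_dcl]
  exact cl_mono (union_subset (lowR_subset hY k) ((h.sub k).trans inter_subset_right))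

theorem Enc.level {K : ℕ} {A : ℕ → Finset E} {cnt : ℕ → E → ℕ}
    (h : r.Enc κ Y K D A cnt) {k : ℕ} (hk : k ≤ K) {w : E} (hw : 0 < cnt k w) :
    w ∈ D ∩ r.dcl κ D (Y k) ∧ w ∉ r.cl (r.lowR κ Y D k) := by
  cases k with
  | zero => rw [h.zero] at hw; exact absurd hw (lt_irrefl 0)
  | succ k => exact ⟨((h.sys k hk).2.1 w hw).2.1, ((h.sys k hk).2.1 w hw).2.2.1⟩

theorem Enc.total (hY : Monotone Y) {K : ℕ} {A : ℕ → Finset E} {cnt : ℕ → E → ℕ}
    (h : r.Enc κ Y K D A cnt) {k : ℕ} (hk : k ≤ K) {w : E} (hw : 0 < cnt k w) :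
    ∑ j ∈ range (K + 1), cnt j w = cnt k w := by
  apply sum_eq_single_of_mem k (mem_range.2 (by omega))
  intro j hj hjk
  by_contra h0
  have h1 := h.level (by have := mem_range.1 hj; omega) (Nat.pos_of_ne_zero h0)
  have h2 := h.level hk hw
  rcases lt_or_gt_of_ne hjk with h3 | h3
  · exact h2.2 (subset_cl _ (dcl_subset_lowR hY h3 (mem_inter.1 h1.1).2))
  · exact h1.2 (subset_cl _ (dcl_subset_lowR hY h3 (mem_inter.1 h2.1).2))

theorem Enc.mem_tail (hY : Monotone Y) {K : ℕ} {A : ℕ → Finset E} {cnt : ℕ → E → ℕ}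
    (h : r.Enc κ Y K D A cnt) (k : ℕ) {a : E} :
    a ∈ (Icc k K).biUnion A ↔ a ∈ (Icc 0 K).biUnion A ∧ ∀ j < k, a ∉ A j := by
  simp only [mem_biUnion, mem_Icc]
  constructor
  · rintro ⟨j, hj, ha⟩
    refine ⟨⟨j, ⟨Nat.zero_le _, hj.2⟩, ha⟩, fun i hi hai => ?_⟩
    exact (h.ind j).not_mem_cl ha (subset_cl _ (dcl_subset_lowR hY (by omega : i < j)
      (mem_inter.1 (h.sub i hai)).2))
  · rintro ⟨⟨j, hj, ha⟩, h2⟩
    refine ⟨j, ⟨?_, hj.2⟩, ha⟩
    by_contra h3
    exact h2 j (by omega) ha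

theorem enc_step (hY : Monotone Y) {K : ℕ} {D D' : Finset E} {A A' : ℕ → Finset E}
    {cnt cnt' : ℕ → E → ℕ} (h : r.Enc κ Y K D A cnt) (h' : r.Enc κ Y K D' A' cnt')
    (hA : (Icc 0 K).biUnion A = (Icc 0 K).biUnion A')
    (hc : ∀ w, ∑ j ∈ range (K + 1), cnt j w = ∑ j ∈ range (K + 1), cnt' j w)
    {k : ℕ} (hk : k + 1 ≤ K) (ihA : ∀ j ≤ k, A j = A' j)
    (ihP : ∀ j ≤ k, r.dcl κ D (Y j) = r.dcl κ D' (Y j)) : A (k + 1) ⊆ A' (k + 1) := by
  have hR : r.lowR κ Y D (k + 1) = r.lowR κ Y D' (k + 1) := by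
    simp only [lowR, ihP k le_rfl]
  have hB : (Icc (k + 1) K).biUnion A = (Icc (k + 1) K).biUnion A' := by
    ext a
    rw [h.mem_tail hY, h'.mem_tail hY, hA]
    constructor
    · rintro ⟨h1, h2⟩; exact ⟨h1, fun j hj => ihA j (by omega) ▸ h2 j hj⟩
    · rintro ⟨h1, h2⟩; exact ⟨h1, fun j hj => (ihA j (by omega)).symm ▸ h2 j hj⟩
  apply (h.sys k hk).2.2
  intro w hw hcard
  have ht := h.total hY hk hw
  rw [hc] at ht
  obtain ⟨k', hk', hw'⟩ : ∃ k' ∈ range (K + 1), cnt' k' w ≠ 0 := by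
    by_contra h0
    push Not at h0
    rw [sum_eq_zero h0] at ht
    omega
  have hk'K : k' ≤ K := by have := mem_range.1 hk'; omega
  have hw'' := Nat.pos_of_ne_zero hw'
  rw [h'.total hY hk'K hw''] at ht
  have l1 := h.level hk hw
  have l2 := h'.level hk'K hw''
  rcases lt_trichotomy k' (k + 1) with h3 | h3 | h3
  · exfalso
    apply l1.2
    rw [hR]
    exact subset_cl _ (dcl_subset_lowR hY h3 (mem_inter.1 l2.1).2)
  · subst h3
    apply fc_subset_of
    · rw [hB]; exact subset_biUnion_of_mem A' (mem_Icc.2 ⟨le_rfl, hk⟩)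
    · rw [hR]; exact h'.span _ (mem_inter.1 l2.1).2
  · exfalso
    obtain ⟨m, rfl⟩ : ∃ m, k' = m + 1 := ⟨k' - 1, by omega⟩
    set N := r.fc (r.lowR κ Y D (k + 1)) ((Icc (k + 1) K).biUnion A) w with hN
    have hwN : w ∈ r.cl (r.lowR κ Y D (k + 1) ∪ N) := by
      apply (indm_tail hY K h.sub h.ind (k + 1)).mem_cl_fc
      exact cl_mono (union_subset_union subset_rfl
        (subset_biUnion_of_mem A (mem_Icc.2 ⟨le_rfl, hk⟩))) (h.span _ (mem_inter.1 l1.1).2)
    have hNB : N ⊆ (Icc (k + 1) K).biUnion A' := hB ▸ fc_subset _ _ _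
    have h4 := ((h'.sys m hk'K).2.1 w hw'').2.2.2 (N ∩ (Icc (m + 1) K).biUnion A')
      inter_subset_right (by
        refine cl_mono (union_subset ?_ ?_) hwN
        · rw [hR]
          exact ((lowR_subset hY (k + 1)).trans (dcl_mono (hY (by omega)))).trans
            subset_union_left
        · intro a ha
          obtain ⟨j, hj, haj⟩ := mem_biUnion.1 (hNB ha)
          rw [mem_Icc] at hj
          by_cases hjm : m + 1 ≤ j
          · exact mem_union_right _ (mem_inter.2 ⟨ha, mem_biUnion.2 ⟨j, mem_Icc.2 ⟨hjm, hj.2⟩,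
              haj⟩⟩)
          · exact mem_union_left _ (dcl_mono (hY (by omega : j ≤ m))
              (mem_inter.1 (h'.sub j haj)).2))
    have h5 : N ∩ (Icc (m + 1) K).biUnion A' ⊆ N \ A' (k + 1) := by
      intro a ha
      rw [mem_inter, h'.mem_tail hY] at ha
      exact mem_sdiff.2 ⟨ha.1, ha.2.2 _ h3⟩
    have := card_le_card h5
    omega

theorem enc_inj (hY : Monotone Y) {K : ℕ} {D D' : Finset E} {A A' : ℕ → Finset E}
    {cnt cnt' : ℕ → E → ℕ} (h : r.Enc κ Y K D A cnt) (h' : r.Enc κ Y K D' A' cnt')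
    (hA : (Icc 0 K).biUnion A = (Icc 0 K).biUnion A') (h0 : A 0 = A' 0)
    (hc : ∀ w, ∑ j ∈ range (K + 1), cnt j w = ∑ j ∈ range (K + 1), cnt' j w) :
    ∀ k ≤ K, r.dcl κ D (Y k) = r.dcl κ D' (Y k) := by
  have key : ∀ k ≤ K, ∀ j ≤ k, A j = A' j ∧ r.dcl κ D (Y j) = r.dcl κ D' (Y j) := by
    intro k
    induction k with
    | zero =>
      intro _ j hj
      obtain rfl : j = 0 := by omega
      refine ⟨h0, ?_⟩
      rw [h.dcl_eq hY, h'.dcl_eq hY, h0]; rfl
    | succ k ih =>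
      intro hk j hj
      have ih' := ih (by omega)
      by_cases hjk : j ≤ k
      · exact ih' j hjk
      obtain rfl : j = k + 1 := by omega
      have e : A (k + 1) = A' (k + 1) := Subset.antisymm
        (enc_step hY h h' hA hc hk (fun j hj => (ih' j hj).1) (fun j hj => (ih' j hj).2))
        (enc_step hY h' h hA.symm (fun w => (hc w).symm) hk (fun j hj => (ih' j hj).1.symm)
          (fun j hj => (ih' j hj).2.symm))
      refine ⟨e, ?_⟩
      rw [h.dcl_eq hY, h'.dcl_eq hY, e]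
      simp only [lowR, (ih' k le_rfl).2]
  exact fun k hk => (key k hk k le_rfl).2

theorem Enc.size (hY : Monotone Y) {K : ℕ} {A : ℕ → Finset E} {cnt : ℕ → E → ℕ}
    (h : r.Enc κ Y K D A cnt) {W : Finset E} (hW : ∀ e ∈ D, e ∉ r.cl (Y 0) → e ∈ W) :
    κ * ∑ k ∈ range (K + 1), (A k).card ≤ W.card := by
  have h1 : ∀ k, κ * (A k).card ≤ ((D ∩ r.dcl κ D (Y k)) \ r.cl (r.lowR κ Y D k)).card := by
    intro k
    have d1 := dense_dcl (r := r) (κ := κ) (D := D) ((subset_lowR k).trans (subset_cl _) :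
      Y k ⊆ r.cl (r.lowR κ Y D k)) (by rw [← cl_dcl]; exact cl_mono (lowR_subset hY k))
    rw [rk_cl] at d1
    have d2 : r.ρ (r.dcl κ D (Y k)) = r.ρ (r.lowR κ Y D k) + (A k).card := by
      rw [h.dcl_eq hY, rk_cl, h.ind k]
    rw [d2, mul_add] at d1
    omega
  rw [mul_sum]
  refine (sum_le_sum (fun k _ => h1 k)).trans ?_
  rw [← card_biUnion]
  · apply card_le_card
    intro e he
    obtain ⟨k, _, hk⟩ := mem_biUnion.1 he
    rw [mem_sdiff, mem_inter] at hk
    refine hW e hk.1.1 (fun h' => hk.2 (cl_mono ?_ h'))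
    exact (hY (Nat.zero_le k)).trans (subset_lowR k)
  · intro i _ j _ hij
    rw [Function.onFun, disjoint_left]
    intro e hi hj
    rw [mem_sdiff, mem_inter] at hi hj
    rcases lt_or_gt_of_ne hij with h3 | h3
    · exact hj.2 (subset_cl _ (dcl_subset_lowR hY h3 hi.1.2))
    · exact hi.2 (subset_cl _ (dcl_subset_lowR hY h3 hj.1.2))

/-- The chain of density closures is determined by a short code. -/
theorem encode (hκ : 0 < κ) (hY : Monotone Y) (K : ℕ) {W W' : Finset E}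
    (hW : ∀ e ∈ W, e ∉ r.cl (Y 0) → e ∈ W') :
    ∃ code : Finset E → Finset E × Finset E × (E → ℕ),
      (∀ D ⊆ W, (code D).1 ⊆ W' ∧ (code D).2.1 ⊆ W' ∧ (∀ e ∉ W', (code D).2.2 e = 0) ∧
        κ * ((code D).1.card + (code D).2.1.card + ∑ e, (code D).2.2 e) ≤ 3 * W'.card) ∧
      ∀ D D', code D = code D' → ∀ k ≤ K, r.dcl κ D (Y k) = r.dcl κ D' (Y k) := by
  choose A cnt h using exists_enc (r := r) hκ hY K
  refine ⟨fun D => ((Icc 0 K).biUnion (A D), A D 0, fun w => ∑ j ∈ range (K + 1), cnt D j w),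
    ?_, ?_⟩
  · intro D hD
    have hW2 : ∀ e ∈ D, e ∉ r.cl (Y 0) → e ∈ W' := fun e he => hW e (hD he)
    have hA : ∀ k, A D k ⊆ W' := by
      intro k a ha
      refine hW2 a (mem_inter.1 ((h D).sub k ha)).1 (fun h' => ((h D).ind k).not_mem_cl ha ?_)
      exact cl_mono ((hY (Nat.zero_le k)).trans (subset_lowR k)) h'
    refine ⟨biUnion_subset.2 (fun k _ => hA k), hA 0, ?_, ?_⟩
    · intro e he
      simp only
      apply sum_eq_zero
      intro j hj
      by_contra h0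
      have l := (h D).level (by have := mem_range.1 hj; omega) (Nat.pos_of_ne_zero h0)
      refine he (hW2 e (mem_inter.1 l.1).1 (fun h' => l.2 (cl_mono ?_ h')))
      exact (hY (Nat.zero_le j)).trans (subset_lowR j)
    · have s := (h D).size hY hW2
      have s1 : ((Icc 0 K).biUnion (A D)).card ≤ ∑ k ∈ range (K + 1), (A D k).card := by
        rw [range_eq_Ico, Finset.Ico_add_one_right_eq_Icc]
        exact card_biUnion_le
      have s2 : (A D 0).card ≤ ∑ k ∈ range (K + 1), (A D k).card :=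
        single_le_sum (f := fun k => (A D k).card) (fun _ _ => Nat.zero_le _)
          (mem_range.2 (by omega))
      have s3 : ∑ e, ∑ j ∈ range (K + 1), cnt D j e ≤ ∑ k ∈ range (K + 1), (A D k).card := by
        rw [sum_comm]
        apply sum_le_sum
        intro j hj
        cases j with
        | zero => simp [(h D).zero]
        | succ j => exact ((h D).sys j (by have := mem_range.1 hj; omega)).1
      have := Nat.mul_le_mul_left κ (add_le_add (add_le_add s1 s2) s3)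
      simp only
      nlinarith
  · intro D D' hDD
    simp only [Prod.mk.injEq] at hDD
    exact enc_inj hY (h D) (h D') hDD.1 hDD.2.1 (fun w => congrFun hDD.2.2 w)

end RankFn

end Vale.Agent.P331
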