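import Vale.Agent.P331.Det

open scoped Classical
open Finset

namespace Vale.Agent.P331

open RankFn Dat Line

variable {E : Type} [Fintype E]

theorem av_coord {Λ : Type} [Fintype Λ] [Nonempty Λ] (g : E) (φ : Λ → ℝ) :
    av (fun μ : E → Λ => φ (μ g)) = av φ := by
  have := av_mecke g φ (fun _ => 1) (fun _ _ => rfl)
  simp only [mul_one, av_const] at this
  exact this

theorem av_zero {N : ℕ} [NeZero N] : av (fun x : Fin N => ind ((x : ℕ) = 0)) = 1 / N := by
  rw [← av_ind_fin_eq (0 : Fin N)]
  exact av_congr (fun x => ind_congr (by rw [Fin.ext_iff]; simp))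

theorem av_bool_eq (b : Bool) : av (fun x : Bool => ind (x = b)) = 1 / 2 := by
  rw [av_bool]
  cases b <;> simp [ind]

variable {r : RankFn E} {κ L N : ℕ} {cls : E → Option ℤ} {c₀ : ℤ}

theorem blk_mecke [NeZero N] (hκ : 0 < κ) (hc : ∀ e c, cls e = some c → c ≤ c₀) (b : Bool)
    (ε : Fin (L + 1)) (β1 β2 : E → Bool) (i j₀ : ℤ) (K : ℕ) :
    av (fun l : E → Fin N => ((Blk r κ L b ε cls β1 β2 l i j₀ K).card : ℝ)) ≤
      1 / N * av (fun l : E → Fin N => (((r.spanned (Pch r κ L b ε cls β1 β2 l i j₀) K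
        (Wo r cls β1 i) ((Wo r cls β1 i).filter (fun x => (l x : ℕ) = 0))).filter
        (fun e => β2 e = false)).card : ℝ)) := by
  simp only [Blk, card_filter_eq_sum_ind, ind_and]
  rw [av_sum]
  have key : ∀ e ∈ Wo r cls β1 i, av (fun l : E → Fin N => ind ((l e : ℕ) = 0) *
      (ind (β2 e = false) * ind (e ∈ r.spanned (Pch r κ L b ε cls β1 β2 l i j₀) K (Wo r cls β1 i)
      (((Wo r cls β1 i).filter (fun x => (l x : ℕ) = 0)).erase e)))) ≤
      1 / N * av (fun l : E → Fin N => ind (β2 e = false) *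
        ind (e ∈ r.spanned (Pch r κ L b ε cls β1 β2 l i j₀) K (Wo r cls β1 i)
      ((Wo r cls β1 i).filter (fun x => (l x : ℕ) = 0)))) := by
    intro e he
    rw [av_mecke e (fun x : Fin N => ind ((x : ℕ) = 0)), av_zero]
    · apply mul_le_mul_of_nonneg_left _ (by positivity)
      apply av_mono
      intro l
      apply mul_le_mul_of_nonneg_left _ (ind_nonneg _)
      apply ind_mono
      simp only [spanned, mem_filter]
      rintro ⟨h1, k, hk, h2, h3⟩
      exact ⟨h1, k, hk, cl_mono (union_subset_union subset_rfl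
        (inter_subset_inter (erase_subset _ _) subset_rfl)) h2, h3⟩
    · intro l x
      have e1 : Pch r κ L b ε cls β1 β2 (Function.update l e x) i j₀ =
          Pch r κ L b ε cls β1 β2 l i j₀ := by
        funext k
        unfold Pch
        rw [Ybase_local hκ hc b β1 β2 β2 (Function.update l e x) l]
        intro g c h1 h2
        refine ⟨rfl, Function.update_of_ne ?_ _ _⟩
        rintro rfl
        have := mem_Wc.1 (mem_sdiff.1 he).1
        rw [this] at h2
        have := Option.some.inj h2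
        omega
      have e2 : ((Wo r cls β1 i).filter (fun y => (Function.update l e x y : ℕ) = 0)).erase e =
          ((Wo r cls β1 i).filter (fun y => (l y : ℕ) = 0)).erase e := by
        ext y
        simp only [mem_erase, mem_filter]
        exact and_congr_right (fun hy => by rw [Function.update_of_ne hy])
      rw [e1, e2]
  refine (sum_le_sum key).trans ?_
  rw [← mul_sum, ← av_sum]
  apply mul_le_mul_of_nonneg_left _ (by positivity)
  apply av_mono
  intro l
  rw [← card_filter_eq_sum_ind]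
  simp only [← ind_and]
  rw [← card_filter_eq_sum_ind]
  refine Nat.cast_le.2 (card_le_card ?_)
  intro e he
  rw [mem_filter] at he ⊢
  exact ⟨he.2.2, he.2.1⟩

theorem blk_union (hκ : 0 < κ) (hc : ∀ e c, cls e = some c → c ≤ c₀) (b : Bool)
    (ε : Fin (L + 1)) (β1 : E → Bool) (l : E → Fin N) (i j₀ : ℤ) (K : ℕ) (T : Finset E) {s : ℝ}
    (hs : 0 ≤ s) (hs2 : Real.exp (-s) ≤ 1 / 2) :
    av (fun β2 : E → Bool => (((r.spanned (Pch r κ L b ε cls β1 β2 l i j₀) K
        (Wo r cls β1 i) T).filter (fun e => β2 e = false)).card : ℝ)) ≤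
      3 * (κ * T.card + 4 * Real.exp (-s) * (Wo r cls β1 i).card +
        3 * s * (Wo r cls β1 i).card / κ) := by
  rw [av_resample (fun _ => Wc cls i) (fun _ _ => rfl)]
  apply av_le
  intro β2
  refine le_trans (le_of_eq (av_congr ?_)) (union_bound (r := r) hκ
    (Ych_mono (r := r) hκ hc b ε β1 β2 l i j₀) K (W := Wc cls i) (W' := Wo r cls β1 i) ?_ sdiff_subset T
    hs hs2)
  · intro β
    have e1 : Pch r κ L b ε cls β1 (pw (Wc cls i) β β2) l i j₀ = fun k : ℕ =>
        r.dcl κ ((Wc cls i).filter (fun e => β e = true))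
          (Ybase r κ L b cls β1 β2 l i (tau L (j₀ + k) ε) ∪ Dset cls β1 i) := by
      funext k
      unfold Pch
      rw [Ybase_local hκ hc b β1 (pw (Wc cls i) β β2) β2 l l]
      · congr 1
        unfold Dset
        exact filter_congr (fun e he => by rw [pw_mem he])
      · intro g c h1 h2
        refine ⟨pw_not_mem ?_, rfl⟩
        rw [mem_Wc, h2]
        intro h3
        have := Option.some.inj h3
        omega
    rw [e1]
    congr 2
    apply filter_congr
    intro e he
    rw [pw_mem (mem_sdiff.1 (filter_subset _ _ he)).1]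
  · intro e he h
    exact mem_sdiff.2 ⟨he, fun h' => h (cl_mono subset_union_right h')⟩

theorem av_card_zero [NeZero N] (W : Finset E) :
    av (fun l : E → Fin N => ((W.filter (fun x => (l x : ℕ) = 0)).card : ℝ)) = W.card / N := by
  simp only [card_filter_eq_sum_ind]
  rw [av_sum, sum_congr rfl (fun e _ => (av_coord e (fun x : Fin N => ind ((x : ℕ) = 0))).trans
    av_zero)]
  simp [div_eq_mul_inv]

theorem blk_bound [NeZero N] (hκ : 0 < κ) (hc : ∀ e c, cls e = some c → c ≤ c₀) (b : Bool)
    (ε : Fin (L + 1)) (β1 : E → Bool) (i j₀ : ℤ) (K : ℕ) {s η : ℝ}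
    (hs : 0 ≤ s) (hs2 : Real.exp (-s) ≤ 1 / 2)
    (hη : 3 * (κ / N + 4 * Real.exp (-s) + 3 * s / κ) ≤ η) :
    av (fun β2 : E → Bool => av (fun l : E → Fin N =>
      ((Blk r κ L b ε cls β1 β2 l i j₀ K).card : ℝ))) ≤ η / N * (Wo r cls β1 i).card := by
  refine (av_mono (fun β2 => blk_mecke hκ hc b ε β1 β2 i j₀ K)).trans ?_
  rw [av_mul, av_comm]
  have h1 := av_mono (fun l : E → Fin N => blk_union (r := r) hκ hc b ε β1 l i j₀ K
    ((Wo r cls β1 i).filter (fun x => (l x : ℕ) = 0)) hs hs2)
  rw [av_mul, av_add, av_add, av_mul, av_card_zero, av_const, av_const] at h1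
  have h2 : (0 : ℝ) ≤ (Wo r cls β1 i).card := by positivity
  have h3 := mul_le_mul_of_nonneg_right hη h2
  have h4 : η / N * (Wo r cls β1 i).card = 1 / N * (η * (Wo r cls β1 i).card) := by ring
  rw [h4]
  apply mul_le_mul_of_nonneg_left _ (by positivity)
  refine h1.trans (le_trans (le_of_eq ?_) h3)
  ring

theorem Wo_bound (i : ℤ) :
    av (fun β1 : E → Bool => ((Wo r cls β1 i).card : ℝ)) ≤ r.ρ (Wc cls i) := by
  have h1 : ∀ β1 : E → Bool, ((Wo r cls β1 i).card : ℝ) ≤
      ∑ e ∈ Wc cls i, ind (β1 e = false) * ind (e ∉ r.cl ((Dset cls β1 i).erase e)) := by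
    intro β1
    simp only [← ind_and]
    rw [← card_filter_eq_sum_ind]
    refine Nat.cast_le.2 (card_le_card ?_)
    intro e he
    rw [Wo, mem_sdiff] at he
    refine mem_filter.2 ⟨he.1, ?_, fun h => he.2 (cl_mono (erase_subset _ _) h)⟩
    by_contra h
    exact he.2 (subset_cl _ (mem_Dset.2 ⟨mem_Wc.1 he.1, by simpa using h⟩))
  have h2 : ∀ e, av (fun β1 : E → Bool =>
      ind (β1 e = false) * ind (e ∉ r.cl ((Dset cls β1 i).erase e))) =
      av (fun β1 : E → Bool => ind (β1 e = true) * ind (e ∉ r.cl ((Dset cls β1 i).erase e))) := by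
    intro e
    have hinv : ∀ (β : E → Bool) (x : Bool),
        ind (e ∉ r.cl ((Dset cls (Function.update β e x) i).erase e)) =
        ind (e ∉ r.cl ((Dset cls β i).erase e)) := by
      intro β x
      have : (Dset cls (Function.update β e x) i).erase e = (Dset cls β i).erase e := by
        ext y
        simp only [mem_erase, mem_Dset]
        exact and_congr_right (fun hy => by rw [Function.update_of_ne hy])
      rw [this]
    rw [av_mecke e (fun x => ind (x = false)) _ hinv, av_mecke e (fun x => ind (x = true)) _ hinv,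
      av_bool_eq, av_bool_eq]
  refine (av_mono h1).trans ?_
  rw [av_sum, sum_congr rfl (fun e _ => h2 e), ← av_sum]
  apply av_le
  intro β
  simp only [← ind_and]
  rw [← card_filter_eq_sum_ind, ← filter_filter]
  have a := coloop_le (r := r) ∅ (Dset cls β i)
  have a2 : r.ρ (Dset cls β i) ≤ r.ρ (Wc cls i) := r.mono (filter_subset _ _)
  simp only [empty_union] at a
  have a3 : (Wc cls i).filter (fun e => β e = true) = Dset cls β i := rfl
  rw [a3]
  exact_mod_cast (le_trans (Nat.le_add_left _ _) a).trans a2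

theorem T_bound [NeZero N] (W : Finset E) :
    (r.ρ W : ℝ) / (4 * N) ≤ av (fun β1 : E → Bool => av (fun β2 : E → Bool =>
      av (fun l : E → Fin N =>
        (r.ρ (W.filter (fun e => e ∈ Uset β1 β2 ∧ (l e : ℕ) = 0)) : ℝ)))) := by
  obtain ⟨I, hI, hind, hsp⟩ := exists_basis (r := r) ∅ W
  have h0 : r.ρ W ≤ I.card := (rk_le_of_subset_cl hsp).trans (by simpa using rk_le_card I)
  have h1 : ∀ (β1 β2 : E → Bool) (l : E → Fin N),
      ∑ e ∈ I, ind (β1 e = false) * (ind (β2 e = false) * ind ((l e : ℕ) = 0)) ≤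
      (r.ρ (W.filter (fun e => e ∈ Uset β1 β2 ∧ (l e : ℕ) = 0)) : ℝ) := by
    intro β1 β2 l
    simp only [← ind_and]
    rw [← card_filter_eq_sum_ind]
    have a := hind.subset (filter_subset (fun e => β1 e = false ∧ β2 e = false ∧ (l e : ℕ) = 0) I)
    unfold Indm at a
    rw [empty_union, r.empty, zero_add] at a
    rw [← a]
    refine Nat.cast_le.2 (r.mono ?_)
    intro e he
    rw [mem_filter] at he ⊢
    exact ⟨hI he.1, mem_Uset.2 ⟨he.2.1, he.2.2.1⟩, he.2.2.2⟩
  refine le_trans ?_ (av_mono (fun β1 => av_mono (fun β2 => av_mono (fun l => h1 β1 β2 l))))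
  have h2 : ∀ e : E, av (fun β1 : E → Bool => av (fun β2 : E → Bool => av (fun l : E → Fin N =>
      ind (β1 e = false) * (ind (β2 e = false) * ind ((l e : ℕ) = 0))))) = 1 / (4 * N) := by
    intro e
    simp only [av_mul]
    rw [av_coord e (fun x : Fin N => ind ((x : ℕ) = 0)), av_zero]
    simp only [mul_comm _ (1 / (N : ℝ)), av_mul]
    rw [av_coord e (fun x : Bool => ind (x = false)), av_bool_eq]
    simp only [mul_comm _ (1 / (N : ℝ) * (1 / 2)), av_mul]
    rw [av_coord e (fun x : Bool => ind (x = false)), av_bool_eq]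
    ring
  simp only [av_sum, h2, sum_const, nsmul_eq_mul]
  rw [mul_one_div]
  exact div_le_div_of_nonneg_right (by exact_mod_cast h0) (by positivity)

end Vale.Agent.P331
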