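import Vale.Agent.P331.Gain

open scoped Classical
open Finset

namespace Vale.Agent.P331

open RankFn Dat Line

variable {E : Type} [Fintype E]
variable {r : RankFn E} {κ L N : ℕ} {cls : E → Option ℤ} {c₀ : ℤ}

theorem elem_bound [NeZero N] (hκ : 0 < κ) (hc : ∀ e c, cls e = some c → c ≤ c₀) (hLN : L ≤ N)
    (hL : 8 * Real.exp 8 ≤ L) (β1 β2 : E → Bool) (i : ℤ) (hi : i ≤ c₀) {e : E}
    (he : e ∈ Wc cls i) :
    1 / 2 * av (fun l : E → Fin N => ind ((e ∈ Uset β1 β2 ∧ (l e : ℕ) = 0) ∧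
      e ∉ Gden r κ cls β1 β2 i)) ≤
    ∑ b : Bool, ∑ ε : Fin (L + 1), ∑ k ∈ range (2 * (c₀ - i) + 1).toNat,
      av (fun l : E → Fin N => ind (e ∈ Uset β1 β2 ∧ (l e : ℕ) = 0) *
        (ind ((mkDat r κ L b cls β1 β2 l).At r i (tau L (jst b i c₀ + k) ε) e) -
          ind ((mkLine r κ L b cls β1 β2).Bad r (Uset β1 β2) L i
            (tau L (jst b i c₀ + k) ε) e l))) := by
  set K := (2 * (c₀ - i) + 1).toNat with hK
  by_cases hG : e ∈ Gden r κ cls β1 β2 i
  · rw [av_congr (fun l => ind_neg (fun h => h.2 hG)), av_const, mul_zero]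
    refine sum_nonneg (fun b _ => sum_nonneg (fun ε _ => sum_nonneg (fun k _ =>
      av_nonneg (fun l => mul_nonneg (ind_nonneg _) (sub_nonneg.2 (ind_mono (fun h => h.1)))))))
  set φ : (E → Fin N) → ℝ := fun l => ind (e ∈ Uset β1 β2 ∧ (l e : ℕ) = 0) with hφ
  have hφ0 : ∀ l, 0 ≤ φ l := fun l => ind_nonneg _
  have e0 : av (fun l : E → Fin N => ind ((e ∈ Uset β1 β2 ∧ (l e : ℕ) = 0) ∧
      e ∉ Gden r κ cls β1 β2 i)) = av φ := av_congr (fun l => ind_congr (and_iff_left hG))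
  rw [e0]
  let a : Bool → ℤ → (E → Fin N) → ℝ := fun b τ l => ind ((mkDat r κ L b cls β1 β2 l).At r i τ e)
  have hS : ∀ (b : Bool) (δ : ℤ), ∑ ε : Fin (L + 1), ∑ k ∈ range K,
      av (fun l => φ l * a b (tau L (jst b i c₀ + k) ε - δ) l) ≤ av φ := by
    intro b δ
    simp only [← av_sum, ← mul_sum]
    apply av_mono
    intro l
    refine mul_le_of_le_one_right (hφ0 l) ?_
    rw [← sum_product', ← ind_pos trivial]
    refine sum_ind_le _ (fun p : Fin (L + 1) × ℕ => (mkDat r κ L b cls β1 β2 l).At r i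
      (tau L (jst b i c₀ + p.2) p.1 - δ) e) True ?_ (fun _ _ _ => trivial)
    intro p _ p' _ h1 h2
    have := (mkLine_ok hκ hc b β1 β2 _).At_unique h1 h2
    have := tau_inj (sub_left_injective this)
    exact Prod.ext this.2 (by omega)
  have hT : av φ ≤ ∑ b : Bool, ∑ ε : Fin (L + 1), ∑ k ∈ range K,
      av (fun l => φ l * a b (tau L (jst b i c₀ + k) ε) l) := by
    simp only [← av_sum, ← mul_sum]
    apply av_mono
    intro l
    refine le_mul_of_one_le_right (hφ0 l) ?_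
    obtain ⟨b, ε, k, hk, h⟩ := exists_window (r := r) (L := L) hκ hc β1 β2 l i hi hG
    have n : ∀ b τ, 0 ≤ a b τ l := fun _ _ => ind_nonneg _
    calc (1 : ℝ) = a b (tau L (jst b i c₀ + k) ε) l := (ind_pos h).symm
      _ ≤ ∑ k ∈ range K, a b (tau L (jst b i c₀ + k) ε) l :=
        single_le_sum (f := fun k : ℕ => a b (tau L (jst b i c₀ + k) ε) l) (fun _ _ => n _ _)
          (mem_range.2 hk)
      _ ≤ ∑ ε : Fin (L + 1), ∑ k ∈ range K, a b (tau L (jst b i c₀ + k) ε) l :=
        single_le_sum (f := fun ε => ∑ k ∈ range K, a b (tau L (jst b i c₀ + k) ε) l)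
          (fun _ _ => sum_nonneg (fun _ _ => n _ _)) (mem_univ ε)
      _ ≤ _ := single_le_sum (f := fun b => ∑ ε : Fin (L + 1), ∑ k ∈ range K,
          a b (tau L (jst b i c₀ + k) ε) l)
          (fun _ _ => sum_nonneg (fun _ _ => sum_nonneg (fun _ _ => n _ _))) (mem_univ b)
  have hB : ∀ (b : Bool) (τ : ℤ), av (fun l => φ l * a b τ l) -
      1 / 8 * av (fun l => φ l * a b (τ - 0) l) - 1 / 8 * av (fun l => φ l * a b (τ - 1) l) ≤
      av (fun l : E → Fin N => φ l * (a b τ l -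
        ind ((mkLine r κ L b cls β1 β2).Bad r (Uset β1 β2) L i τ e l))) := by
    intro b τ
    have := safety (U := Uset β1 β2) (i := i) (τ := τ)
      (mkLine_ok (r := r) (L := L) hκ hc b β1 β2) hLN hL e φ hφ0
      (by
        intro l l' h
        simp only [hφ]
        rw [h e]
        intro c hcc
        have := mem_Wc.1 he
        simp only [mkLine] at hcc
        rw [this] at hcc
        exact (Option.some.inj hcc).ge)
    simp only [mul_sub, av_sub, sub_zero]
    simp only [a, mkDat]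
    linarith
  refine le_trans ?_ (sum_le_sum (fun b _ => sum_le_sum (fun ε _ => sum_le_sum
    (fun k _ => hB b (tau L (jst b i c₀ + k) ε)))))
  simp only [sum_sub_distrib, ← mul_sum]
  have h1 := sum_le_sum (fun b (_ : b ∈ univ) => hS b 0)
  have h2 := sum_le_sum (fun b (_ : b ∈ univ) => hS b 1)
  simp only [sum_const, card_univ, Fintype.card_bool, nsmul_eq_mul, Nat.cast_ofNat] at h1 h2
  linarith

/-- The random seed of the rule. -/
abbrev Seed (E : Type) (L N : ℕ) :=
  (Bool × Fin (L + 1)) × (E → Bool) × (E → Bool) × (E → Fin N)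

theorem av_mode (f : Bool × Fin (L + 1) → ℝ) :
    av f = 1 / (2 * (L + 1)) * ∑ b, ∑ ε, f (b, ε) := by
  unfold av
  rw [Fintype.sum_prod_type]
  simp only [Fintype.card_prod, Fintype.card_bool, Fintype.card_fin]
  push_cast
  ring

theorem class_gain [NeZero N] (hκ : 0 < κ) (hc : ∀ e c, cls e = some c → c ≤ c₀) (hLN : L ≤ N)
    (hL : 8 * Real.exp 8 ≤ L) {s : ℝ} (hs : 0 ≤ s) (hs2 : Real.exp (-s) ≤ 1 / 2)
    (hη : 3 * (κ / N + 4 * Real.exp (-s) + 3 * s / κ) ≤ 1 / (48 * (L + 1)))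
    (A : Seed E L N → Finset E)
    (hA : ∀ σ : Seed E L N, GSpec r (mkFt r κ L σ.1.1 σ.1.2 cls σ.2.1 σ.2.2.1 σ.2.2.2)
      (mkCand r κ L σ.1.1 σ.1.2 cls σ.2.1 σ.2.2.1 σ.2.2.2) univ (A σ)) (i : ℤ) (hi : i ≤ c₀) :
    (r.ρ (Wc cls i) : ℝ) / (48 * (L + 1) * N) - r.ρ (Hlt cls i) ≤
      av (fun σ => ((A σ ∩ Hle cls i).card : ℝ)) := by
  set K := (2 * (c₀ - i) + 1).toNat with hK
  have hL1 : 1 ≤ L := by
    have : (1 : ℝ) ≤ L := by linarith [Real.add_one_le_exp (8 : ℝ)]
    exact_mod_cast this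
  set q : ℝ := 1 / (2 * (L + 1)) with hq
  have hq0 : 0 ≤ q := by positivity
  have hq1 : q ≤ 1 := by
    rw [hq, div_le_one (by positivity)]
    have : (0 : ℝ) ≤ L := by positivity
    linarith
  let T : (E → Bool) → (E → Bool) → (E → Fin N) → Finset E := fun β1 β2 l =>
    (Wc cls i).filter (fun e => e ∈ Uset β1 β2 ∧ (l e : ℕ) = 0)
  let a : Bool × Fin (L + 1) → (E → Bool) → (E → Bool) → (E → Fin N) → ℝ :=
    fun m β1 β2 l => ((A (m, β1, β2, l) ∩ Hle cls i).card : ℝ)
  have e0 : av (fun σ => ((A σ ∩ Hle cls i).card : ℝ)) =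
      av (fun β1 => av (fun β2 => av (fun m => av (fun l => a m β1 β2 l)))) := by
    rw [av_prod]
    simp only [av_prod (α := E → Bool)]
    rw [av_comm]
    exact av_congr (fun β1 => av_comm _)
  let blk : Bool × Fin (L + 1) → (E → Bool) → (E → Bool) → (E → Fin N) → ℝ :=
    fun m β1 β2 l => ((Blk r κ L m.1 m.2 cls β1 β2 l i (jst m.1 i c₀) K).card : ℝ)
  have g1 : ∀ β1 β2, q * (1 / 2) * av (fun l => ((T β1 β2 l \ Gden r κ cls β1 β2 i).card : ℝ)) ≤
      av (fun m => av (fun l => a m β1 β2 l)) + av (fun m => av (fun l => blk m β1 β2 l)) +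
        r.ρ (Hlt cls i) := by
    intro β1 β2
    have t1 := av_mono (fun m : Bool × Fin (L + 1) => av_mono (fun l : E → Fin N =>
      gain_windows hκ hc m.1 m.2 β1 β2 l i (jst m.1 i c₀) K
        (by cases m.1 <;> simp [jst]) (hA (m, β1, β2, l))))
    simp only [av_add, av_const] at t1
    refine le_trans ?_ t1
    rw [av_mode, ← hq, mul_assoc]
    apply mul_le_mul_of_nonneg_left _ hq0
    have t2 := sum_le_sum (fun e (he : e ∈ Wc cls i) =>
      elem_bound (r := r) hκ hc hLN hL β1 β2 i hi he)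
    rw [← mul_sum, ← av_sum] at t2
    refine le_trans (le_of_eq ?_) (t2.trans (le_of_eq ?_))
    · congr 1
      apply av_congr
      intro l
      rw [← card_filter_eq_sum_ind]
      congr 2
      ext e
      simp only [T, mem_sdiff, mem_filter, and_assoc]
    · simp only [av_sum]
      rw [sum_comm]
      refine sum_congr rfl (fun b _ => ?_)
      rw [sum_comm]
      refine sum_congr rfl (fun ε _ => ?_)
      rw [sum_comm]
  have g2 : ∀ β1 β2, q * av (fun l => (r.ρ (T β1 β2 l ∩ Gden r κ cls β1 β2 i) : ℝ)) ≤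
      av (fun m => av (fun l => a m β1 β2 l)) + r.ρ (Hlt cls i) := by
    intro β1 β2
    have t1 : av (fun l => (r.ρ (T β1 β2 l ∩ Gden r κ cls β1 β2 i) : ℝ)) ≤
        av (fun l => a (false, 0) β1 β2 l) + r.ρ (Hlt cls i) := by
      rw [← av_const (α := E → Fin N) (r.ρ (Hlt cls i) : ℝ), ← av_add]
      apply av_mono
      intro l
      simp only [a, T]
      exact_mod_cast gain_dense hκ hL1 hc β1 β2 l i (hA ((false, 0), β1, β2, l))
    have t2 : av (fun l => a (false, 0) β1 β2 l) ≤ ∑ b, ∑ ε, av (fun l => a (b, ε) β1 β2 l) := by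
      rw [← Fintype.sum_prod_type']
      exact single_le_sum (f := fun m : Bool × Fin (L + 1) => av (fun l => a m β1 β2 l))
        (fun m _ => av_nonneg (fun l => by simp only [a]; positivity)) (mem_univ (false, 0))
    rw [av_mode, ← hq]
    have t3 := mul_le_mul_of_nonneg_left (t1.trans (add_le_add_left t2 _)) hq0
    have t4 : q * r.ρ (Hlt cls i) ≤ r.ρ (Hlt cls i) := mul_le_of_le_one_left (by positivity) hq1
    linarith
  have g3 : ∀ β1 β2, q * av (fun l => (r.ρ (T β1 β2 l) : ℝ)) ≤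
      3 * av (fun m => av (fun l => a m β1 β2 l)) + 2 * av (fun m => av (fun l => blk m β1 β2 l)) +
        3 * r.ρ (Hlt cls i) := by
    intro β1 β2
    have t1 : av (fun l => (r.ρ (T β1 β2 l) : ℝ)) ≤
        av (fun l => (r.ρ (T β1 β2 l ∩ Gden r κ cls β1 β2 i) : ℝ)) +
        av (fun l => ((T β1 β2 l \ Gden r κ cls β1 β2 i).card : ℝ)) := by
      rw [← av_add]
      apply av_mono
      intro l
      have := rk_union_le_card (r := r) (T β1 β2 l ∩ Gden r κ cls β1 β2 i)
        (T β1 β2 l \ Gden r κ cls β1 β2 i)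
      rw [union_comm, sdiff_union_inter] at this
      exact_mod_cast this
    have := mul_le_mul_of_nonneg_left t1 hq0
    linarith [g1 β1 β2, g2 β1 β2]
  have g4 := av_mono (fun β1 => av_mono (fun β2 => g3 β1 β2))
  simp only [av_add, av_mul, av_const] at g4
  rw [← e0] at g4
  have g5 := mul_le_mul_of_nonneg_left (T_bound (r := r) (N := N) (Wc cls i)) hq0
  have g6 : av (fun β1 => av (fun β2 => av (fun m => av (fun l => blk m β1 β2 l)))) ≤
      1 / (48 * (L + 1)) / N * r.ρ (Wc cls i) := by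
    refine le_trans ?_ (mul_le_mul_of_nonneg_left (Wo_bound i) (by positivity))
    rw [← av_mul]
    apply av_mono
    intro β1
    rw [av_comm]
    exact av_le (fun m => blk_bound hκ hc m.1 m.2 β1 i _ K hs hs2 hη)
  have hN : (0 : ℝ) < N := by exact_mod_cast Nat.pos_of_ne_zero (NeZero.ne N)
  have e1 : q * (r.ρ (Wc cls i) / (4 * N)) = 6 * (r.ρ (Wc cls i) / (48 * (L + 1) * N)) := by
    rw [hq]; field_simp; ring
  have e2 : 1 / (48 * (L + 1)) / N * r.ρ (Wc cls i) = r.ρ (Wc cls i) / (48 * (L + 1) * N : ℝ) := by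
    field_simp
  have e3 : (0 : ℝ) ≤ r.ρ (Wc cls i) / (48 * (L + 1) * N) := by positivity
  simp only [T] at g4
  rw [e1] at g5
  rw [e2] at g6
  linarith

end Vale.Agent.P331
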