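import Vale.Agent.P331.Rule

open scoped Classical NNReal ENNReal
open Finset MeasureTheory

namespace Vale.Agent.P331

variable {E : Type} [Fintype E]

theorem lintegral_uniform {Ω : Type} [Fintype Ω] [MeasurableSpace Ω] [DiscreteMeasurableSpace Ω]
    (f : Ω → ℝ≥0∞) :
    ∫⁻ σ, f σ ∂((Fintype.card Ω : ℝ≥0∞)⁻¹ • Measure.count) =
      (Fintype.card Ω : ℝ≥0∞)⁻¹ * ∑ σ, f σ := by
  rw [lintegral_smul_measure, lintegral_count, tsum_fintype, smul_eq_mul]

theorem ofReal_av {Ω : Type} [Fintype Ω] [Nonempty Ω] (f : Ω → ℝ) (hf : ∀ σ, 0 ≤ f σ) :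
    ENNReal.ofReal (av f) = (Fintype.card Ω : ℝ≥0∞)⁻¹ * ∑ σ, ENNReal.ofReal (f σ) := by
  unfold av
  rw [ENNReal.ofReal_div_of_pos (by exact_mod_cast Fintype.card_pos),
    ENNReal.ofReal_sum_of_nonneg (fun σ _ => hf σ), ENNReal.ofReal_natCast, ENNReal.div_eq_inv_mul]

theorem main : ∃ c : ℝ≥0, 0 < c ∧ ∀ (E : Type) [Fintype E] (M : Matroid E),
    ∃ (Ω : Type) (_ : MeasurableSpace Ω) (law : Measure Ω), IsProbabilityMeasure law ∧
      ∃ R : OnlineRule E Ω, Competitive M law R c := by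
  obtain ⟨κ, L, N, s, hκ, hN, hLN, hL, hs, hs2, hη⟩ := exists_params
  have : NeZero N := ⟨hN.ne'⟩
  set X : ℕ := 192 * (L + 1) * N with hXdef
  have hX : 1 < X := by rw [hXdef]; nlinarith
  have hX0 : (0 : ℝ) < X := by positivity
  refine ⟨((X : ℝ≥0) ^ 2)⁻¹, by positivity, ?_⟩
  intro E _ M
  let _ : MeasurableSpace (Seed E L N) := ⊤
  let _ : MeasurableSpace (Option ℤ) := ⊤
  have hc0 : (Fintype.card (Seed E L N) : ℝ≥0∞) ≠ 0 := by exact_mod_cast Fintype.card_ne_zero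
  have hct : (Fintype.card (Seed E L N) : ℝ≥0∞) ≠ ⊤ := ENNReal.natCast_ne_top _
  refine ⟨Seed E L N, ⊤, (Fintype.card (Seed E L N) : ℝ≥0∞)⁻¹ • Measure.count, ⟨?_⟩,
    theRule (rkOf M) κ L N X hX, ?_, ?_⟩
  · rw [Measure.smul_apply, Measure.count_univ, smul_eq_mul]
    simp only [ENat.card_eq_coe_fintype_card, ENat.toENNReal_coe]
    exact ENNReal.inv_mul_cancel hc0 hct
  · intro σ S V π
    rw [accepted_eq, indep_iff_rk]
    exact (Acc_spec hκ σ _ π).2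
  intro D hD π
  have hne : Nonempty (Fin (Fintype.card E) ≃ E) := ⟨(Fintype.equivFin E).symm⟩
  have hmin : ∀ (σ : Seed E L N) (c : E → Option ℤ), ∃ p : Fin (Fintype.card E) ≃ E, ∀ p',
      ∑ e ∈ Acc (rkOf M) κ σ c p, wt X (c e) ≤ ∑ e ∈ Acc (rkOf M) κ σ c p', wt X (c e) :=
    fun σ c => Finite.exists_min _
  choose pm hpm using hmin
  let G : Seed E L N → (E → Option ℤ) → ℝ := fun σ c =>
    ∑ e ∈ Acc (rkOf M) κ σ c (pm σ c), wt X (c e)
  have hG0 : ∀ σ c, 0 ≤ G σ c := fun σ c => sum_nonneg (fun e _ => wt_nonneg hX0.le _)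
  have hcl : Measurable (fun (v : E → ℝ≥0) (a : E) => clsOf X (v a)) := by
    have := measurable_clsOf hX
    fun_prop
  have hGm : ∀ σ, Measurable (fun v : E → ℝ≥0 => ENNReal.ofReal (G σ (fun a => clsOf X (v a)))) :=
    fun σ => (measurable_of_countable (fun c => ENNReal.ofReal (G σ c))).comp hcl
  have h1 : ∀ ω : Seed E L N × (E → ℝ≥0) × (E → ℝ≥0),
      ENNReal.ofReal (G ω.1 (fun a => clsOf X (mix ω.1 ω.2.1 ω.2.2 a))) ≤
      ∑ e ∈ (theRule (rkOf M) κ L N X hX).accepted ω.1 ω.2.1 ω.2.2 (π ω), (ω.2.2 e : ℝ≥0∞) := by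
    rintro ⟨σ, S, V⟩
    simp only
    rw [accepted_eq]
    refine (ENNReal.ofReal_le_ofReal (hpm σ _ (π (σ, S, V)))).trans ?_
    rw [ENNReal.ofReal_sum_of_nonneg (fun e _ => wt_nonneg hX0.le _)]
    apply sum_le_sum
    intro e he
    obtain ⟨j, hj, _⟩ := (Acc_spec hκ σ _ _).1.lev e he
    have : mix σ S V e = V e := if_pos hj.1
    rw [this]
    exact (ENNReal.ofReal_le_ofReal (wt_le hX _)).trans (by simp)
  refine le_trans ?_ (lintegral_mono h1)
  rw [lintegral_prod _ (Measurable.aemeasurable (measurable_from_prod_countable_right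
    (fun σ => (hGm σ).comp (mix_preserving σ D).measurable)))]
  simp only
  have h2 : ∀ σ : Seed E L N, ∫⁻ p : (E → ℝ≥0) × (E → ℝ≥0),
      ENNReal.ofReal (G σ (fun a => clsOf X (mix σ p.1 p.2 a))) ∂((Measure.pi D).prod
        (Measure.pi D)) = ∫⁻ v, ENNReal.ofReal (G σ (fun a => clsOf X (v a))) ∂(Measure.pi D) :=
    fun σ => (mix_preserving σ D).lintegral_comp (hGm σ)
  simp only [h2]
  rw [lintegral_uniform, ← lintegral_finsetSum _ (fun σ _ => hGm σ),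
    ← lintegral_const_mul' _ _ (ENNReal.inv_ne_top.2 hc0),
    ← lintegral_const_mul' _ _ ENNReal.coe_ne_top]
  apply lintegral_mono
  intro v
  simp only
  rw [← ofReal_av _ (fun σ => hG0 σ _), opt, ENNReal.mul_iSup]
  refine iSup_le (fun I => ?_)
  rw [ENNReal.mul_iSup]
  refine iSup_le (fun hI => ?_)
  have h3 := total_gain hκ hLN hL hs hs2 hη (fun a => clsOf X (v a))
    (fun σ => Acc (rkOf M) κ σ _ (pm σ (fun a => clsOf X (v a))))
    (fun σ => (Acc_spec hκ σ _ _).1) (x := X) (by rw [hXdef]; push_cast; ring)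
    ((indep_iff_rk M I).1 hI)
  refine le_trans ?_ (ENNReal.ofReal_le_ofReal h3)
  rw [← ENNReal.ofNNReal_finsetSum, ← ENNReal.coe_mul, ← ENNReal.ofReal_coe_nnreal]
  apply ENNReal.ofReal_le_ofReal
  push_cast
  have h4 : ∑ e ∈ I, (v e : ℝ) ≤ X * ∑ e ∈ I, wt X (clsOf X (v e)) := by
    rw [mul_sum]; exact sum_le_sum (fun e _ => le_wt hX _)
  calc ((X : ℝ) ^ 2)⁻¹ * ∑ e ∈ I, (v e : ℝ)
      ≤ ((X : ℝ) ^ 2)⁻¹ * (X * ∑ e ∈ I, wt X (clsOf X (v e))) := by gcongr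
    _ = _ := by field_simp

end Vale.Agent.P331
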