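import Mathlib

open scoped Classical
open Finset

namespace Vale.Agent.P331

/-- Abstract matroid rank function on the finite subsets of a type. -/
structure RankFn (E : Type) where
  ρ : Finset E → ℕ
  empty : ρ ∅ = 0
  mono : ∀ {A B : Finset E}, A ⊆ B → ρ A ≤ ρ B
  ins : ∀ (e : E) (A : Finset E), ρ (insert e A) ≤ ρ A + 1
  submod : ∀ A B : Finset E, ρ (A ∪ B) + ρ (A ∩ B) ≤ ρ A + ρ B

namespace RankFn

variable {E : Type} [Fintype E] (r : RankFn E)

noncomputable def cl (S : Finset E) : Finset E :=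
  univ.filter (fun e => r.ρ (insert e S) = r.ρ S)

variable {r}

theorem mem_cl {S : Finset E} {e : E} : e ∈ r.cl S ↔ r.ρ (insert e S) = r.ρ S := by
  simp [cl]

theorem mem_cl' {S : Finset E} {e : E} : e ∈ r.cl S ↔ r.ρ (insert e S) ≤ r.ρ S := by
  rw [mem_cl]
  have := r.mono (subset_insert e S)
  omega

theorem not_mem_cl {S : Finset E} {e : E} : e ∉ r.cl S ↔ r.ρ (insert e S) = r.ρ S + 1 := by
  rw [mem_cl]
  have := r.mono (subset_insert e S)
  have := r.ins e S
  omega

theorem subset_cl (S : Finset E) : S ⊆ r.cl S := by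
  intro e he
  rw [mem_cl, insert_eq_of_mem he]

omit [Fintype E] in
theorem dim {A B : Finset E} (h : A ⊆ B) (Z : Finset E) :
    r.ρ (B ∪ Z) + r.ρ A ≤ r.ρ (A ∪ Z) + r.ρ B := by
  have h1 := r.submod (A ∪ Z) B
  have h2 : A ∪ Z ∪ B = B ∪ Z := by
    ext x; simp only [mem_union]; have := @h x; tauto
  have h3 : A ⊆ (A ∪ Z) ∩ B := by
    intro x hx; simp only [mem_inter, mem_union]; exact ⟨Or.inl hx, h hx⟩
  have := r.mono h3
  rw [h2] at h1
  omega

theorem cl_mono {A B : Finset E} (h : A ⊆ B) : r.cl A ⊆ r.cl B := by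
  intro e he
  rw [mem_cl] at he
  rw [mem_cl']
  have := dim (r := r) h {e}
  have e1 : B ∪ {e} = insert e B := by ext x; simp
  have e2 : A ∪ {e} = insert e A := by ext x; simp
  rw [e1, e2] at this
  omega

theorem rk_union_of_subset_cl {S Z : Finset E} (h : Z ⊆ r.cl S) : r.ρ (S ∪ Z) = r.ρ S := by
  induction Z using Finset.induction_on with
  | empty => simp
  | insert a Z ha ih =>
    have h1 := ih ((subset_insert _ _).trans h)
    have h2 : a ∈ r.cl (S ∪ Z) := cl_mono subset_union_left (h (mem_insert_self _ _))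
    rw [mem_cl] at h2
    rw [union_insert, h2, h1]

theorem rk_le_of_subset_cl {A B : Finset E} (h : A ⊆ r.cl B) : r.ρ A ≤ r.ρ B := by
  rw [← rk_union_of_subset_cl h]
  exact r.mono subset_union_right

theorem rk_cl (S : Finset E) : r.ρ (r.cl S) = r.ρ S :=
  le_antisymm (rk_le_of_subset_cl subset_rfl) (r.mono (subset_cl S))

theorem subset_cl_of_rk {A B : Finset E} (h : A ⊆ B) (hr : r.ρ B ≤ r.ρ A) : B ⊆ r.cl A := by
  intro e he
  rw [mem_cl']
  exact (r.mono (insert_subset he h)).trans hr

theorem cl_subset_cl {A B : Finset E} (h : A ⊆ r.cl B) : r.cl A ⊆ r.cl B := by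
  intro e he
  have h1 : e ∈ r.cl (r.cl B) := cl_mono h he
  rw [mem_cl, rk_cl] at h1
  rw [mem_cl', ← h1]
  exact r.mono (insert_subset_insert _ (subset_cl B))

theorem cl_cl (S : Finset E) : r.cl (r.cl S) = r.cl S :=
  Subset.antisymm (cl_subset_cl subset_rfl) (subset_cl _)

omit [Fintype E] in
theorem rk_union_le (A B : Finset E) : r.ρ (A ∪ B) ≤ r.ρ A + r.ρ B := by
  have := r.submod A B
  omega

omit [Fintype E] in
theorem rk_union_le_card (A Z : Finset E) : r.ρ (A ∪ Z) ≤ r.ρ A + Z.card := by
  induction Z using Finset.induction_on with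
  | empty => simp
  | insert a Z ha ih =>
    rw [union_insert, card_insert_of_notMem ha]
    have := r.ins a (A ∪ Z)
    omega

omit [Fintype E] in
theorem rk_le_card (Z : Finset E) : r.ρ Z ≤ Z.card := by
  have := rk_union_le_card (r := r) ∅ Z
  rw [r.empty] at this
  simpa using this

omit [Fintype E] in
theorem rk_union_le_card_sdiff (A Z : Finset E) : r.ρ (A ∪ Z) ≤ r.ρ A + (Z \ A).card := by
  rw [← union_sdiff_self_eq_union]
  exact rk_union_le_card _ _

/-- `B` is independent modulo `R`. -/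
def Indm (r : RankFn E) (R B : Finset E) : Prop := r.ρ (R ∪ B) = r.ρ R + B.card

omit [Fintype E] in
theorem Indm.empty (R : Finset E) : r.Indm R ∅ := by simp [Indm]

omit [Fintype E] in
theorem Indm.subset {R B A : Finset E} (h : r.Indm R B) (hA : A ⊆ B) : r.Indm R A := by
  unfold Indm at *
  have h1 := rk_union_le_card (r := r) (R ∪ A) (B \ A)
  have h2 : R ∪ A ∪ B \ A = R ∪ B := by
    rw [union_assoc, union_sdiff_of_subset hA]
  have h3 := card_sdiff_add_card_eq_card hA
  have h4 := rk_union_le_card (r := r) R A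
  rw [h2] at h1
  omega

omit [Fintype E] in
theorem Indm.anti {R R' B : Finset E} (h : r.Indm R' B) (hR : R ⊆ R') : r.Indm R B := by
  unfold Indm at *
  have h1 := dim (r := r) hR B
  have h4 := rk_union_le_card (r := r) R B
  omega

theorem Indm.not_mem_cl {R B : Finset E} (h : r.Indm R B) {a : E} (ha : a ∈ B) :
    a ∉ r.cl R := by
  have h1 := h.subset (singleton_subset_iff.2 ha)
  unfold Indm at h1
  have e2 : R ∪ {a} = insert a R := by ext x; simp
  rw [e2, card_singleton] at h1
  exact RankFn.not_mem_cl.2 h1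

theorem Indm.union {R R' A B : Finset E} (hA : r.Indm R A) (hB : r.Indm R' B)
    (h : R ∪ A ⊆ R') : r.Indm R (A ∪ B) := by
  have hd : Disjoint A B := by
    rw [disjoint_left]
    intro a ha hb
    exact hB.not_mem_cl hb (subset_cl _ (h (mem_union_right _ ha)))
  have h1 := hB.anti h
  unfold Indm at *
  rw [← union_assoc, h1, hA, card_union_of_disjoint hd]
  omega

theorem Indm.insert {R B : Finset E} (h : r.Indm R B) {a : E} (ha : a ∉ r.cl (R ∪ B)) :
    r.Indm R (insert a B) := by
  have hB : a ∉ B := fun hb => ha (subset_cl _ (mem_union_right _ hb))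
  unfold Indm at *
  rw [union_insert, RankFn.not_mem_cl.1 ha, h, card_insert_of_notMem hB]
  omega

theorem exists_basis (R Z : Finset E) :
    ∃ A ⊆ Z, r.Indm R A ∧ Z ⊆ r.cl (R ∪ A) := by
  induction Z using Finset.induction_on with
  | empty => exact ⟨∅, subset_rfl, Indm.empty R, empty_subset _⟩
  | insert a Z ha ih =>
    obtain ⟨A, hA, hI, hZ⟩ := ih
    by_cases h : a ∈ r.cl (R ∪ A)
    · exact ⟨A, hA.trans (subset_insert _ _), hI, insert_subset h hZ⟩
    · refine ⟨insert a A, insert_subset_insert _ hA, hI.insert h, insert_subset ?_ ?_⟩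
      · exact subset_cl _ (by simp)
      · exact hZ.trans (cl_mono (union_subset_union subset_rfl (subset_insert _ _)))

/-- The coloops of `C` modulo `Y` are independent modulo `Y`. -/
theorem coloop_le (Y C : Finset E) :
    r.ρ Y + (C.filter (fun e => e ∉ r.cl (Y ∪ C.erase e))).card ≤ r.ρ (Y ∪ C) := by
  have key : ∀ J : Finset E, J ⊆ C.filter (fun e => e ∉ r.cl (Y ∪ C.erase e)) → r.Indm Y J := by
    intro J
    induction J using Finset.induction_on with
    | empty => intro _; exact Indm.empty Y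
    | insert a J ha ih =>
      intro hJ
      have hJ' := (subset_insert _ _).trans hJ
      refine (ih hJ').insert ?_
      have h1 := (mem_filter.1 (hJ (mem_insert_self _ _))).2
      intro h2
      refine h1 (cl_mono (union_subset_union subset_rfl ?_) h2)
      intro x hx
      rw [mem_erase]
      exact ⟨fun hxa => ha (hxa ▸ hx), (mem_filter.1 (hJ' hx)).1⟩
  have := key _ subset_rfl
  unfold Indm at this
  rw [← this]
  exact r.mono (union_subset_union subset_rfl (filter_subset _ _))

theorem Indm.mem_cl_inter {R B N1 N2 : Finset E} (h : r.Indm R B) (h1 : N1 ⊆ B) (h2 : N2 ⊆ B)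
    {w : E} (hw1 : w ∈ r.cl (R ∪ N1)) (hw2 : w ∈ r.cl (R ∪ N2)) : w ∈ r.cl (R ∪ (N1 ∩ N2)) := by
  rw [mem_cl] at hw1 hw2
  rw [mem_cl']
  have s := r.submod (Insert.insert w (R ∪ N1)) (Insert.insert w (R ∪ N2))
  have a1 := h.subset h1
  have a2 := h.subset h2
  have a3 := h.subset (union_subset h1 h2)
  have a4 := h.subset (inter_subset_left.trans h1 : N1 ∩ N2 ⊆ B)
  unfold Indm at a1 a2 a3 a4
  have b1 : R ∪ (N1 ∪ N2) ⊆ Insert.insert w (R ∪ N1) ∪ Insert.insert w (R ∪ N2) := by
    intro x; simp only [mem_union, mem_insert]; tauto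
  have b2 : Insert.insert w (R ∪ (N1 ∩ N2)) ⊆
      Insert.insert w (R ∪ N1) ∩ Insert.insert w (R ∪ N2) := by
    intro x; simp only [mem_union, mem_insert, mem_inter]; tauto
  have c1 := r.mono b1
  have c2 := r.mono b2
  have := card_union_add_card_inter N1 N2
  omega

/-- Fundamental circuit of `w` in `B` modulo `R`. -/
noncomputable def fc (r : RankFn E) (R B : Finset E) (w : E) : Finset E :=
  B.filter (fun a => w ∉ r.cl (R ∪ B.erase a))

theorem fc_subset (R B : Finset E) (w : E) : r.fc R B w ⊆ B := filter_subset _ _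

theorem fc_subset_of {R B N : Finset E} {w : E} (hN : N ⊆ B) (hw : w ∈ r.cl (R ∪ N)) :
    r.fc R B w ⊆ N := by
  intro a ha
  rw [fc, mem_filter] at ha
  by_contra hn
  refine ha.2 (cl_mono (union_subset_union subset_rfl ?_) hw)
  intro x hx
  rw [mem_erase]
  exact ⟨fun hxa => hn (hxa ▸ hx), hN hx⟩

theorem Indm.mem_cl_fc {R B : Finset E} (h : r.Indm R B) {w : E} (hw : w ∈ r.cl (R ∪ B)) :
    w ∈ r.cl (R ∪ r.fc R B w) := by
  have key : ∀ J : Finset E, J ⊆ B \ r.fc R B w → w ∈ r.cl (R ∪ (B \ J)) := by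
    intro J
    induction J using Finset.induction_on with
    | empty => intro _; simpa using hw
    | insert a J ha ih =>
      intro hJ
      have h1 := ih ((subset_insert _ _).trans hJ)
      have h2 := hJ (mem_insert_self _ _)
      rw [mem_sdiff, fc, mem_filter] at h2
      have h3 : w ∈ r.cl (R ∪ B.erase a) := by
        by_contra h3; exact h2.2 ⟨h2.1, h3⟩
      have h4 := h.mem_cl_inter sdiff_subset (erase_subset a B) h1 h3
      have e : B \ J ∩ B.erase a = B \ Insert.insert a J := by
        ext x; simp only [mem_inter, mem_sdiff, mem_erase, mem_insert]; tauto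
      rwa [e] at h4
  have := key _ subset_rfl
  rwa [Finset.sdiff_sdiff_eq_self (fc_subset R B w)] at this

end RankFn

end Vale.Agent.P331
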