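import Vale.Agent.P331.Total
import Vale.Agent.P331.Defs

open scoped Classical NNReal ENNReal
open Finset MeasureTheory

namespace Vale.Agent.P331

open RankFn Dat Line

variable {E : Type} [Fintype E]

omit [Fintype E] in
theorem eRk_ne_top (M : Matroid E) (S : Finset E) : M.eRk (S : Set E) ≠ ⊤ :=
  ne_top_of_le_ne_top (S.finite_toSet.encard_lt_top.ne) (M.eRk_le_encard _)

/-- The rank function of a matroid. -/
noncomputable def rkOf (M : Matroid E) : RankFn E where
  ρ := fun S => (M.eRk (S : Set E)).toNat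
  empty := by simp
  mono := fun h => ENat.toNat_le_toNat (M.eRk_mono (coe_subset.2 h)) (eRk_ne_top M _)
  ins := by
    intro e A
    have h := M.eRk_insert_le_add_one e (A : Set E)
    rw [← coe_insert, ← ENat.natCast_toNat (eRk_ne_top M (insert e A)),
      ← ENat.natCast_toNat (eRk_ne_top M A)] at h
    exact_mod_cast h
  submod := by
    intro A B
    have h := M.eRk_inter_add_eRk_union_le (A : Set E) (B : Set E)
    rw [← coe_inter, ← coe_union, ← ENat.natCast_toNat (eRk_ne_top M (A ∩ B)),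
      ← ENat.natCast_toNat (eRk_ne_top M (A ∪ B)), ← ENat.natCast_toNat (eRk_ne_top M A),
      ← ENat.natCast_toNat (eRk_ne_top M B)] at h
    rw [add_comm]
    exact_mod_cast h

omit [Fintype E] in
theorem indep_iff_rk (M : Matroid E) (A : Finset E) :
    M.Indep (A : Set E) ↔ (rkOf M).ρ A = A.card := by
  rw [M.indep_iff_eRk_eq_encard_of_finite A.finite_toSet, Set.encard_coe_eq_coe_finsetCard]
  simp only [rkOf]
  rw [← ENat.natCast_toNat (eRk_ne_top M A)]
  simp

/-- The weight class of a value. -/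
noncomputable def clsOf (X : ℕ) (x : ℝ≥0) : Option ℤ :=
  if x = 0 then none else some (-Int.log X (x : ℝ))

theorem wt_le {X : ℕ} (hX : 1 < X) (x : ℝ≥0) : wt X (clsOf X x) ≤ x := by
  unfold clsOf
  split_ifs with h
  · simp [wt]
  · simp only [wt, neg_neg]
    exact Int.zpow_log_le_self hX (by positivity)

theorem le_wt {X : ℕ} (hX : 1 < X) (x : ℝ≥0) : (x : ℝ) ≤ X * wt X (clsOf X x) := by
  unfold clsOf
  split_ifs with h
  · simp [wt, h]
  · simp only [wt, neg_neg]
    have := Int.lt_zpow_succ_log_self hX (x : ℝ)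
    rw [zpow_add_one₀ (by positivity), mul_comm] at this
    exact this.le

theorem measurable_clsOf {X : ℕ} (hX : 1 < X) : @Measurable _ _ _ ⊤ (clsOf X) := by
  let _ : MeasurableSpace (Option ℤ) := ⊤
  apply measurable_to_countable'
  intro o
  cases o with
  | none =>
    have : clsOf X ⁻¹' {none} = {0} := by
      ext x; by_cases h : x = 0 <;> simp [clsOf, h]
    rw [this]; exact measurableSet_singleton 0
  | some c =>
    have : clsOf X ⁻¹' {some c} =
        (fun x : ℝ≥0 => (x : ℝ)) ⁻¹' Set.Ico ((X : ℝ) ^ (-c)) ((X : ℝ) ^ (-c + 1)) := by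
      ext x
      by_cases h : x = 0
      · have : (0 : ℝ) < (X : ℝ) ^ (-c) := by positivity
        simp only [clsOf, h, Set.mem_preimage, if_true, Set.mem_singleton_iff, reduceCtorEq,
          Set.mem_Ico, NNReal.coe_zero, false_iff, not_and]
        intro h2; linarith
      · have hx : (0 : ℝ) < x := by positivity
        simp only [clsOf, h, Set.mem_preimage, if_false, Set.mem_singleton_iff, Option.some.injEq,
          Set.mem_Ico]
        rw [Int.zpow_le_iff_le_log hX hx, Int.lt_zpow_iff_log_lt hX hx]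
        omega
    rw [this]
    exact measurableSet_Ico.preimage NNReal.continuous_coe.measurable

variable {r : RankFn E} {κ L N : ℕ}

/-- Elements that are considered online. -/
def onl (σ : Seed E L N) (e : E) : Prop := e ∈ Uset σ.2.1 σ.2.2.1 ∧ (σ.2.2.2 e : ℕ) = 0

theorem mkDat_congr (σ : Seed E L N) (b : Bool) {c c' : E → Option ℤ}
    (h : ∀ e, ¬ onl σ e → c e = c' e) :
    mkDat r κ L b c σ.2.1 σ.2.2.1 σ.2.2.2 = mkDat r κ L b c' σ.2.1 σ.2.2.1 σ.2.2.2 := by
  have h1 : Dset c σ.2.1 = Dset c' σ.2.1 := by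
    funext i; ext e
    rw [mem_Dset, mem_Dset]
    refine and_congr_left (fun he => ?_)
    rw [h e]
    rintro ⟨h2, _⟩
    simp [mem_Uset, he] at h2
  have h2 : Dset c σ.2.2.1 = Dset c' σ.2.2.1 := by
    funext i; ext e
    rw [mem_Dset, mem_Dset]
    refine and_congr_left (fun he => ?_)
    rw [h e]
    rintro ⟨h2, _⟩
    simp [mem_Uset, he] at h2
  simp only [mkDat, dat, mkLine, h1, h2]
  congr 1
  funext i j
  apply filter_congr
  intro e _
  exact and_congr_left (fun he => by rw [h e (fun h3 => he.2.2 h3.2)])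

/-- The acceptance condition of the rule. -/
def cnd (r : RankFn E) (κ : ℕ) (σ : Seed E L N) (c : E → Option ℤ) (A : Finset E)
    (p : E × Option ℤ) : Prop :=
  ∃ j, (onl σ p.1 ∧ ∃ i, p.2 = some i ∧
      (mkDat r κ L σ.1.1 c σ.2.1 σ.2.2.1 σ.2.2.2).At r i (tau L j σ.1.2) p.1) ∧
    p.1 ∉ r.cl (mkFt r κ L σ.1.1 σ.1.2 c σ.2.1 σ.2.2.1 σ.2.2.2 (j - 1) ∪
      A ∩ mkFt r κ L σ.1.1 σ.1.2 c σ.2.1 σ.2.2.1 σ.2.2.2 j)

/-- The accepted set as a function of the classes of the mixed weights. -/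
noncomputable def Acc (r : RankFn E) (κ : ℕ) (σ : Seed E L N) (c : E → Option ℤ)
    (π : Fin (Fintype.card E) ≃ E) : Finset E :=
  run (gcond r (mkFt r κ L σ.1.1 σ.1.2 c σ.2.1 σ.2.2.1 σ.2.2.2)
    (mkCand r κ L σ.1.1 σ.1.2 c σ.2.1 σ.2.2.1 σ.2.2.2)) id π (Fintype.card E)

theorem Acc_spec (hκ : 0 < κ) (σ : Seed E L N) (c : E → Option ℤ) (π : Fin (Fintype.card E) ≃ E) :
    GSpec r (mkFt r κ L σ.1.1 σ.1.2 c σ.2.1 σ.2.2.1 σ.2.2.2)
      (mkCand r κ L σ.1.1 σ.1.2 c σ.2.1 σ.2.2.1 σ.2.2.2) univ (Acc r κ σ c π) ∧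
    r.ρ (Acc r κ σ c π) = (Acc r κ σ c π).card := by
  obtain ⟨c₀, hc₀⟩ := (Set.finite_range (fun e => (c e).getD 0)).bddAbove
  have hc : ∀ e i, c e = some i → i ≤ c₀ := by
    intro e i h
    have := hc₀ (Set.mem_range_self e)
    simpa [h] using this
  have h := gspec_run (r := r) (mkFt_mono (r := r) hκ hc σ.1.1 σ.1.2 σ.2.1 σ.2.2.1 σ.2.2.2)
    (mkCand_mem hκ hc σ.1.1 σ.1.2 σ.2.1 σ.2.2.1 σ.2.2.2) π
  exact ⟨h, h.indep (mkFt_mono hκ hc _ _ _ _ _) (mkCand_mem hκ hc _ _ _ _ _)⟩

/-- The mixed weights. -/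
noncomputable def mix (σ : Seed E L N) (S V : E → ℝ≥0) : E → ℝ≥0 :=
  fun e => if onl σ e then V e else S e

/-- The online rule. -/
noncomputable def theRule (r : RankFn E) (κ L N X : ℕ) (hX : 1 < X) :
    @OnlineRule E (Seed E L N) ⊤ :=
  letI : MeasurableSpace (Seed E L N) := ⊤
  { accept := fun k prev e σ S vals x =>
      cnd r κ σ (fun a => clsOf X (S a))
        (run (cnd r κ σ (fun a => clsOf X (S a))) Prod.fst
          (fun j : Fin k => (prev j, clsOf X (vals j))) k) (e, clsOf X x)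
    measurable_accept := by
      intro k prev e
      let _ : MeasurableSpace (Option ℤ) := ⊤
      have hm := measurable_clsOf hX
      have h1 : Measurable (fun p : Seed E L N × (E → ℝ≥0) × (Fin k → ℝ≥0) × ℝ≥0 =>
          ((p.1, fun a => clsOf X (p.2.1 a), fun j => clsOf X (p.2.2.1 j), clsOf X p.2.2.2) :
            Seed E L N × (E → Option ℤ) × (Fin k → Option ℤ) × Option ℤ)) := by
        fun_prop
      exact h1 (Set.to_countable {q : Seed E L N × (E → Option ℤ) × (Fin k → Option ℤ) × Option ℤ |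
        cnd r κ q.1 q.2.1 (run (cnd r κ q.1 q.2.1) Prod.fst
          (fun j : Fin k => (prev j, q.2.2.1 j)) k) (e, q.2.2.2)}).measurableSet }

theorem accepted_eq (X : ℕ) (hX : 1 < X) (σ : Seed E L N) (S V : E → ℝ≥0)
    (π : Fin (Fintype.card E) ≃ E) :
    @OnlineRule.accepted E (Seed E L N) _ ⊤ (theRule r κ L N X hX) σ S V π =
      Acc r κ σ (fun a => clsOf X (mix σ S V a)) π := by
  have hd := fun b => mkDat_congr (r := r) (κ := κ) σ b (c := fun a => clsOf X (S a))
    (c' := fun a => clsOf X (mix σ S V a)) (fun e he => by simp only [mix, if_neg he])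
  have hc : ∀ A e, cnd r κ σ (fun a => clsOf X (S a)) A (e, clsOf X (V e)) ↔
      gcond r (mkFt r κ L σ.1.1 σ.1.2 (fun a => clsOf X (mix σ S V a)) σ.2.1 σ.2.2.1 σ.2.2.2)
        (mkCand r κ L σ.1.1 σ.1.2 (fun a => clsOf X (mix σ S V a)) σ.2.1 σ.2.2.1 σ.2.2.2) A e := by
    intro A e
    simp only [cnd, gcond, mkFt, mkCand, hd]
    refine exists_congr (fun j => and_congr_left (fun _ => and_congr_right (fun he => ?_)))
    simp only [mix, if_pos he]
  have hr : ∀ m, run (cnd r κ σ (fun a => clsOf X (S a))) Prod.fst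
      (fun j => (π j, clsOf X (V (π j)))) m =
      run (gcond r (mkFt r κ L σ.1.1 σ.1.2 (fun a => clsOf X (mix σ S V a)) σ.2.1 σ.2.2.1 σ.2.2.2)
        (mkCand r κ L σ.1.1 σ.1.2 (fun a => clsOf X (mix σ S V a)) σ.2.1 σ.2.2.1 σ.2.2.2))
        id π m := by
    intro m
    induction m with
    | zero => rfl
    | succ m ih => simp only [run, ih, hc, id]
  ext e
  unfold OnlineRule.accepted
  rw [mem_filter]
  simp only [theRule, mem_univ, true_and, Acc, mem_run, id]
  rw [run_restrict (cnd r κ σ (fun a => clsOf X (S a))) Prod.fst (π.symm e).2.le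
    (fun j => (π j, clsOf X (V (π j)))) _ le_rfl, hr, hc]
  constructor
  · intro h
    exact ⟨π.symm e, (π.symm e).2, by simp, by simpa using h⟩
  · rintro ⟨k, _, rfl, h⟩
    simpa using h

theorem mix_preserving (σ : Seed E L N) (D : E → Measure ℝ≥0) [∀ e, IsProbabilityMeasure (D e)] :
    MeasurePreserving (fun p : (E → ℝ≥0) × (E → ℝ≥0) => mix σ p.1 p.2)
      ((Measure.pi D).prod (Measure.pi D)) (Measure.pi D) := by
  have hm : Measurable (fun p : (E → ℝ≥0) × (E → ℝ≥0) => mix σ p.1 p.2) := by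
    refine measurable_pi_lambda _ (fun e => ?_)
    unfold mix
    split_ifs <;> fun_prop
  refine ⟨hm, (Measure.pi_eq (fun s hs => ?_)).symm⟩
  rw [Measure.map_apply hm (MeasurableSet.univ_pi hs)]
  have e : (fun p : (E → ℝ≥0) × (E → ℝ≥0) => mix σ p.1 p.2) ⁻¹' Set.univ.pi s =
      (Set.univ.pi (fun e => if onl σ e then Set.univ else s e)) ×ˢ
        (Set.univ.pi (fun e => if onl σ e then s e else Set.univ)) := by
    ext p
    simp only [Set.mem_preimage, Set.mem_pi, Set.mem_univ, true_imp_iff, Set.mem_prod, mix,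
      ← forall_and]
    refine forall_congr' (fun e => ?_)
    split_ifs <;> simp
  rw [e, Measure.prod_prod, Measure.pi_pi, Measure.pi_pi, ← prod_mul_distrib]
  refine prod_congr rfl (fun e _ => ?_)
  split_ifs <;> simp

end Vale.Agent.P331
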