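import Vale.Agent.P331.Chain
import Vale.Agent.P331.Bellman

open scoped Classical
open Finset

namespace Vale.Agent.P331

open RankFn Dat

/-- A line of levels: initial chain, closure operators and weight classes. -/
structure Line (E : Type) where
  init : ℤ → Finset E
  pre : ℤ → ℤ → Finset E → Finset E
  cls : E → Option ℤ

namespace Line

variable {E : Type} [Fintype E]

noncomputable def dat (ℓ : Line E) (p : E → ℤ → Prop) : Dat E :=
  ⟨ℓ.init, ℓ.pre, fun c h => univ.filter (fun g => ℓ.cls g = some c ∧ p g h)⟩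

theorem mem_Gd {ℓ : Line E} {p : E → ℤ → Prop} {c h : ℤ} {g : E} :
    g ∈ (ℓ.dat p).Gd c h ↔ ℓ.cls g = some c ∧ p g h := by simp [dat]

variable {r : RankFn E} {ℓ : Line E} {c₀ : ℤ}

theorem collapseP (hb : ∀ p, (ℓ.dat p).OK r c₀) {p p' : E → ℤ → Prop} (i m : ℤ)
    (h : ∀ g c h, ℓ.cls g = some c → i < c → m < h → (ℓ.dat p).At r c h g → (p g h ↔ p' g h)) :
    ∀ c, i ≤ c → ∀ h, m ≤ h → (ℓ.dat p).X r c h = (ℓ.dat p').X r c h := by
  refine collapse (hb p) (hb p') i m rfl (fun _ _ => rfl) ?_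
  intro c hc h' hh g hg
  rw [mem_Gd, mem_Gd]
  exact and_congr_right (fun hcls => h g c h' hcls hc hh hg)

theorem collapsePt (hb : ∀ p, (ℓ.dat p).OK r c₀) {p p' : E → ℤ → Prop} (i m : ℤ)
    (h : ∀ g c h, ℓ.cls g = some c → i < c → m < h → (ℓ.dat p).At r c h g → (p g h ↔ p' g h)) :
    ∀ c, i ≤ c → ∀ h, m ≤ h → (ℓ.dat p).Xt r c h = (ℓ.dat p').Xt r c h := by
  intro c hc h' hh
  unfold Xt
  rw [collapseP hb i m h c hc h' hh]
  rfl

/-- Lighter elements that lie below level `τ`. -/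
noncomputable def Gset (r : RankFn E) (ℓ : Line E) (i τ : ℤ) (p : E → ℤ → Prop) : Finset E :=
  univ.filter (fun g => ∃ c, i < c ∧ ℓ.cls g = some c ∧ g ∈ (ℓ.dat p).Xt r c τ)

theorem mem_Gset {i τ : ℤ} {p : E → ℤ → Prop} {g : E} {c : ℤ} (hc : ℓ.cls g = some c) :
    g ∈ ℓ.Gset r i τ p ↔ i < c ∧ g ∈ (ℓ.dat p).Xt r c τ := by
  simp only [Gset, mem_filter, mem_univ, true_and]
  constructor
  · rintro ⟨c', h1, h2, h3⟩
    rw [hc] at h2
    obtain rfl : c = c' := Option.some.inj h2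
    exact ⟨h1, h3⟩
  · rintro ⟨h1, h2⟩; exact ⟨c, h1, hc, h2⟩

theorem upper (hb : ∀ p, (ℓ.dat p).OK r c₀) {p p' : E → ℤ → Prop} {i τ : ℤ}
    (h : ∀ g h, g ∉ ℓ.Gset r i τ p → τ < h → (p g h ↔ p' g h)) :
    ∀ c, i ≤ c → ∀ h, τ ≤ h → (ℓ.dat p).Xt r c h = (ℓ.dat p').Xt r c h := by
  apply collapsePt hb i τ
  intro g c h' hc hic hh hAt
  apply h g h' _ hh
  rw [mem_Gset hc]
  rintro ⟨_, h2⟩
  exact hAt.2 ((hb p).Xt_mono c (by omega : τ ≤ h' - 1) h2)

theorem upper_Gset (hb : ∀ p, (ℓ.dat p).OK r c₀) {p p' : E → ℤ → Prop} {i τ : ℤ}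
    (h : ∀ g h, g ∉ ℓ.Gset r i τ p → τ < h → (p g h ↔ p' g h)) :
    ℓ.Gset r i τ p' = ℓ.Gset r i τ p := by
  unfold Gset
  apply filter_congr
  intro g _
  constructor
  · rintro ⟨c, h1, h2, h3⟩
    exact ⟨c, h1, h2, by rwa [upper hb h c h1.le τ le_rfl]⟩
  · rintro ⟨c, h1, h2, h3⟩
    exact ⟨c, h1, h2, by rwa [← upper hb h c h1.le τ le_rfl]⟩

/-- The guard predicate: label below `L` and different from `κ h`. -/
def gp {N : ℕ} (U : Finset E) (L : ℕ) (κ : ℤ → ℕ) (l : E → Fin N) : E → ℤ → Prop :=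
  fun g h => g ∈ U ∧ (l g : ℕ) < L ∧ (l g : ℕ) ≠ κ h

/-- Lighter online elements at level `τ`. -/
noncomputable def Bset {N : ℕ} (r : RankFn E) (ℓ : Line E) (U : Finset E) (L : ℕ) (i τ : ℤ)
    (l : E → Fin N) : Finset E :=
  univ.filter (fun g => ∃ c, i < c ∧ ℓ.cls g = some c ∧ g ∈ U ∧ (l g : ℕ) = 0 ∧
    (ℓ.dat (gp U L (fun _ => 0) l)).At r c τ g)

/-- The base of the window with top level `τ`, enlarged by the lighter online elements. -/
noncomputable def Yhat {N : ℕ} (r : RankFn E) (ℓ : Line E) (U : Finset E) (L : ℕ) (i τ : ℤ)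
    (l : E → Fin N) : Finset E :=
  ℓ.pre i (τ - L) (r.cl ((ℓ.dat (gp U L (fun _ => 0) l)).X r i (τ - L) ∪ ℓ.Bset r U L i τ l))

/-- The bad event. -/
def Bad {N : ℕ} (r : RankFn E) (ℓ : Line E) (U : Finset E) (L : ℕ) (i τ : ℤ) (e : E)
    (l : E → Fin N) : Prop :=
  (ℓ.dat (gp U L (fun _ => 0) l)).At r i τ e ∧ e ∈ ℓ.Yhat r U L i τ l

/-- The excluded label in world `u`. -/
def kap (τ : ℤ) (u : ℕ) (h : ℤ) : ℕ := if h ≤ τ then u - (τ - h).toNat else 0

theorem kap_le (τ : ℤ) (u : ℕ) (h : ℤ) : kap τ u h ≤ u := by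
  unfold kap; split_ifs <;> omega

variable {N L : ℕ} {U : Finset E} {i τ : ℤ}

theorem world_upper (hb : ∀ p, (ℓ.dat p).OK r c₀) (l : E → Fin N) (u u' : ℕ) :
    ∀ c, i ≤ c → ∀ h, τ ≤ h → (ℓ.dat (gp U L (kap τ u) l)).Xt r c h =
      (ℓ.dat (gp U L (kap τ u') l)).Xt r c h := by
  apply upper hb
  intro g h _ hh
  simp only [gp, kap, if_neg (not_le.2 hh)]

theorem world_shift (hb : ∀ p, (ℓ.dat p).OK r c₀) (l : E → Fin N) (u : ℕ) :
    ∀ c, i ≤ c → ∀ h, h ≤ τ - 1 → (ℓ.dat (gp U L (kap τ (u + 1)) l)).X r c (h - 1) ⊆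
      (ℓ.dat (gp U L (kap τ u) l)).X r c h := by
  intro c hc h hh
  refine Dat.compare (hb _) (hb _) i (fun _ h h' => h' = h + 1 ∧ h' ≤ τ - 1) ?_ ?_ ?_ ?_ c hc
    (h - 1) h ⟨by ring, hh⟩
  · rintro c h _ _ ⟨rfl, _⟩
    exact (hb (gp U L (kap τ u) l)).init_mono (by omega)
  · intro c h h' hr; exact hr
  · rintro c _ h _ Y Y' ⟨rfl, _⟩ hY
    exact (hb (gp U L (kap τ u) l)).pre_mono _ _ _ _ _ (by omega) hY
  · rintro c hc e h _ ⟨rfl, hh⟩ g hg
    rw [mem_inter, mem_Gd] at hg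
    refine mem_union_right _ (mem_inter.2 ⟨mem_Gd.2 ⟨hg.1.1, hg.1.2.1, hg.1.2.2.1, ?_⟩, ?_⟩)
    · have : kap τ u (h + 1 + 1) = kap τ (u + 1) (h + 1) := by
        unfold kap
        rw [if_pos (by omega), if_pos (by omega)]
        omega
      rw [this]; exact hg.1.2.2.2
    · by_cases h2 : h + 1 + 1 ≤ τ - 1
      · exact e _ _ ⟨rfl, h2⟩ hg.2
      · have h3 : h + 1 + 1 = τ := by omega
        rw [h3, ← world_upper hb l (u + 1) u c hc.le τ le_rfl]
        exact (hb _).Xt_mono c (by omega) hg.2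

theorem world_shift' (hb : ∀ p, (ℓ.dat p).OK r c₀) (l : E → Fin N) (u m : ℕ) :
    (ℓ.dat (gp U L (kap τ (u + m)) l)).X r i (τ - 1 - m) ⊆
      (ℓ.dat (gp U L (kap τ u) l)).X r i (τ - 1) := by
  induction m with
  | zero => simp
  | succ m ih =>
    refine Subset.trans ?_ ih
    have := world_shift (U := U) (L := L) (i := i) (τ := τ) hb l (u + m) i le_rfl (τ - 1 - m)
      (by omega)
    have e : τ - 1 - ((m + 1 : ℕ) : ℤ) = τ - 1 - m - 1 := by push_cast; ring
    rw [e, ← add_assoc]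
    exact this

theorem exists_world (hb : ∀ p, (ℓ.dat p).OK r c₀) (hLN : L ≤ N) (u : ℕ) (hu : u < L) :
    ∃ Ψ : (E → Fin N) → (E → Fin N), Function.Injective Ψ ∧
      (∀ l g, g ∉ ℓ.Gset r i τ (gp U L (fun _ => 0) l) → Ψ l g = l g) ∧
      (∀ l c, i ≤ c → ∀ h, (ℓ.dat (gp U L (fun _ => 0) (Ψ l))).X r c h =
        (ℓ.dat (gp U L (kap τ u) l)).X r c h) ∧
      (∀ l g c, i < c → ℓ.cls g = some c → (ℓ.dat (gp U L (kap τ u) l)).At r c τ g →
        (Ψ l g : ℕ) = 0 → (l g : ℕ) = u) := by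
  have hk : ∀ h, kap τ u h < N := fun h => lt_of_le_of_lt (kap_le τ u h) (by omega)
  have hlev : ∀ (X : ℤ → ℤ → Finset E) (g : E), ∃ v : ℤ,
      (∀ c h, i < c → ℓ.cls g = some c → (∀ h h', h ≤ h' → X c h ⊆ X c h') →
        g ∈ X c h → g ∉ X c (h - 1) → v = h) ∧
      (v ≤ τ → ∃ c, i < c ∧ ℓ.cls g = some c ∧ g ∈ X c v) := by
    intro X g
    by_cases H : ∃ c h, i < c ∧ ℓ.cls g = some c ∧ g ∈ X c h ∧ g ∉ X c (h - 1)
    · obtain ⟨c, h, h1, h2, h3, h4⟩ := H
      refine ⟨h, ?_, fun _ => ⟨c, h1, h2, h3⟩⟩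
      intro c' h' _ h2' hm h3' h4'
      rw [h2] at h2'
      obtain rfl : c = c' := Option.some.inj h2'
      rcases lt_trichotomy h h' with h5 | h5 | h5
      · exact absurd (hm _ _ (by omega) h3) h4'
      · exact h5
      · exact absurd (hm _ _ (by omega) h3') h4
    · refine ⟨τ + 1, ?_, fun h => by omega⟩
      intro c h h1 h2 _ h3 h4
      exact absurd ⟨c, h, h1, h2, h3, h4⟩ H
  choose lev hlev1 hlev2 using hlev
  let Z : (E → Fin N) → ℤ → ℤ → Finset E := fun l c h =>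
    if i < c then (ℓ.dat (gp U L (kap τ u) l)).Xt r c h else ∅
  have hZ : ∀ l g c h, i < c → ℓ.cls g = some c → (ℓ.dat (gp U L (kap τ u) l)).At r c h g →
      lev (Z l) g = h := by
    intro l g c h h1 h2 h3
    apply hlev1 (Z l) g c h h1 h2
    · intro a b hab
      simp only [Z, if_pos h1]
      exact (hb _).Xt_mono c hab
    · simp only [Z, if_pos h1]; exact h3.1
    · simp only [Z, if_pos h1]; exact h3.2
  let z : Fin N := ⟨0, by omega⟩
  let Ψ : (E → Fin N) → (E → Fin N) := fun l g =>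
    Equiv.swap z ⟨kap τ u (lev (Z l) g), hk _⟩ (l g)
  have hswap : ∀ (k x : Fin N), (k : ℕ) < L →
      ((((Equiv.swap z k x : Fin N) : ℕ) < L ∧ ((Equiv.swap z k x : Fin N) : ℕ) ≠ 0) ↔
        ((x : ℕ) < L ∧ (x : ℕ) ≠ k)) := by
    intro k x hkL
    by_cases h1 : x = z
    · rw [h1, Equiv.swap_apply_left]
      simp only [z]
      omega
    by_cases h2 : x = k
    · rw [h2, Equiv.swap_apply_right]
      simp [z]
    · rw [Equiv.swap_apply_of_ne_of_ne h1 h2]
      have a1 : (x : ℕ) ≠ 0 := fun h => h1 (Fin.ext h)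
      have a2 : (x : ℕ) ≠ k := fun h => h2 (Fin.ext h)
      simp [a1, a2]
  have hX : ∀ l c, i ≤ c → ∀ h, (ℓ.dat (gp U L (fun _ => 0) (Ψ l))).X r c h =
      (ℓ.dat (gp U L (kap τ u) l)).X r c h := by
    intro l c hc h
    symm
    refine collapseP hb i h ?_ c hc h le_rfl
    intro g c' h' h1 h2 _ h4
    simp only [gp]
    apply and_congr_right
    intro _
    simp only [Ψ]
    rw [hswap _ _ (lt_of_le_of_lt (kap_le τ u _) hu), hZ l g c' h' h2 h1 h4]
  refine ⟨Ψ, ?_, ?_, hX, ?_⟩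
  · intro l l' hl
    have e : Z l = Z l' := by
      funext c h
      simp only [Z]
      split_ifs with hc
      · unfold Xt
        rw [← hX l c hc.le, ← hX l' c hc.le, hl]
        rfl
      · rfl
    funext g
    have := congrFun hl g
    simp only [Ψ, e] at this
    exact (Equiv.swap _ _).injective this
  · intro l g hg
    have h0 : kap τ u (lev (Z l) g) = 0 := by
      unfold kap
      split_ifs with hv
      · exfalso
        obtain ⟨c, h1, h2, h3⟩ := hlev2 (Z l) g hv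
        simp only [Z, if_pos h1] at h3
        apply hg
        rw [mem_Gset h2]
        refine ⟨h1, ?_⟩
        have h4 := (hb _).Xt_mono c hv h3
        have h5 : (ℓ.dat (gp U L (kap τ u) l)).Xt r c τ =
            (ℓ.dat (gp U L (fun _ => 0) l)).Xt r c τ := by
          refine upper hb ?_ c h1.le τ le_rfl
          intro g h _ hh
          simp only [gp, kap, if_neg (not_le.2 hh)]
        rwa [h5] at h4
      · rfl
    have h1 : (⟨kap τ u (lev (Z l) g), hk _⟩ : Fin N) = z := Fin.ext h0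
    simp only [Ψ, h1, Equiv.swap_self, Equiv.refl_apply]
  · intro l g c h1 h2 h3 h4
    have h5 : Ψ l g = z := Fin.ext h4
    simp only [Ψ, Equiv.swap_apply_eq_iff, Equiv.swap_apply_left] at h5
    rw [h5, hZ l g c τ h1 h2 h3]
    simp [kap]

theorem exclusive (hb : ∀ p, (ℓ.dat p).OK r c₀) (hLN : L ≤ N) (e : E) (φ : (E → Fin N) → ℝ)
    (hφ0 : ∀ l, 0 ≤ φ l)
    (hφ : ∀ l l', (∀ g, g ∉ ℓ.Gset r i τ (gp U L (fun _ => 0) l) → l' g = l g) → φ l' = φ l) :
    L * av (fun l => φ l * ind (ℓ.Bad r U L i τ e l)) ≤ av φ := by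
  have hw : ∀ u : Fin L, _ := fun u => exists_world (U := U) (i := i) (τ := τ) hb hLN u u.2
  choose Ψ h1 h2 h3 h4 using hw
  have ht : ∀ u l c, i ≤ c → ∀ h, (ℓ.dat (gp U L (fun _ => 0) (Ψ u l))).Xt r c h =
      (ℓ.dat (gp U L (kap τ u) l)).Xt r c h := by
    intro u l c hc h
    unfold Xt
    rw [h3 u l c hc h]
    rfl
  have hex : ∀ l (u u' : Fin L), u' < u → ℓ.Bad r U L i τ e (Ψ u l) →
      ¬ ℓ.Bad r U L i τ e (Ψ u' l) := by
    intro l u u' huu hB hB'
    apply hB'.1.2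
    rw [ht u' l i le_rfl]
    have hu := u.2
    have huu' : (u' : ℕ) < u := huu
    refine (hb (gp U L (kap τ u') l)).pre_mono _ _ _ _ _ (by omega) ?_ hB.2
    refine Subset.trans (cl_mono (union_subset ?_ ?_))
      ((hb (gp U L (kap τ u') l)).X_flat i (τ - 1)).subset
    · rw [h3 u l i le_rfl]
      have := world_shift' (U := U) (L := L) (i := i) (τ := τ) hb l u' (u - u')
      rw [show (u' : ℕ) + (u - u') = u by omega] at this
      refine Subset.trans ((hb _).X_mono i ?_) this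
      omega
    · intro g hg
      simp only [Bset, mem_filter, mem_univ, true_and] at hg
      obtain ⟨c, g1, g2, g3, g4, g5⟩ := hg
      have g6 : (ℓ.dat (gp U L (kap τ u) l)).At r c τ g := by
        unfold At at g5 ⊢
        rwa [ht u l c g1.le, ht u l c g1.le] at g5
      have g7 := h4 u l g c g1 g2 g6 g4
      refine (hb _).X_anti (τ - 1) (by omega : i ≤ c - 1) ?_
      simp only
      rw [(hb _).X_pred']
      refine subset_cl _ (mem_union_right _ (mem_inter.2 ⟨mem_Gd.2 ⟨g2, g3, by omega, ?_⟩, ?_⟩))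
      · simp only [kap, sub_add_cancel, le_refl, if_true, sub_self]
        omega
      · rw [sub_add_cancel, world_upper hb l u' u c g1.le τ le_rfl]
        exact g6.1
  have hsum : ∀ l, ∑ u : Fin L, ind (ℓ.Bad r U L i τ e (Ψ u l)) ≤ 1 := by
    intro l
    by_cases H : ∃ u, ℓ.Bad r U L i τ e (Ψ u l)
    · obtain ⟨u, hu⟩ := H
      rw [sum_eq_single u]
      · exact ind_le_one _
      · intro v _ hv
        apply ind_neg
        rcases lt_or_gt_of_ne hv with h | h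
        · exact hex l u v h hu
        · exact fun hv' => hex l v u h hv' hu
      · simp
    · push Not at H
      rw [sum_eq_zero (fun u _ => ind_neg (H u))]
      norm_num
  calc L * av (fun l => φ l * ind (ℓ.Bad r U L i τ e l))
      = ∑ u : Fin L, av (fun l => φ l * ind (ℓ.Bad r U L i τ e (Ψ u l))) := by
        have : ∀ u : Fin L, av (fun l => φ l * ind (ℓ.Bad r U L i τ e (Ψ u l))) =
            av (fun l => φ l * ind (ℓ.Bad r U L i τ e l)) := by
          intro u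
          rw [← av_inj (h1 u) (fun l => φ l * ind (ℓ.Bad r U L i τ e l))]
          exact av_congr (fun l => by rw [hφ l (Ψ u l) (h2 u l)])
        simp [this]
    _ ≤ av φ := by
        rw [← av_sum]
        apply av_mono
        intro l
        rw [← mul_sum]
        exact mul_le_of_le_one_right (hφ0 l) (hsum l)

end Line

end Vale.Agent.P331
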