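import Vale.Agent.P331.Safety

open scoped Classical
open Finset

namespace Vale.Agent.P331

open RankFn Dat

namespace Line

variable {E : Type} [Fintype E] {r : RankFn E} {ℓ : Line E} {c₀ : ℤ}
variable {N L : ℕ} {U : Finset E} {i τ : ℤ}

/-- Guard predicate fed by a set `J` at the levels up to `τ`. -/
def pJ (p : E → ℤ → Prop) (τ : ℤ) (J : Finset E) : E → ℤ → Prop :=
  fun g h => if τ < h then p g h else g ∈ J

theorem monoJ (hb : ∀ p, (ℓ.dat p).OK r c₀) (p : E → ℤ → Prop) {A B : Finset E} (hAB : A ⊆ B)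
    (c h : ℤ) : (ℓ.dat (pJ p τ A)).Xt r c h ⊆ (ℓ.dat (pJ p τ B)).Xt r c h := by
  refine (hb p).pre_mono _ _ _ _ _ le_rfl ?_
  refine mono_Gd (hb (pJ p τ A)) (hb (pJ p τ B)) c rfl rfl ?_ c le_rfl h
  intro c' _ h' g hg
  rw [mem_Gd] at hg ⊢
  refine ⟨hg.1, ?_⟩
  have := hg.2
  unfold pJ at this ⊢
  split_ifs at this ⊢
  · exact this
  · exact hAB this

theorem pw_upper (hb : ∀ p, (ℓ.dat p).OK r c₀) (l l' : E → Fin N)
    (h : ∀ g, g ∉ ℓ.Gset r i τ (gp U L (fun _ => 0) l) → l' g = l g) :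
    (∀ c, i ≤ c → ∀ h, τ ≤ h → (ℓ.dat (gp U L (fun _ => 0) l)).Xt r c h =
      (ℓ.dat (gp U L (fun _ => 0) l')).Xt r c h) ∧
    ℓ.Gset r i τ (gp U L (fun _ => 0) l') = ℓ.Gset r i τ (gp U L (fun _ => 0) l) := by
  have : ∀ g h, g ∉ ℓ.Gset r i τ (gp U L (fun _ => 0) l) → τ < h →
      (gp U L (fun _ => 0) l g h ↔ gp U L (fun _ => 0) l' g h) := by
    intro g _ hg _
    simp only [gp, h g hg]
  exact ⟨upper hb this, upper_Gset hb this⟩

theorem bellman_line [NeZero N] (hb : ∀ p, (ℓ.dat p).OK r c₀) (e : E) (l : E → Fin N) :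
    - av (fun μ : E → Fin N => ind (e ∉ (ℓ.dat (gp U L (fun _ => 0)
        (pw (ℓ.Gset r i τ (gp U L (fun _ => 0) l)) μ l))).Xt r i (τ - 1))) *
      Real.log (av (fun μ : E → Fin N => ind (e ∉ (ℓ.dat (gp U L (fun _ => 0)
        (pw (ℓ.Gset r i τ (gp U L (fun _ => 0) l)) μ l))).Xt r i (τ - 1)))) ≤
    av (fun μ : E → Fin N => ind ((ℓ.dat (gp U L (fun _ => 0)
        (pw (ℓ.Gset r i τ (gp U L (fun _ => 0) l)) μ l))).At r i (τ - 1) e)) := by
  set p := gp U L (fun _ => 0) l with hp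
  set G := ℓ.Gset r i τ p with hG
  obtain ⟨coin, hcoin⟩ : ∃ coin : Fin N → Prop, ∀ x, coin x ↔ (x : ℕ) < L ∧ (x : ℕ) ≠ 0 :=
    ⟨_, fun _ => Iff.rfl⟩
  let f : Finset E → Prop := fun J => e ∈ (ℓ.dat (pJ p τ J)).Xt r i (τ - 1)
  let red : E → Finset E → Prop := fun g J =>
    ∃ c, i < c ∧ ℓ.cls g = some c ∧ g ∈ (ℓ.dat (pJ p τ J)).Xt r c (τ - 1)
  have hbell := bellman (coin := coin) (fun g => (ℓ.cls g).getD 0) f red
    (fun A B hAB h => monoJ hb p hAB _ _ h) (by
      have key : ∀ g J J', (∀ x, (ℓ.cls g).getD 0 < (ℓ.cls x).getD 0 → (x ∈ J ↔ x ∈ J')) →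
          red g J → red g J' := by
        rintro g J J' h ⟨c, h1, h2, h3⟩
        refine ⟨c, h1, h2, ?_⟩
        rw [← collapsePt hb c (τ - 1) (p := pJ p τ J) _ c le_rfl _ le_rfl]
        · exact h3
        · intro x c' h' x1 x2 _ _
          unfold pJ
          split_ifs
          · rfl
          · apply h; simp [h2, x1, x2]
      exact fun g J J' h => ⟨key g J J' h, key g J' J (fun x hx => (h x hx).symm)⟩) (by
      rintro g J J' ⟨c, h1, h2, h3⟩ hJ h4
      simp only [f] at h4 ⊢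
      rw [collapsePt hb i (τ - 1) (p' := pJ p τ (insert g J')) _ i le_rfl _ le_rfl]
      · exact h4
      · intro x c' h' x1 _ x3 x4
        unfold pJ
        split_ifs
        · rfl
        · have : x ≠ g := by
            rintro rfl
            rw [h2] at x1
            obtain rfl : c = c' := Option.some.inj x1
            exact x4.2 ((hb _).Xt_mono c (by omega) (monoJ hb p hJ _ _ h3))
          simp [this]) (G ∩ U) ∅ ∅ subset_rfl
  simp only [empty_union] at hbell
  have hch : ∀ (μ : E → Fin N) h, (ℓ.dat (gp U L (fun _ => 0) (pw G μ l))).Xt r i h =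
      (ℓ.dat (pJ p τ ((G ∩ U).filter (fun g => coin (μ g))))).Xt r i h := by
    intro μ h
    have hu := (pw_upper (U := U) (L := L) (i := i) (τ := τ) hb l (pw G μ l)
      (fun g hg => pw_not_mem hg)).1
    refine collapsePt hb i h ?_ i le_rfl h le_rfl
    intro g c h' g1 g2 _ g4
    unfold pJ
    split_ifs with hh
    · have : g ∉ G := by
        rw [hG, mem_Gset g1]
        rintro ⟨_, h2⟩
        rw [hp, hu c g2.le τ le_rfl] at h2
        exact g4.2 ((hb _).Xt_mono c (by omega) h2)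
      simp only [hp, gp, pw_not_mem this]
    · have : g ∈ G := by
        rw [hG, mem_Gset g1, hp, hu c g2.le τ le_rfl]
        exact ⟨g2, (hb _).Xt_mono c (by omega) g4.1⟩
      simp only [gp, pw_mem this, mem_filter, mem_inter, this, true_and, hcoin]
  have hΓ : ∀ R : Finset E, (ℓ.dat (pJ p τ R)).Xt r i (τ - 1 - 1) ⊆
      (ℓ.dat (pJ p τ (R.filter (fun g => red g R)))).Xt r i (τ - 1) := by
    intro R
    refine (hb p).pre_mono _ _ _ _ _ (by omega) ?_
    refine Dat.compare (hb _) (hb _) i (fun _ h h' => h = τ - 1 - 1 ∧ h' = τ - 1) ?_ ?_ ?_ ?_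
      i le_rfl _ _ ⟨rfl, rfl⟩
    · rintro c _ _ _ ⟨rfl, rfl⟩
      exact (hb p).init_mono (by omega)
    · intro c h h' hr; exact hr
    · rintro c _ _ _ Y Y' ⟨rfl, rfl⟩ hY
      exact (hb p).pre_mono _ _ _ _ _ (by omega) hY
    · rintro c hc _ _ _ ⟨rfl, rfl⟩ g hg
      simp only [sub_add_cancel] at hg ⊢
      rw [mem_inter, mem_Gd] at hg
      have g1 : g ∈ R := by
        have := hg.1.2
        unfold pJ at this
        rwa [if_neg (by omega)] at this
      refine mem_union_right _ (mem_inter.2 ⟨mem_Gd.2 ⟨hg.1.1, ?_⟩, ?_⟩)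
      · unfold pJ
        rw [if_neg (lt_irrefl _)]
        exact mem_filter.2 ⟨g1, c, hc, hg.1.1, hg.2⟩
      · rw [← upper (i := i) (τ := τ) hb (p := pJ p τ R) _ c hc.le τ le_rfl]
        · exact (hb _).Xt_mono c (by omega) hg.2
        · intro x h _ hh
          simp only [pJ, if_pos hh]
  have e1 : av (fun μ : E → Fin N => ind (e ∉ (ℓ.dat (gp U L (fun _ => 0)
      (pw G μ l))).Xt r i (τ - 1))) = avs coin (G ∩ U) (fun R => ind (¬ f R)) := by
    unfold avs
    exact av_congr (fun μ => by rw [hch])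
  have e2 : avs coin (G ∩ U) (fun R => ind (¬ f (R.filter (fun g => red g R)))) ≤
      av (fun μ : E → Fin N => ind ((ℓ.dat (gp U L (fun _ => 0) (pw G μ l))).At r i (τ - 1) e)) +
      avs coin (G ∩ U) (fun R => ind (¬ f R)) := by
    unfold avs
    rw [← av_add]
    apply av_mono
    intro μ
    unfold At
    rw [hch, hch]
    beta_reduce
    set R := (G ∩ U).filter (fun g => coin (μ g))
    by_cases h1 : f R
    · rw [ind_neg (not_not.2 h1), add_zero]
      exact ind_mono (fun h2 => ⟨h1, fun h3 => h2 (hΓ R h3)⟩)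
    · rw [ind_pos h1]
      linarith [ind_le_one (¬ f (R.filter (fun g => red g R))), ind_nonneg
        (e ∈ (ℓ.dat (pJ p τ R)).Xt r i (τ - 1) ∧ e ∉ (ℓ.dat (pJ p τ R)).Xt r i (τ - 1 - 1))]
  rw [e1]
  linarith

theorem safety [NeZero N] (hb : ∀ p, (ℓ.dat p).OK r c₀) (hLN : L ≤ N) (hL : 8 * Real.exp 8 ≤ L)
    (e : E) (φ : (E → Fin N) → ℝ) (hφ0 : ∀ l, 0 ≤ φ l)
    (hφ : ∀ l l', (∀ g, (∀ c, ℓ.cls g = some c → c ≤ i) → l' g = l g) → φ l' = φ l) :
    av (fun l => φ l * ind (ℓ.Bad r U L i τ e l)) ≤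
      (1 / 8) * av (fun l => φ l * ind ((ℓ.dat (gp U L (fun _ => 0) l)).At r i τ e)) +
      (1 / 8) * av (fun l => φ l * ind ((ℓ.dat (gp U L (fun _ => 0) l)).At r i (τ - 1) e)) := by
  let G : (E → Fin N) → Finset E := fun l => ℓ.Gset r i τ (gp U L (fun _ => 0) l)
  have hφ' : ∀ l l', (∀ g, g ∉ G l → l' g = l g) → φ l' = φ l := by
    intro l l' h
    apply hφ
    intro g hg
    apply h
    simp only [G, Gset, mem_filter, mem_univ, true_and]
    rintro ⟨c, h1, h2, _⟩
    exact absurd (hg c h2) (not_le.2 h1)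
  have hG : ∀ l μ, G (pw (G l) μ l) = G l := fun l μ =>
    (pw_upper hb l (pw (G l) μ l) (fun g hg => pw_not_mem hg)).2
  have hres : ∀ (ψ F : (E → Fin N) → ℝ), (∀ l l', (∀ g, g ∉ G l → l' g = l g) → ψ l' = ψ l) →
      av (fun l => ψ l * F l) = av (fun l => ψ l * av (fun μ => F (pw (G l) μ l))) := by
    intro ψ F hψ
    rw [av_resample G hG]
    apply av_congr
    intro l
    rw [← av_mul]
    exact av_congr (fun μ => by rw [hψ l _ (fun g hg => pw_not_mem hg)])
  let A : ℤ → (E → Fin N) → ℝ := fun h l => ind ((ℓ.dat (gp U L (fun _ => 0) l)).At r i h e)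
  let a : ℤ → (E → Fin N) → ℝ := fun h l => av (fun μ => A h (pw (G l) μ l))
  have ha : ∀ h l l', (∀ g, g ∉ G l → l' g = l g) → a h l' = a h l := by
    intro h l l' hl
    have e1 : G l' = G l := (pw_upper hb l l' hl).2
    simp only [a, e1]
    apply av_congr
    intro μ
    congr 1
    funext g
    by_cases hg : g ∈ G l
    · rw [pw_mem hg, pw_mem hg]
    · rw [pw_not_mem hg, pw_not_mem hg, hl g hg]
  have ha0 : ∀ h l, 0 ≤ a h l := fun h l => av_nonneg (fun _ => ind_nonneg _)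
  have hsmall : ∀ l, a τ l < Real.exp (-8) → 8 * a τ l ≤ a (τ - 1) l := by
    intro l hl
    have hB := bellman_line (U := U) (L := L) (i := i) (τ := τ) hb e l
    by_cases he : e ∈ (ℓ.dat (gp U L (fun _ => 0) l)).Xt r i τ
    · have e1 : av (fun μ : E → Fin N => ind (e ∉ (ℓ.dat (gp U L (fun _ => 0)
          (pw (ℓ.Gset r i τ (gp U L (fun _ => 0) l)) μ l))).Xt r i (τ - 1))) = a τ l := by
        apply av_congr
        intro μ
        apply ind_congr
        have hu := (pw_upper (U := U) (L := L) (i := i) (τ := τ) hb l (pw (G l) μ l)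
          (fun g hg => pw_not_mem hg)).1 i le_rfl τ le_rfl
        unfold At
        rw [← hu]
        simp only [he, true_and, G]
      rw [e1] at hB
      rcases (ha0 τ l).eq_or_lt with h0 | h0
      · rw [← h0, mul_zero]; exact ha0 _ _
      · have := Real.log_lt_log h0 hl
        rw [Real.log_exp] at this
        have h2 : 8 * a τ l ≤ - a τ l * Real.log (a τ l) := by nlinarith
        exact h2.trans hB
    · have e1 : a τ l = 0 := by
        rw [← av_const (α := E → Fin N) 0]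
        apply av_congr
        intro μ
        apply ind_neg
        have hu := (pw_upper (U := U) (L := L) (i := i) (τ := τ) hb l (pw (G l) μ l)
          (fun g hg => pw_not_mem hg)).1 i le_rfl τ le_rfl
        unfold At
        rw [← hu]
        exact fun h => he h.1
      rw [e1, mul_zero]; exact ha0 _ _
  have x1 := exclusive (U := U) (i := i) (τ := τ) hb hLN e
    (fun l => φ l * ind (Real.exp (-8) ≤ a τ l)) (fun l => mul_nonneg (hφ0 l) (ind_nonneg _))
    (fun l l' h => by simp only [hφ' l l' h, ha τ l l' h])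
  have x2 : av (fun l => φ l * ind (Real.exp (-8) ≤ a τ l)) ≤
      Real.exp 8 * av (fun l => φ l * A τ l) := by
    rw [hres φ (A τ) hφ', ← av_mul]
    apply av_mono
    intro l
    rw [mul_left_comm]
    apply mul_le_mul_of_nonneg_left _ (hφ0 l)
    by_cases h : Real.exp (-8) ≤ a τ l
    · rw [ind_pos h]
      calc (1 : ℝ) = Real.exp 8 * Real.exp (-8) := by rw [← Real.exp_add]; simp
        _ ≤ _ := mul_le_mul_of_nonneg_left h (Real.exp_pos _).le
    · rw [ind_neg h]; exact mul_nonneg (Real.exp_pos _).le (ha0 τ l)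
  have x3 : av (fun l => φ l * ind (a τ l < Real.exp (-8)) * A τ l) ≤
      (1 / 8) * av (fun l => φ l * A (τ - 1) l) := by
    rw [hres (fun l => φ l * ind (a τ l < Real.exp (-8))) (A τ)
      (fun l l' h => by simp only [hφ' l l' h, ha τ l l' h]), hres φ (A (τ - 1)) hφ', ← av_mul]
    apply av_mono
    intro l
    rw [mul_left_comm, mul_assoc]
    apply mul_le_mul_of_nonneg_left _ (hφ0 l)
    by_cases h : a τ l < Real.exp (-8)
    · rw [ind_pos h]
      have := hsmall l h
      simp only [a] at this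
      linarith
    · rw [ind_neg h, zero_mul]
      exact mul_nonneg (by norm_num) (ha0 _ l)
  have x4 : av (fun l => φ l * ind (ℓ.Bad r U L i τ e l)) ≤
      av (fun l => φ l * ind (Real.exp (-8) ≤ a τ l) * ind (ℓ.Bad r U L i τ e l)) +
      av (fun l => φ l * ind (a τ l < Real.exp (-8)) * A τ l) := by
    rw [← av_add]
    apply av_mono
    intro l
    rw [mul_assoc, mul_assoc, ← mul_add]
    apply mul_le_mul_of_nonneg_left _ (hφ0 l)
    by_cases h : Real.exp (-8) ≤ a τ l
    · rw [ind_pos h, ind_neg (not_lt.2 h)]; simp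
    · rw [ind_neg h, ind_pos (not_le.1 h), zero_mul, zero_add, one_mul]
      exact ind_mono (fun h => h.1)
  have x5 : 0 ≤ av (fun l => φ l * ind (Real.exp (-8) ≤ a τ l) * ind (ℓ.Bad r U L i τ e l)) :=
    av_nonneg (fun l => mul_nonneg (mul_nonneg (hφ0 l) (ind_nonneg _)) (ind_nonneg _))
  have x6 : av (fun l => φ l * ind (Real.exp (-8) ≤ a τ l) * ind (ℓ.Bad r U L i τ e l)) ≤
      (1 / 8) * av (fun l => φ l * A τ l) := by
    have y1 := mul_le_mul_of_nonneg_right hL x5
    have y2 := Real.exp_pos 8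
    have y3 := (y1.trans x1).trans x2
    rw [mul_comm 8, mul_assoc] at y3
    have := le_of_mul_le_mul_left y3 y2
    linarith
  simp only [A] at x3 x4 x6
  linarith

end Line

end Vale.Agent.P331
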