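import Vale.Agent.P331.Gain2

open scoped Classical
open Finset

namespace Vale.Agent.P331

open RankFn Dat Line

variable {E : Type} [Fintype E]

theorem geom_tail {x : ℝ} (hx : 2 ≤ x) (c a b : ℤ) :
    ∑ i ∈ Icc a b, ind (c ≤ i) * x ^ (-i) ≤ 2 * x ^ (-c) := by
  have hx0 : 0 < x := by linarith
  have key : ∀ b, c ≤ b → ∑ i ∈ Icc c b, x ^ (-i) ≤ 2 * x ^ (-c) - x ^ (-b) := by
    intro b hb
    induction b, hb using Int.leInduction with
    | base => simp; linarith
    | succ b hb ih =>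
      have e : Icc c (b + 1) = insert (b + 1) (Icc c b) := by
        ext i; simp only [mem_Icc, mem_insert]; omega
      rw [e, sum_insert (by simp)]
      have h1 : x ^ (-b) = x ^ (-(b + 1)) * x := by
        rw [← zpow_add_one₀ hx0.ne']; congr 1; ring
      have h2 : 0 < x ^ (-(b + 1)) := by positivity
      nlinarith
  calc ∑ i ∈ Icc a b, ind (c ≤ i) * x ^ (-i)
      = ∑ i ∈ (Icc a b).filter (fun i => c ≤ i), x ^ (-i) := by
        rw [sum_filter]
        refine sum_congr rfl (fun i _ => ?_)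
        by_cases h : c ≤ i <;> simp [ind, h]
    _ ≤ ∑ i ∈ Icc c (max b c), x ^ (-i) := by
        apply sum_le_sum_of_subset_of_nonneg
        · intro i hi
          simp only [mem_filter, mem_Icc] at hi ⊢
          omega
        · intro i _ _; positivity
    _ ≤ _ := by
        have := key _ (le_max_right b c)
        have h2 : 0 < x ^ (-(max b c)) := by positivity
        linarith

omit [Fintype E] in
theorem rk_biUnion_le (r : RankFn E) {ι : Type} (s : Finset ι) (f : ι → Finset E) :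
    r.ρ (s.biUnion f) ≤ ∑ i ∈ s, r.ρ (f i) := by
  induction s using Finset.induction_on with
  | empty => simp [r.empty]
  | insert a s ha ih =>
    rw [biUnion_insert, sum_insert ha]
    exact (rk_union_le _ _).trans (by omega)

/-- The rounded weight of a class. -/
noncomputable def wt (x : ℝ) : Option ℤ → ℝ
  | none => 0
  | some c => x ^ (-c)

theorem wt_nonneg {x : ℝ} (hx : 0 ≤ x) (o : Option ℤ) : 0 ≤ wt x o := by
  cases o
  · exact le_rfl
  · simp only [wt]; positivity

variable {r : RankFn E} {κ L N : ℕ}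

theorem total_gain [NeZero N] (hκ : 0 < κ) (hLN : L ≤ N)
    (hL : 8 * Real.exp 8 ≤ L) {s : ℝ} (hs : 0 ≤ s) (hs2 : Real.exp (-s) ≤ 1 / 2)
    (hη : 3 * (κ / N + 4 * Real.exp (-s) + 3 * s / κ) ≤ 1 / (48 * (L + 1)))
    (cls : E → Option ℤ) (A : Seed E L N → Finset E)
    (hA : ∀ σ : Seed E L N, GSpec r (mkFt r κ L σ.1.1 σ.1.2 cls σ.2.1 σ.2.2.1 σ.2.2.2)
      (mkCand r κ L σ.1.1 σ.1.2 cls σ.2.1 σ.2.2.1 σ.2.2.2) univ (A σ))
    {x : ℝ} (hx : x = 192 * (L + 1) * N) {I : Finset E} (hI : r.ρ I = I.card) :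
    1 / x * ∑ e ∈ I, wt x (cls e) ≤ av (fun σ => ∑ e ∈ A σ, wt x (cls e)) := by
  obtain ⟨c₀, hc₀⟩ := (Set.finite_range (fun e => (cls e).getD 0)).bddAbove
  obtain ⟨a, ha⟩ := (Set.finite_range (fun e => (cls e).getD 0)).bddBelow
  have hc : ∀ e c, cls e = some c → c ≤ c₀ := by
    intro e c h
    have := hc₀ (Set.mem_range_self e)
    simpa [h] using this
  have hc' : ∀ e c, cls e = some c → a ≤ c := by
    intro e c h
    have := ha (Set.mem_range_self e)
    simpa [h] using this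
  have hN : (1 : ℝ) ≤ N := by exact_mod_cast Nat.pos_of_ne_zero (NeZero.ne N)
  have hL0 : (0 : ℝ) ≤ L := by positivity
  have hx2 : 2 ≤ x := by rw [hx]; nlinarith
  have hx0 : 0 < x := by linarith
  set R : ℝ := ∑ c ∈ Icc a c₀, x ^ (-c) * r.ρ (Wc cls c) with hR
  have h1 : ∀ σ, ∑ i ∈ Icc a c₀, x ^ (-i) * ((A σ ∩ Hle cls i).card : ℝ) ≤
      2 * ∑ e ∈ A σ, wt x (cls e) := by
    intro σ
    simp only [← filter_mem_eq_inter, card_filter_eq_sum_ind, mul_sum]
    rw [sum_comm]
    apply sum_le_sum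
    intro e _
    cases h : cls e with
    | none =>
      rw [sum_eq_zero]
      · simp [wt]
      · intro i _
        rw [ind_neg, mul_zero]
        simp [Hle, h]
    | some c =>
      refine le_trans (le_of_eq ?_) (geom_tail hx2 c a c₀)
      refine sum_congr rfl (fun i _ => ?_)
      rw [mul_comm]
      congr 1
      apply ind_congr
      simp [Hle, h]
  have h2 : ∑ i ∈ Icc a c₀, x ^ (-i) * (r.ρ (Hlt cls i) : ℝ) ≤ 2 / x * R := by
    have a1 : ∀ i, (r.ρ (Hlt cls i) : ℝ) ≤ ∑ c ∈ Icc a c₀, ind (c + 1 ≤ i) * r.ρ (Wc cls c) := by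
      intro i
      have b1 : Hlt cls i ⊆ ((Icc a c₀).filter (fun c => c + 1 ≤ i)).biUnion (Wc cls) := by
        intro e he
        simp only [Hlt, mem_filter, mem_univ, true_and] at he
        obtain ⟨c, h1, h2⟩ := he
        exact mem_biUnion.2 ⟨c, mem_filter.2 ⟨mem_Icc.2 ⟨hc' e c h2, hc e c h2⟩, by omega⟩,
          mem_Wc.2 h2⟩
      have b2 := (r.mono b1).trans (rk_biUnion_le r _ _)
      refine (Nat.cast_le.2 b2).trans (le_of_eq ?_)
      rw [sum_filter]
      push_cast
      refine sum_congr rfl (fun c _ => ?_)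
      by_cases h : c + 1 ≤ i <;> simp [ind, h]
    refine (sum_le_sum (fun i _ => mul_le_mul_of_nonneg_left (a1 i) (by positivity))).trans ?_
    simp only [hR, mul_sum]
    rw [sum_comm]
    apply sum_le_sum
    intro c _
    have := mul_le_mul_of_nonneg_right (geom_tail hx2 (c + 1) a c₀)
      (Nat.cast_nonneg (r.ρ (Wc cls c)))
    rw [sum_mul] at this
    refine le_trans (le_of_eq (sum_congr rfl (fun i _ => by ring))) (this.trans (le_of_eq ?_))
    rw [neg_add, zpow_add₀ hx0.ne', zpow_neg_one]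
    field_simp
  have h3 : ∑ e ∈ I, wt x (cls e) ≤ R := by
    have a1 : ∀ e, wt x (cls e) = ∑ c ∈ Icc a c₀, x ^ (-c) * ind (cls e = some c) := by
      intro e
      cases h : cls e with
      | none => rw [sum_eq_zero (fun c _ => by rw [ind_neg (by simp), mul_zero])]; rfl
      | some c =>
        rw [sum_eq_single_of_mem c (mem_Icc.2 ⟨hc' e c h, hc e c h⟩), ind_pos rfl, mul_one]
        · rfl
        · intro b _ hb
          rw [ind_neg (by simpa using hb.symm), mul_zero]
    simp only [a1]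
    rw [sum_comm]
    apply sum_le_sum
    intro c _
    rw [← mul_sum, ← card_filter_eq_sum_ind]
    apply mul_le_mul_of_nonneg_left _ (by positivity)
    have b1 : r.Indm ∅ I := by unfold Indm; simp [r.empty, hI]
    have b2 := b1.subset (filter_subset (fun e => cls e = some c) I)
    unfold Indm at b2
    rw [empty_union, r.empty, zero_add] at b2
    rw [← b2]
    exact Nat.cast_le.2 (r.mono (fun e he => mem_Wc.2 (mem_filter.1 he).2))
  have h4 := sum_le_sum (fun i (hi : i ∈ Icc a c₀) => mul_le_mul_of_nonneg_left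
    (class_gain hκ hc hLN hL hs hs2 hη A hA i (mem_Icc.1 hi).2) (zpow_pos hx0 (-i)).le)
  simp only [← av_mul, ← av_sum] at h4
  have h5 := av_mono h1
  rw [av_mul] at h5
  have h6 : ∑ i ∈ Icc a c₀, x ^ (-i) * ((r.ρ (Wc cls i) : ℝ) / (48 * (L + 1) * N) -
      r.ρ (Hlt cls i)) = 4 / x * R - ∑ i ∈ Icc a c₀, x ^ (-i) * (r.ρ (Hlt cls i) : ℝ) := by
    rw [hR, mul_sum, ← sum_sub_distrib]
    refine sum_congr rfl (fun i _ => ?_)
    have : (48 * (L + 1) * N : ℝ) = x / 4 := by rw [hx]; ring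
    rw [this]
    field_simp
  rw [h6] at h4
  have h7 := mul_le_mul_of_nonneg_left h3 (by positivity : 0 ≤ 1 / x)
  have h8 : 4 / x * R = 4 * (1 / x * R) := by ring
  have h9 : 2 / x * R = 2 * (1 / x * R) := by ring
  linarith

theorem exists_params : ∃ (κ L N : ℕ) (s : ℝ), 0 < κ ∧ 0 < N ∧ L ≤ N ∧ 8 * Real.exp 8 ≤ L ∧
    0 ≤ s ∧ Real.exp (-s) ≤ 1 / 2 ∧
    3 * (κ / N + 4 * Real.exp (-s) + 3 * s / κ) ≤ 1 / (48 * (L + 1)) := by
  obtain ⟨L, hL⟩ := exists_nat_ge (8 * Real.exp 8)
  set t : ℕ := 48 * (L + 1) with ht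
  have ht0 : (1 : ℝ) ≤ t := by rw [ht]; push_cast; linarith [(Nat.cast_nonneg L : (0 : ℝ) ≤ L)]
  have he : Real.exp (-(36 * t : ℝ)) ≤ 1 / (36 * t) := by
    have := Real.add_one_le_exp (36 * t : ℝ)
    rw [Real.exp_neg, ← one_div]
    exact one_div_le_one_div_of_le (by positivity) (by linarith)
  refine ⟨27 * 36 * t ^ 2, L, 9 * 27 * 36 * t ^ 3, 36 * t, by positivity, by positivity, ?_, hL,
    by positivity, he.trans ?_, ?_⟩
  · have h1 : L ≤ t := by omega
    have h2 : t ≤ t ^ 3 := Nat.le_self_pow (by norm_num) t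
    omega
  · exact one_div_le_one_div_of_le (by norm_num) (by linarith)
  · have e : (48 * (L + 1) : ℝ) = t := by rw [ht]; push_cast; ring
    rw [e]
    push_cast
    have a1 : (972 * t ^ 2 : ℝ) / (8748 * t ^ 3) = 1 / (9 * t) := by field_simp; norm_num
    have a2 : (3 * (36 * t) : ℝ) / (972 * t ^ 2) = 1 / (9 * t) := by field_simp; norm_num
    have a3 : 4 * (1 / (36 * t) : ℝ) = 1 / (9 * t) := by field_simp; norm_num
    have a4 : 3 * (3 * (1 / (9 * t))) = (1 / t : ℝ) := by field_simp; norm_num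
    rw [a1, a2]
    linarith

end Vale.Agent.P331
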